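import Vale.Agent.P088.R2.H814.B2.KT1

/-!
# The difference frame and the cross term

`gg a f = p_a·D f - q_a·E f`, `Ds a s = s gg_a W - gg_a s`, `Ks a t = t μ_a - (p_a·D + q_a·E) t`,
`μ_a = (p_a·D + q_a·E) W`.  The integral of `ϑ ∑ Ds a s Ks a t` is computed exactly.
-/

open MeasureTheory Set Filter
open scoped ContDiff Topology

noncomputable section

namespace Vale.Agent.P088.R2.H814.B2

open Vale.Agent.P088.R2.H961.GW Vale.Agent.P088.R2.H960.W

variable {E ι κ α : Type*} [NormedAddCommGroup E] [NormedSpace ℝ E] [Fintype ι] [Fintype κ]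
  [Fintype α]

/-- The difference derivation. -/
def gg (σ : Sl E ι) (τ : Sl E κ) (p : α → ι → E → ℝ) (q : α → κ → E → ℝ) (a : α) (f : E → ℝ)
    (z : E) : ℝ := fD σ p a f z - fD τ q a f z

/-- The divergence of the difference derivation. -/
def gl (σ : Sl E ι) (τ : Sl E κ) (p : α → ι → E → ℝ) (q : α → κ → E → ℝ) (a : α) (z : E) : ℝ :=
  fl σ p a z - fl τ q a z

/-- Half of the sum of the divergences. -/
def gr (σ : Sl E ι) (τ : Sl E κ) (p : α → ι → E → ℝ) (q : α → κ → E → ℝ) (a : α) (z : E) : ℝ :=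
  1 / 2 * (fl σ p a z + fl τ q a z)

/-- The sum derivation. -/
def gs (σ : Sl E ι) (τ : Sl E κ) (p : α → ι → E → ℝ) (q : α → κ → E → ℝ) (a : α) (f : E → ℝ)
    (z : E) : ℝ := fD σ p a f z + fD τ q a f z

/-- The starred difference derivation. -/
def Ds (σ : Sl E ι) (τ : Sl E κ) (p : α → ι → E → ℝ) (q : α → κ → E → ℝ) (W : E → ℝ) (a : α)
    (f : E → ℝ) (z : E) : ℝ := gg σ τ p q a W z * f z - gg σ τ p q a f z

/-- The starred sum derivation. -/
def Ks (σ : Sl E ι) (τ : Sl E κ) (p : α → ι → E → ℝ) (q : α → κ → E → ℝ) (W : E → ℝ) (a : α)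
    (f : E → ℝ) (z : E) : ℝ := gs σ τ p q a W z * f z - gs σ τ p q a f z

/-- The data: two slots with frames. -/
structure Fr (σ : Sl E ι) (τ : Sl E κ) (p : α → ι → E → ℝ) (q : α → κ → E → ℝ) (U : Set E)
    (θ : E → ℝ) : Prop where
  ok : σ.Ok U θ
  ot : τ.Ok U θ
  cm : Cm σ τ U
  hp : ∀ a i, Sm U (p a i)
  hq : ∀ a i, Sm U (q a i)
  hp0 : ∀ z ∈ U, ∀ a i k, τ.D k (p a i) z = 0
  hq0 : ∀ z ∈ U, ∀ a k i, σ.D i (q a k) z = 0
  fp : ∀ z ∈ U, ∀ i j, ∑ a, p a i z * p a j z = σ.s i j z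
  fq : ∀ z ∈ U, ∀ i j, ∑ a, q a i z * q a j z = τ.s i j z

section pw

variable {σ : Sl E ι} {τ : Sl E κ} {U : Set E} {θ : E → ℝ} {v W f g h s t ϑ : E → ℝ} {z : E}
  {p : α → ι → E → ℝ} {q : α → κ → E → ℝ}

theorem s_gg (F : Fr σ τ p q U θ) (hf : Sm U f) (a : α) : Sm U (gg σ τ p q a f) :=
  (s_fD F.ok F.hp hf a).sub (s_fD F.ot F.hq hf a)

theorem t_gg (F : Fr σ τ p q U θ) (hf : Te U f) (a : α) : Te U (gg σ τ p q a f) :=
  (t_fD F.ok F.hp hf a).sub F.ok.op (t_fD F.ot F.hq hf a)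

theorem s_gs (F : Fr σ τ p q U θ) (hf : Sm U f) (a : α) : Sm U (gs σ τ p q a f) :=
  (s_fD F.ok F.hp hf a).add (s_fD F.ot F.hq hf a)

theorem t_gs (F : Fr σ τ p q U θ) (hf : Te U f) (a : α) : Te U (gs σ τ p q a f) :=
  (t_fD F.ok F.hp hf a).add F.ok.op (t_fD F.ot F.hq hf a)

theorem s_gl (F : Fr σ τ p q U θ) (a : α) : Sm U (gl σ τ p q a) :=
  (s_fl F.ok F.hp a).sub (s_fl F.ot F.hq a)

theorem s_gr (F : Fr σ τ p q U θ) (a : α) : Sm U (gr σ τ p q a) :=
  contDiffOn_const.mul ((s_fl F.ok F.hp a).add (s_fl F.ot F.hq a))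

theorem t_Ds (F : Fr σ τ p q U θ) (hW : Sm U W) (hf : Te U f) (a : α) :
    Te U (Ds σ τ p q W a f) :=
  (hf.mul_left F.ok.op (s_gg F hW a)).sub F.ok.op (t_gg F hf a)

theorem t_Ks (F : Fr σ τ p q U θ) (hW : Sm U W) (hf : Te U f) (a : α) :
    Te U (Ks σ τ p q W a f) :=
  (hf.mul_left F.ok.op (s_gs F hW a)).sub F.ok.op (t_gs F hf a)

omit [Fintype α] in
theorem gg_mul (hU : IsOpen U) (hf : Sm U f) (hg : Sm U g) (a : α) (hz : z ∈ U) :
    gg σ τ p q a (fun z => f z * g z) z = gg σ τ p q a f z * g z + f z * gg σ τ p q a g z := by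
  unfold gg
  rw [fD_mul hU hf hg a hz, fD_mul hU hf hg a hz]
  ring

omit [Fintype α] in
theorem gg_add (hU : IsOpen U) (hf : Sm U f) (hg : Sm U g) (a : α) (hz : z ∈ U) :
    gg σ τ p q a (fun z => f z + g z) z = gg σ τ p q a f z + gg σ τ p q a g z := by
  unfold gg
  rw [fD_add hU hf hg a hz, fD_add hU hf hg a hz]
  ring

/-- The commutator of the two conjugated frames. -/
theorem A_comm (F : Fr σ τ p q U θ) (hW : Sm U W) (hf : Sm U f) (a : α) (hz : z ∈ U) :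
    fD σ p a (fA τ q W a f) z - fD τ q a (fA σ p W a f) z =
      fA σ p W a f z * fD τ q a W z - fA τ q W a f z * fD σ p a W z := by
  have hU := F.ok.op
  have e1 : fD σ p a (fA τ q W a f) z = fD σ p a (fun z => fD τ q a f z +
      f z * fD τ q a W z) z := rfl
  have e2 : fD τ q a (fA σ p W a f) z = fD τ q a (fun z => fD σ p a f z +
      f z * fD σ p a W z) z := rfl
  have a1 := s_fD F.ok F.hp hf a
  have a2 := s_fD F.ot F.hq hf a
  have b1 := s_fD F.ok F.hp hW a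
  have b2 := s_fD F.ot F.hq hW a
  rw [e1, e2, fD_add hU a2 (hf.mul b2) a hz, fD_add hU a1 (hf.mul b1) a hz,
    fD_mul hU hf b2 a hz, fD_mul hU hf b1 a hz,
    fD_comm F.ok F.ot F.cm F.hp F.hq F.hp0 F.hq0 hf a a hz,
    fD_comm F.ok F.ot F.cm F.hp F.hq F.hp0 F.hq0 hW a a hz]
  unfold fA
  ring

end pw

variable [MeasureSpace E] [FiniteDimensional ℝ E] [BorelSpace E]
  [(volume : Measure E).IsAddHaarMeasure]

section integral

variable {σ : Sl E ι} {τ : Sl E κ} {U : Set E} {θ : E → ℝ} {v₁ v₂ W f g h s t ϑ : E → ℝ}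
  {p : α → ι → E → ℝ} {q : α → κ → E → ℝ}

theorem gibp (F : Fr σ τ p q U θ) (hh : Te U h) (a : α) :
    In U θ (fun z => gg σ τ p q a h z + gl σ τ p q a z * h z) = 0 := by
  have hU := F.ok.op
  have e1 := fibp F.ok F.hp hh a
  have e2 := fibp F.ot F.hq hh a
  have t1 : Te U fun z => fD σ p a h z + fl σ p a z * h z :=
    (t_fD F.ok F.hp hh a).add hU (hh.mul_left hU (s_fl F.ok F.hp a))
  have t2 : Te U fun z => fD τ q a h z + fl τ q a z * h z :=
    (t_fD F.ot F.hq hh a).add hU (hh.mul_left hU (s_fl F.ot F.hq a))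
  have e3 : In U θ (fun z => gg σ τ p q a h z + gl σ τ p q a z * h z) =
      In U θ (fun z => (fD σ p a h z + fl σ p a z * h z) -
        (fD τ q a h z + fl τ q a z * h z)) := by
    refine In_congr hU fun z _ => ?_
    unfold gg gl
    ring
  rw [e3, In_sub hU F.ok.ts t1 t2, e1, e2, sub_zero]

/-- The exact right-hand side of the cross term. -/
def xr (σ : Sl E ι) (τ : Sl E κ) (p : α → ι → E → ℝ) (q : α → κ → E → ℝ) (v₁ v₂ W ϑ s t : E → ℝ)
    (z : E) : ℝ :=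
  ϑ z * s z * (-(σ.P v₁ W t z - τ.P v₂ W t z) + (v₁ z - v₂ z) * t z) +
    ∑ a, ((2 * gs σ τ p q a W z + gr σ τ p q a z) * t z *
        (ϑ z * Ds σ τ p q W a s z - gg σ τ p q a ϑ z * s z) +
      (gg σ τ p q a ϑ z + 1 / 2 * gl σ τ p q a z * ϑ z) * s z * Ks σ τ p q W a t z -
      ϑ z * s z * t z * (gl σ τ p q a z * gs σ τ p q a W z +
        gg σ τ p q a (gr σ τ p q a) z + gl σ τ p q a z * gr σ τ p q a z))

omit [MeasureSpace E] [FiniteDimensional ℝ E] [BorelSpace E]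
  [(volume : Measure E).IsAddHaarMeasure] in
theorem t_xr (F : Fr σ τ p q U θ) (h₁ : Sm U v₁) (h₂ : Sm U v₂) (hW : Sm U W) (hs : Te U s)
    (ht : Te U t) (hϑ : Sm U ϑ) : Te U (xr σ τ p q v₁ v₂ W ϑ s t) := by
  have hU := F.ok.op
  refine Te.add hU ?_ (Te.sum hU _ fun a _ => ?_)
  · exact (((F.ok.tP h₁ hW ht).sub hU (F.ot.tP h₂ hW ht)).neg hU |>.add hU
      (ht.mul_left hU (h₁.sub h₂))).mul_left hU (hϑ.mul hs.sm)
  · have m1 := s_gs F hW a
    have m2 := s_gr F a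
    have m3 := s_gl F a
    have k1 : Te U fun z => (2 * gs σ τ p q a W z + gr σ τ p q a z) * t z *
        (ϑ z * Ds σ τ p q W a s z - gg σ τ p q a ϑ z * s z) :=
      (((t_Ds F hW hs a).mul_left hU hϑ).sub hU (hs.mul_left hU (s_gg F hϑ a))).mul_left hU
        (((contDiffOn_const.mul m1).add m2).mul ht.sm)
    have k2 : Te U fun z => (gg σ τ p q a ϑ z + 1 / 2 * gl σ τ p q a z * ϑ z) * s z *
        Ks σ τ p q W a t z :=
      (t_Ks F hW ht a).mul_left hU
        (((s_gg F hϑ a).add ((contDiffOn_const.mul m3).mul hϑ)).mul hs.sm)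
    have k3 : Te U fun z => ϑ z * s z * t z * (gl σ τ p q a z * gs σ τ p q a W z +
        gg σ τ p q a (gr σ τ p q a) z + gl σ τ p q a z * gr σ τ p q a z) :=
      (ht.mul_left hU (hϑ.mul hs.sm)).mul_right hU
        (((m3.mul m1).add (s_gg F m2 a)).add (m3.mul m2))
    exact (k1.add hU k2).sub hU k3

/-- **The cross term.** -/
theorem cross (F : Fr σ τ p q U θ) (h₁ : Sm U v₁) (h₂ : Sm U v₂) (hW : Sm U W) (hs : Te U s)
    (ht : Te U t) (hϑ : Sm U ϑ) :
    In U θ (fun z => ∑ a, ϑ z * (Ds σ τ p q W a s z * Ks σ τ p q W a t z)) =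
      In U θ (xr σ τ p q v₁ v₂ W ϑ s t) := by
  have hU := F.ok.op
  have sA := fun a => s_fA F.ok F.hp hW ht.sm a
  have sB := fun a => s_fA F.ot F.hq hW ht.sm a
  have sR := fun a => s_gr F (σ := σ) (τ := τ) (p := p) (q := q) a
  have sS : ∀ a, Sm U fun z => fA σ p W a t z + fA τ q W a t z + gr σ τ p q a z * t z :=
    fun a => ((sA a).add (sB a)).add ((sR a).mul ht.sm)
  have sϑs : Sm U fun z => ϑ z * s z := hϑ.mul hs.sm
  have th : ∀ a, Te U fun z => (ϑ z * s z) * (fA σ p W a t z + fA τ q W a t z +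
      gr σ τ p q a z * t z) := fun a => (hs.mul_left hU hϑ).mul_right hU (sS a)
  have tg : ∀ a ∈ Finset.univ, Te U fun z => gg σ τ p q a (fun z => (ϑ z * s z) *
      (fA σ p W a t z + fA τ q W a t z + gr σ τ p q a z * t z)) z +
      gl σ τ p q a z * ((ϑ z * s z) * (fA σ p W a t z + fA τ q W a t z +
      gr σ τ p q a z * t z)) := fun a _ =>
    (t_gg F (th a) a).add hU ((th a).mul_left hU (s_gl F a))
  have e0 : In U θ (fun z => ∑ a, (gg σ τ p q a (fun z => (ϑ z * s z) *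
      (fA σ p W a t z + fA τ q W a t z + gr σ τ p q a z * t z)) z +
      gl σ τ p q a z * ((ϑ z * s z) * (fA σ p W a t z + fA τ q W a t z +
      gr σ τ p q a z * t z)))) = 0 := by
    rw [In_sum hU F.ok.ts _ tg]
    exact Finset.sum_eq_zero fun a _ => gibp F (th a) a
  have tL : Te U fun z => ∑ a, ϑ z * (Ds σ τ p q W a s z * Ks σ τ p q W a t z) :=
    Te.sum hU _ fun a _ => ((t_Ks F hW ht a).mul_left hU (t_Ds F hW hs a).sm).mul_left hU hϑ
  have key : In U θ (xr σ τ p q v₁ v₂ W ϑ s t) =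
      In U θ (fun z => (∑ a, ϑ z * (Ds σ τ p q W a s z * Ks σ τ p q W a t z)) -
        ∑ a, (gg σ τ p q a (fun z => (ϑ z * s z) *
      (fA σ p W a t z + fA τ q W a t z + gr σ τ p q a z * t z)) z +
      gl σ τ p q a z * ((ϑ z * s z) * (fA σ p W a t z + fA τ q W a t z +
      gr σ τ p q a z * t z)))) := by
    refine In_congr hU fun z hz => ?_
    have P1 := fP F.ok F.hp F.fp v₁ hW ht.sm hz
    have P2 := fP F.ot F.hq F.fq v₂ hW ht.sm hz
    have e1 : ∀ a, gg σ τ p q a (fun z => (ϑ z * s z) *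
      (fA σ p W a t z + fA τ q W a t z + gr σ τ p q a z * t z)) z =
      (gg σ τ p q a ϑ z * s z + ϑ z * gg σ τ p q a s z) * (fA σ p W a t z + fA τ q W a t z +
        gr σ τ p q a z * t z) + (ϑ z * s z) * (fD σ p a (fA σ p W a t) z -
        fD τ q a (fA τ q W a t) z + (fA σ p W a t z * fD τ q a W z -
        fA τ q W a t z * fD σ p a W z) + gg σ τ p q a (gr σ τ p q a) z * t z +
        gr σ τ p q a z * gg σ τ p q a t z) := by
      intro a
      have c := A_comm F hW ht.sm a hz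
      rw [gg_mul hU sϑs (sS a) a hz, gg_mul hU hϑ hs.sm a hz,
        gg_add hU ((sA a).add (sB a)) ((sR a).mul ht.sm) a hz, gg_add hU (sA a) (sB a) a hz,
        gg_mul hU (sR a) ht.sm a hz, ← c]
      unfold gg
      ring
    unfold xr
    have e2 : -(σ.P v₁ W t z - τ.P v₂ W t z) + (v₁ z - v₂ z) * t z =
        -(∑ a, (fD σ p a (fA σ p W a t) z + fD σ p a W z * fA σ p W a t z +
          fl σ p a z * fA σ p W a t z)) +
        ∑ a, (fD τ q a (fA τ q W a t) z + fD τ q a W z * fA τ q W a t z +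
          fl τ q a z * fA τ q W a t z) := by
      rw [P1, P2]; ring
    rw [e2, ← Finset.sum_neg_distrib, ← Finset.sum_add_distrib, Finset.mul_sum,
      ← Finset.sum_add_distrib, ← Finset.sum_sub_distrib]
    refine Finset.sum_congr rfl fun a _ => ?_
    rw [e1 a]
    unfold Ds Ks fA gg gs gl gr
    ring
  rw [key, In_sub hU F.ok.ts tL (Te.sum hU _ tg), e0, sub_zero]

/-- **The starred square.** -/
theorem star_sq (F : Fr σ τ p q U θ) (hW : Sm U W) (hs : Te U s) (hϑ : Sm U ϑ) :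
    In U θ (fun z => ∑ a, ϑ z * Ds σ τ p q W a s z ^ 2) =
      In U θ (fun z => ∑ a, ϑ z * gg σ τ p q a s z ^ 2) +
      In U θ (fun z => (∑ a, (ϑ z * gg σ τ p q a W z ^ 2 +
        gg σ τ p q a (fun z => ϑ z * gg σ τ p q a W z) z +
        gl σ τ p q a z * (ϑ z * gg σ τ p q a W z))) * s z ^ 2) := by
  have hU := F.ok.op
  have ts := hs.sq hU
  have sO := fun a => s_gg F hW (τ := τ) a
  have sϑO : ∀ a, Sm U fun z => ϑ z * gg σ τ p q a W z := fun a => hϑ.mul (sO a)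
  have th : ∀ a, Te U fun z => (ϑ z * gg σ τ p q a W z) * s z ^ 2 := fun a =>
    ts.mul_left hU (sϑO a)
  have tg : ∀ a ∈ Finset.univ, Te U fun z => gg σ τ p q a
      (fun z => (ϑ z * gg σ τ p q a W z) * s z ^ 2) z +
      gl σ τ p q a z * ((ϑ z * gg σ τ p q a W z) * s z ^ 2) := fun a _ =>
    (t_gg F (th a) a).add hU ((th a).mul_left hU (s_gl F a))
  have e0 : In U θ (fun z => ∑ a, (gg σ τ p q a
      (fun z => (ϑ z * gg σ τ p q a W z) * s z ^ 2) z +
      gl σ τ p q a z * ((ϑ z * gg σ τ p q a W z) * s z ^ 2))) = 0 := by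
    rw [In_sum hU F.ok.ts _ tg]
    exact Finset.sum_eq_zero fun a _ => gibp F (th a) a
  have t1 : Te U fun z => ∑ a, ϑ z * gg σ τ p q a s z ^ 2 :=
    Te.sum hU _ fun a _ => ((t_gg F hs a).sq hU).mul_left hU hϑ
  have t2 : Te U fun z => (∑ a, (ϑ z * gg σ τ p q a W z ^ 2 +
        gg σ τ p q a (fun z => ϑ z * gg σ τ p q a W z) z +
        gl σ τ p q a z * (ϑ z * gg σ τ p q a W z))) * s z ^ 2 :=
    ts.mul_left hU (Sm.sum _ fun a _ => ((hϑ.mul ((sO a).pow 2)).add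
      (s_gg F (sϑO a) a)).add ((s_gl F a).mul (sϑO a)))
  have key : In U θ (fun z => ∑ a, ϑ z * Ds σ τ p q W a s z ^ 2) =
      In U θ (fun z => ((∑ a, ϑ z * gg σ τ p q a s z ^ 2) +
        (∑ a, (ϑ z * gg σ τ p q a W z ^ 2 +
        gg σ τ p q a (fun z => ϑ z * gg σ τ p q a W z) z +
        gl σ τ p q a z * (ϑ z * gg σ τ p q a W z))) * s z ^ 2) -
        ∑ a, (gg σ τ p q a (fun z => (ϑ z * gg σ τ p q a W z) * s z ^ 2) z +
      gl σ τ p q a z * ((ϑ z * gg σ τ p q a W z) * s z ^ 2))) := by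
    refine In_congr hU fun z hz => ?_
    rw [Finset.sum_mul, ← Finset.sum_add_distrib, ← Finset.sum_sub_distrib]
    refine Finset.sum_congr rfl fun a _ => ?_
    have e1 : gg σ τ p q a (fun z => s z ^ 2) z = 2 * s z * gg σ τ p q a s z := by
      have : gg σ τ p q a (fun z => s z ^ 2) z = gg σ τ p q a (fun z => s z * s z) z := by
        simp only [pow_two]
      rw [this, gg_mul hU hs.sm hs.sm a hz]
      ring
    rw [gg_mul hU (sϑO a) ts.sm a hz, e1]
    unfold Ds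
    ring
  rw [key, In_sub hU F.ok.ts (t1.add hU t2) (Te.sum hU _ tg), e0, sub_zero,
    In_add hU F.ok.ts t1 t2]

end integral

end Vale.Agent.P088.R2.H814.B2
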