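import Vale.Agent.P088.R2.H961.W.Sl
import Mathlib.Analysis.SpecialFunctions.ExpDeriv

/-!
# An anisotropic symbol calculus, uniform over families

`P i` are the slow directions, `Q l` the fast ones.  `An P Q U r g k j f`: for `r ≤ 1` every
derivative of `f a` of order at most `k` along the directions `P i`, `Q l` is at most
`C g r^{(j - b)⁺}`, where `b` is the number of fast directions used.
-/

open Set Filter
open scoped ContDiff Topology

noncomputable section

namespace Vale.Agent.P088.R2.H814.An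

open Vale.Agent.P088.R2.H961.GW

variable {E ι κ α : Type*} [NormedAddCommGroup E] [NormedSpace ℝ E]

/-- The directional derivative. -/
def dd (v : E) (f : E → ℝ) (z : E) : ℝ := fderiv ℝ f z v

section dd

variable {U : Set E} {f g : E → ℝ} {z v : E}

theorem dd_congr (hU : IsOpen U) (h : ∀ z ∈ U, f z = g z) (v : E) (hz : z ∈ U) :
    dd v f z = dd v g z := by
  have : f =ᶠ[𝓝 z] g := by
    filter_upwards [hU.mem_nhds hz] with w hw using h w hw
  simp only [dd, this.fderiv_eq]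

theorem dd_add (hU : IsOpen U) (hf : Sm U f) (hg : Sm U g) (v : E) (hz : z ∈ U) :
    dd v (fun z => f z + g z) z = dd v f z + dd v g z := by
  simp only [dd]
  rw [fderiv_fun_add (hf.diff hU hz) (hg.diff hU hz)]
  simp only [_root_.add_apply]

theorem dd_mul (hU : IsOpen U) (hf : Sm U f) (hg : Sm U g) (v : E) (hz : z ∈ U) :
    dd v (fun z => f z * g z) z = dd v f z * g z + f z * dd v g z := by
  simp only [dd]
  rw [fderiv_fun_mul (hf.diff hU hz) (hg.diff hU hz)]
  simp only [_root_.add_apply, _root_.smul_apply, smul_eq_mul]; ring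

theorem dd_const (c : ℝ) (v z : E) : dd v (fun _ : E => c) z = 0 := by simp [dd]

theorem dd_comp (hU : IsOpen U) (hf : Sm U f) {F : ℝ → ℝ} {F' : ℝ} (v : E) (hz : z ∈ U)
    (hF : HasDerivAt F F' (f z)) : dd v (fun z => F (f z)) z = F' * dd v f z := by
  have h1 := hF.comp_hasFDerivAt z (hf.diff hU hz).hasFDerivAt
  have h2 : fderiv ℝ (fun z => F (f z)) z = F' • fderiv ℝ f z := h1.fderiv
  simp only [dd, h2, _root_.smul_apply, smul_eq_mul]

theorem sm_dd (hU : IsOpen U) (hf : Sm U f) (v : E) : Sm U (dd v f) := hf.fd hU v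

end dd

/-- Order zero. -/
def A0 (U : α → Set E) (r g : α → E → ℝ) (j : ℕ) (f : α → E → ℝ) : Prop :=
  (∀ a, Sm (U a) (f a)) ∧ ∃ C, ∀ a, ∀ z ∈ U a, |f a z| ≤ C * (g a z * r a z ^ j)

/-- Anisotropic symbols. -/
def An (P : ι → E) (Q : κ → E) (U : α → Set E) (r g : α → E → ℝ) :
    ℕ → ℕ → (α → E → ℝ) → Prop
  | 0, j, f => A0 U r g j f
  | k + 1, j, f => A0 U r g j f ∧ (∀ i, An P Q U r g k j fun a => dd (P i) (f a)) ∧
      ∀ l, An P Q U r g k (j - 1) fun a => dd (Q l) (f a)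

/-- The base assumptions. -/
structure Bs (U : α → Set E) (r : α → E → ℝ) : Prop where
  op : ∀ a, IsOpen (U a)
  r0 : ∀ a, ∀ z ∈ U a, 0 ≤ r a z
  r1 : ∀ a, ∀ z ∈ U a, r a z ≤ 1

variable {P : ι → E} {Q : κ → E} {U : α → Set E} {r g g₁ g₂ : α → E → ℝ} {k j j' : ℕ}
  {f f' u : α → E → ℝ}

theorem A0.congr (h : A0 U r g j f) (e : ∀ a, ∀ z ∈ U a, f' a z = f a z) : A0 U r g j f' := by
  obtain ⟨h1, C, h2⟩ := h
  exact ⟨fun a => (h1 a).congr (e a), C, fun a z hz => by rw [e a z hz]; exact h2 a z hz⟩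

theorem A0.mono_j (B : Bs U r) (hg : ∀ a, ∀ z ∈ U a, 0 ≤ g a z) (h : A0 U r g j f)
    (hj : j' ≤ j) : A0 U r g j' f := by
  obtain ⟨h1, C, h2⟩ := h
  refine ⟨h1, |C|, fun a z hz => (h2 a z hz).trans ?_⟩
  have e1 : 0 ≤ g a z * r a z ^ j := mul_nonneg (hg a z hz) (pow_nonneg (B.r0 a z hz) _)
  refine (mul_le_mul_of_nonneg_right (le_abs_self C) e1).trans ?_
  exact mul_le_mul_of_nonneg_left (mul_le_mul_of_nonneg_left
    (pow_le_pow_of_le_one (B.r0 a z hz) (B.r1 a z hz) hj) (hg a z hz)) (abs_nonneg _)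

theorem A0.mono_g (B : Bs U r) (hg : ∀ a, ∀ z ∈ U a, 0 ≤ g a z) (h : A0 U r g j f)
    {A : ℝ} (hA : ∀ a, ∀ z ∈ U a, g a z ≤ A * g₁ a z) : A0 U r g₁ j f := by
  obtain ⟨h1, C, h2⟩ := h
  refine ⟨h1, |C| * A, fun a z hz => (h2 a z hz).trans ?_⟩
  have e0 : 0 ≤ r a z ^ j := pow_nonneg (B.r0 a z hz) _
  have e1 : 0 ≤ g a z * r a z ^ j := mul_nonneg (hg a z hz) e0
  calc C * (g a z * r a z ^ j) ≤ |C| * (g a z * r a z ^ j) :=
        mul_le_mul_of_nonneg_right (le_abs_self C) e1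
    _ ≤ |C| * ((A * g₁ a z) * r a z ^ j) :=
        mul_le_mul_of_nonneg_left (mul_le_mul_of_nonneg_right (hA a z hz) e0) (abs_nonneg _)
    _ = |C| * A * (g₁ a z * r a z ^ j) := by ring

theorem A0.add (h : A0 U r g j f) (h' : A0 U r g j f') : A0 U r g j fun a z => f a z + f' a z := by
  obtain ⟨h1, C, h2⟩ := h
  obtain ⟨h1', C', h2'⟩ := h'
  refine ⟨fun a => (h1 a).add (h1' a), C + C', fun a z hz => (abs_add_le _ _).trans ?_⟩
  rw [add_mul]
  exact add_le_add (h2 a z hz) (h2' a z hz)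

theorem A0.mul (h : A0 U r g₁ j f) (h' : A0 U r g₂ j' f') :
    A0 U r (fun a z => g₁ a z * g₂ a z) (j + j') fun a z => f a z * f' a z := by
  obtain ⟨h1, C, h2⟩ := h
  obtain ⟨h1', C', h2'⟩ := h'
  refine ⟨fun a => (h1 a).mul (h1' a), C * C', fun a z hz => ?_⟩
  rw [abs_mul]
  calc |f a z| * |f' a z| ≤ (C * (g₁ a z * r a z ^ j)) * (C' * (g₂ a z * r a z ^ j')) :=
        mul_le_mul (h2 a z hz) (h2' a z hz) (abs_nonneg _) ((abs_nonneg _).trans (h2 a z hz))
    _ = C * C' * (g₁ a z * g₂ a z * r a z ^ (j + j')) := by rw [pow_add]; ring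

theorem An.zero (h : An P Q U r g k j f) : A0 U r g j f := by
  cases k with
  | zero => exact h
  | succ k => exact h.1

theorem An.sm (h : An P Q U r g k j f) (a : α) : Sm (U a) (f a) := h.zero.1 a

theorem An.bd (h : An P Q U r g k j f) :
    ∃ C, ∀ a, ∀ z ∈ U a, |f a z| ≤ C * (g a z * r a z ^ j) := h.zero.2

theorem An.congr (B : Bs U r) (h : An P Q U r g k j f) (e : ∀ a, ∀ z ∈ U a, f' a z = f a z) :
    An P Q U r g k j f' := by
  induction k generalizing j f f' with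
  | zero => exact A0.congr h e
  | succ k ih =>
    obtain ⟨h0, hp, hq⟩ := h
    exact ⟨h0.congr e, fun i => ih (hp i) fun a z hz => dd_congr (B.op a) (e a) _ hz,
      fun l => ih (hq l) fun a z hz => dd_congr (B.op a) (e a) _ hz⟩

theorem An.pred (h : An P Q U r g (k + 1) j f) : An P Q U r g k j f := by
  induction k generalizing j f with
  | zero => exact h.1
  | succ k ih =>
    obtain ⟨h0, hp, hq⟩ := h
    exact ⟨h0, fun i => ih (hp i), fun l => ih (hq l)⟩

theorem An.mono_k {k' : ℕ} (h : An P Q U r g k j f) (hk : k' ≤ k) : An P Q U r g k' j f := by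
  induction hk with
  | refl => exact h
  | step _ ih => exact ih h.pred

theorem An.mono_j (B : Bs U r) (hg : ∀ a, ∀ z ∈ U a, 0 ≤ g a z) (h : An P Q U r g k j f)
    (hj : j' ≤ j) : An P Q U r g k j' f := by
  induction k generalizing j j' f with
  | zero => exact A0.mono_j B hg h hj
  | succ k ih =>
    obtain ⟨h0, hp, hq⟩ := h
    exact ⟨h0.mono_j B hg hj, fun i => ih (hp i) hj, fun l => ih (hq l) (by omega)⟩

theorem An.mono_g (B : Bs U r) (hg : ∀ a, ∀ z ∈ U a, 0 ≤ g a z) (h : An P Q U r g k j f)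
    {A : ℝ} (hA : ∀ a, ∀ z ∈ U a, g a z ≤ A * g₁ a z) : An P Q U r g₁ k j f := by
  induction k generalizing j f with
  | zero => exact A0.mono_g B hg h hA
  | succ k ih =>
    obtain ⟨h0, hp, hq⟩ := h
    exact ⟨h0.mono_g B hg hA, fun i => ih (hp i), fun l => ih (hq l)⟩

theorem An.wcongr (h : An P Q U r g k j f) (e : ∀ a, ∀ z ∈ U a, g₁ a z = g a z) :
    An P Q U r g₁ k j f := by
  have key : ∀ {j f}, A0 U r g j f → A0 U r g₁ j f := by
    intro j f h
    obtain ⟨h1, C, h2⟩ := h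
    exact ⟨h1, C, fun a z hz => by rw [e a z hz]; exact h2 a z hz⟩
  induction k generalizing j f with
  | zero => exact key h
  | succ k ih => exact ⟨key h.1, fun i => ih (h.2.1 i), fun l => ih (h.2.2 l)⟩

theorem An.add (B : Bs U r) (h : An P Q U r g k j f) (h' : An P Q U r g k j f') :
    An P Q U r g k j fun a z => f a z + f' a z := by
  induction k generalizing j f f' with
  | zero => exact A0.add h h'
  | succ k ih =>
    have s1 := h.sm
    have s2 := h'.sm
    obtain ⟨h0, hp, hq⟩ := h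
    obtain ⟨h0', hp', hq'⟩ := h'
    refine ⟨h0.add h0', fun i => ?_, fun l => ?_⟩
    · exact (ih (hp i) (hp' i)).congr B fun a z hz => dd_add (B.op a) (s1 a) (s2 a) _ hz
    · exact (ih (hq l) (hq' l)).congr B fun a z hz => dd_add (B.op a) (s1 a) (s2 a) _ hz

theorem An.mul (B : Bs U r) (h₁ : ∀ a, ∀ z ∈ U a, 0 ≤ g₁ a z) (h₂ : ∀ a, ∀ z ∈ U a, 0 ≤ g₂ a z)
    (h : An P Q U r g₁ k j f) (h' : An P Q U r g₂ k j' f') :
    An P Q U r (fun a z => g₁ a z * g₂ a z) k (j + j') fun a z => f a z * f' a z := by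
  have hg : ∀ a, ∀ z ∈ U a, 0 ≤ g₁ a z * g₂ a z := fun a z hz => mul_nonneg (h₁ a z hz) (h₂ a z hz)
  induction k generalizing j j' f f' with
  | zero => exact A0.mul h h'
  | succ k ih =>
    have s1 := h.sm
    have s2 := h'.sm
    have q1 := h.pred
    have q2 := h'.pred
    obtain ⟨h0, hp, hq⟩ := h
    obtain ⟨h0', hp', hq'⟩ := h'
    refine ⟨h0.mul h0', fun i => ?_, fun l => ?_⟩
    · refine ((ih (hp i) q2).add B (ih q1 (hp' i))).congr B fun a z hz => ?_
      exact dd_mul (B.op a) (s1 a) (s2 a) _ hz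
    · refine (((ih (hq l) q2).mono_j B hg (j' := j + j' - 1) (by omega)).add B
        ((ih q1 (hq' l)).mono_j B hg (j' := j + j' - 1) (by omega))).congr B fun a z hz => ?_
      exact dd_mul (B.op a) (s1 a) (s2 a) _ hz

theorem An.const (B : Bs U r) (hg : ∀ a, ∀ z ∈ U a, 0 ≤ g a z) (c : α → ℝ)
    (hc : ∃ C, ∀ a, ∀ z ∈ U a, |c a| ≤ C * g a z) : An P Q U r g k 0 fun a _ => c a := by
  obtain ⟨C, hC⟩ := hc
  induction k generalizing C c with
  | zero => exact ⟨fun a => contDiffOn_const, C, fun a z hz => by simpa using hC a z hz⟩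
  | succ k ih =>
    refine ⟨⟨fun a => contDiffOn_const, C, fun a z hz => by simpa using hC a z hz⟩,
      fun i => ?_, fun l => ?_⟩
    · refine (ih (fun _ => 0) 0 fun a z hz => by simp).congr B fun a z _ => dd_const _ _ _
    · refine (ih (fun _ => 0) 0 fun a z hz => by simp).congr B fun a z _ => dd_const _ _ _

theorem An.zero_fn (B : Bs U r) : An P Q U r g k j fun _ _ => (0 : ℝ) := by
  induction k generalizing j with
  | zero => exact ⟨fun a => contDiffOn_const, 0, fun a z hz => by simp⟩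
  | succ k ih =>
    refine ⟨⟨fun a => contDiffOn_const, 0, fun a z hz => by simp⟩, fun i => ?_, fun l => ?_⟩
    · exact ih.congr B fun a z _ => dd_const _ _ _
    · exact ih.congr B fun a z _ => dd_const _ _ _

theorem An.cmul (B : Bs U r) (hg : ∀ a, ∀ z ∈ U a, 0 ≤ g a z) (h : An P Q U r g k j f) (c : ℝ) :
    An P Q U r g k j fun a z => c * f a z := by
  have h1 : An P Q U r (fun _ _ => (1 : ℝ)) k 0 fun _ _ => c :=
    An.const B (fun _ _ _ => zero_le_one) (fun _ => c) ⟨|c|, fun a z _ => by simp⟩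
  have h2 := An.mul B (fun _ _ _ => zero_le_one) hg h1 h
  rw [zero_add] at h2
  exact h2.wcongr fun a z _ => by simp

theorem An.neg (B : Bs U r) (hg : ∀ a, ∀ z ∈ U a, 0 ≤ g a z) (h : An P Q U r g k j f) :
    An P Q U r g k j fun a z => - f a z :=
  (h.cmul B hg (-1)).congr B fun a z _ => by ring

theorem An.sub (B : Bs U r) (hg : ∀ a, ∀ z ∈ U a, 0 ≤ g a z) (h : An P Q U r g k j f)
    (h' : An P Q U r g k j f') : An P Q U r g k j fun a z => f a z - f' a z :=
  (h.add B (h'.neg B hg)).congr B fun a z _ => by ring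

theorem An.sum (B : Bs U r) {β : Type*} (S : Finset β) {F : β → α → E → ℝ}
    (h : ∀ b ∈ S, An P Q U r g k j (F b)) : An P Q U r g k j fun a z => ∑ b ∈ S, F b a z := by
  classical
  induction S using Finset.induction_on with
  | empty => simpa using An.zero_fn (P := P) (Q := Q) (g := g) (k := k) (j := j) B
  | insert b S hb ih =>
    refine ((h b (Finset.mem_insert_self b S)).add B
      (ih fun c hc => h c (Finset.mem_insert_of_mem hc))).congr B fun a z _ => ?_
    rw [Finset.sum_insert hb]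

/-- The derivatives of `u` are bounded. -/
def Dn (P : ι → E) (Q : κ → E) (U : α → Set E) (r : α → E → ℝ) (k : ℕ) (u : α → E → ℝ) : Prop :=
  (∀ a, Sm (U a) (u a)) ∧ (∀ i, An P Q U r (fun _ _ => 1) k 0 fun a => dd (P i) (u a)) ∧
    ∀ l, An P Q U r (fun _ _ => 1) k 0 fun a => dd (Q l) (u a)

theorem Dn.pred (h : Dn P Q U r (k + 1) u) : Dn P Q U r k u :=
  ⟨h.1, fun i => (h.2.1 i).pred, fun l => (h.2.2 l).pred⟩

theorem An.dn (B : Bs U r) (h : An P Q U r (fun _ _ => 1) (k + 1) j u) : Dn P Q U r k u :=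
  ⟨h.sm, fun i => (h.2.1 i).mono_j B (fun _ _ _ => zero_le_one) (Nat.zero_le _),
    fun l => (h.2.2 l).mono_j B (fun _ _ _ => zero_le_one) (Nat.zero_le _)⟩

/-- Composition with a function of one variable (with all its derivatives `F a m`). -/
theorem An.comp (B : Bs U r) (hg : ∀ a, ∀ z ∈ U a, 0 ≤ g a z) {F : α → ℕ → ℝ → ℝ}
    (hu : Dn P Q U r k u)
    (hF : ∀ a, ∀ z ∈ U a, ∀ m, HasDerivAt (F a m) (F a (m + 1) (u a z)) (u a z))
    (hs : ∀ a m, Sm (U a) fun z => F a m (u a z))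
    (hb : ∀ m, ∃ C, ∀ a, ∀ z ∈ U a, |F a m (u a z)| ≤ C * g a z) :
    An P Q U r g k 0 fun a z => F a 0 (u a z) := by
  induction k generalizing F with
  | zero =>
    obtain ⟨C, hC⟩ := hb 0
    exact ⟨fun a => hs a 0, C, fun a z hz => by simpa using hC a z hz⟩
  | succ k ih =>
    obtain ⟨C, hC⟩ := hb 0
    have h1 := ih (F := fun a m => F a (m + 1)) hu.pred (fun a z hz m => hF a z hz (m + 1))
      (fun a m => hs a (m + 1)) fun m => hb (m + 1)
    refine ⟨⟨fun a => hs a 0, C, fun a z hz => by simpa using hC a z hz⟩, fun i => ?_, fun l => ?_⟩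
    · refine ((An.mul B hg (fun _ _ _ => zero_le_one) h1 (hu.2.1 i).pred).wcongr
        (g₁ := g) fun a z _ => (mul_one _).symm).congr B fun a z hz => ?_
      exact dd_comp (B.op a) (hu.1 a) _ hz (hF a z hz 0)
    · refine ((An.mul B hg (fun _ _ _ => zero_le_one) h1 (hu.2.2 l).pred).wcongr
        (g₁ := g) fun a z _ => (mul_one _).symm).congr B fun a z hz => ?_
      exact dd_comp (B.op a) (hu.1 a) _ hz (hF a z hz 0)

/-- Functions of a symbol of order `j`, vanishing at `0`. -/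
theorem An.comp_j (B : Bs U r) (hg : ∀ a, ∀ z ∈ U a, 0 ≤ g a z) {F : α → ℕ → ℝ → ℝ}
    (hu : An P Q U r (fun _ _ => 1) k j u)
    (hF : ∀ a, ∀ z ∈ U a, ∀ m, HasDerivAt (F a m) (F a (m + 1) (u a z)) (u a z))
    (hs : ∀ a m, Sm (U a) fun z => F a m (u a z))
    (h0 : ∃ C, ∀ a, ∀ z ∈ U a, |F a 0 (u a z)| ≤ C * (g a z * r a z ^ j))
    (hb : ∀ m, ∃ C, ∀ a, ∀ z ∈ U a, |F a m (u a z)| ≤ C * g a z) :
    An P Q U r g k j fun a z => F a 0 (u a z) := by
  cases k with
  | zero => exact ⟨fun a => hs a 0, h0⟩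
  | succ k =>
    have hd := An.dn B hu
    have h1 := An.comp (P := P) (Q := Q) B hg (F := fun a m => F a (m + 1)) hd
      (fun a z hz m => hF a z hz (m + 1)) (fun a m => hs a (m + 1)) fun m => hb (m + 1)
    refine ⟨⟨fun a => hs a 0, h0⟩, fun i => ?_, fun l => ?_⟩
    · have h2 := An.mul B hg (fun _ _ _ => zero_le_one) h1 (hu.2.1 i)
      rw [zero_add] at h2
      refine (h2.wcongr (g₁ := g) fun a z _ => (mul_one _).symm).congr B fun a z hz => ?_
      exact dd_comp (B.op a) (hu.sm a) _ hz (hF a z hz 0)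
    · have h2 := An.mul B hg (fun _ _ _ => zero_le_one) h1 (hu.2.2 l)
      rw [zero_add] at h2
      refine (h2.wcongr (g₁ := g) fun a z _ => (mul_one _).symm).congr B fun a z hz => ?_
      exact dd_comp (B.op a) (hu.sm a) _ hz (hF a z hz 0)

/-- Multiplication by an exponential. -/
theorem An.exp (B : Bs U r) (hu : Dn P Q U r k u) (h : An P Q U r (fun _ _ => 1) k j f) :
    An P Q U r (fun a z => Real.exp (u a z)) k j fun a z => Real.exp (u a z) * f a z := by
  have hg : ∀ a, ∀ z ∈ U a, 0 ≤ (fun a z => Real.exp (u a z)) a z := fun a z _ => (Real.exp_pos _).le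
  have hs : ∀ a (_m : ℕ), Sm (U a) fun z => Real.exp (u a z) := fun a _ =>
    Real.contDiff_exp.comp_contDiffOn (hu.1 a)
  have h1 : An P Q U r (fun a z => Real.exp (u a z)) k 0 fun a z => Real.exp (u a z) :=
    An.comp (P := P) (Q := Q) B hg (F := fun _ _ => Real.exp) hu
      (fun a z _ m => Real.hasDerivAt_exp _) hs
      fun m => ⟨1, fun a z _ => by rw [abs_of_pos (Real.exp_pos _), one_mul]⟩
  have h2 := An.mul B hg (fun _ _ _ => zero_le_one) h1 h
  rw [zero_add] at h2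
  exact h2.wcongr fun a z _ => (mul_one _).symm

end Vale.Agent.P088.R2.H814.An
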