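import Vale.Agent.P088.R2.H814.B2.Pq
import Vale.Agent.P088.R2.H464.EP.SymU

/-!
# The anisotropic calculus on `V × V` near the diagonal

Slow directions `(e_i, e_i)`, fast directions `(e_i, 0)`, `(0, e_i)`.  `ρ = g(p)(q, q)/2` has
order `2`, and `e^u Φ(ρ)` has order `2` and size `e^u`.
-/

open Set Filter
open scoped ContDiff Topology Matrix

noncomputable section

namespace Vale.Agent.P088.R2.H814.An

open Vale.Agent.P088.LR Vale.Agent.P088.HY
open Vale.Agent.P088.R2.H961.GW Vale.Agent.P088.R2.H644.Sy Vale.Agent.P088.R2.H464.Cu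

section gen

variable {E ι κ α : Type*} [NormedAddCommGroup E] [NormedSpace ℝ E]
variable {P : ι → E} {Q : κ → E} {U : α → Set E} {r g g₁ g₂ : α → E → ℝ} {k j j' : ℕ}
  {f f' u : α → E → ℝ}

/-- Isotropic symbols of scale `1` have order `0`. -/
theorem An.of_sf (B : Bs U r) (h : Sf U (fun _ _ => 1) g k f) : An P Q U r g k 0 f := by
  have hz : A0 U r g 0 f := by
    obtain ⟨C, hC⟩ := h.norm_le
    exact ⟨h.sm, C, fun a z hz => by simpa using hC a z hz⟩
  induction k generalizing f with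
  | zero => exact hz
  | succ k ih =>
    have h1 := h.fd B.op
    have hd : ∀ v : E, Sf U (fun _ _ => 1) g k fun a z => fderiv ℝ (f a) z v := fun v =>
      (h1.clm B.op (ContinuousLinearMap.apply ℝ ℝ v)).wcongr fun a z _ => by simp
    have hz' : ∀ v : E, A0 U r g 0 fun a => dd v (f a) := fun v => by
      obtain ⟨C, hC⟩ := (hd v).norm_le
      exact ⟨(hd v).sm, C, fun a z hz => by simpa [dd] using hC a z hz⟩
    exact ⟨hz, fun i => ih (hd _) (hz' _), fun l => ih (hd _) (hz' _)⟩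

theorem Dn.of_sf (B : Bs U r) (hs : ∀ a, Sm (U a) (u a))
    (h : Sf U (fun _ _ => 1) (fun _ _ => 1) k fun a => fderiv ℝ (u a)) : Dn P Q U r k u := by
  have hd : ∀ v : E, Sf U (fun _ _ => 1) (fun _ _ => 1) k fun a z => fderiv ℝ (u a) z v :=
    fun v => (h.clm B.op (ContinuousLinearMap.apply ℝ ℝ v)).wcongr fun a z _ => by simp
  exact ⟨hs, fun i => An.of_sf B (hd _), fun l => An.of_sf B (hd _)⟩

theorem Dn.add (B : Bs U r) (h : Dn P Q U r k u) (h' : Dn P Q U r k f) :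
    Dn P Q U r k fun a z => u a z + f a z :=
  ⟨fun a => (h.1 a).add (h'.1 a),
    fun i => ((h.2.1 i).add B (h'.2.1 i)).congr B fun a z hz =>
      dd_add (B.op a) (h.1 a) (h'.1 a) _ hz,
    fun l => ((h.2.2 l).add B (h'.2.2 l)).congr B fun a z hz =>
      dd_add (B.op a) (h.1 a) (h'.1 a) _ hz⟩

/-- Words of derivatives. -/
def Dw (P : ι → E) (Q : κ → E) : List (ι ⊕ κ) → (E → ℝ) → E → ℝ
  | [], f => f
  | Sum.inl i :: L, f => Dw P Q L (dd (P i) f)
  | Sum.inr l :: L, f => Dw P Q L (dd (Q l) f)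

/-- The number of fast directions. -/
def nq : List (ι ⊕ κ) → ℕ
  | [] => 0
  | Sum.inl _ :: L => nq L
  | Sum.inr _ :: L => nq L + 1

/-- **The bounds of all words, with one constant.** -/
theorem An.word [Finite ι] [Finite κ] (B : Bs U r) (hg : ∀ a, ∀ z ∈ U a, 0 ≤ g a z)
    (h : An P Q U r g k j f) : ∃ C, 0 ≤ C ∧ ∀ L : List (ι ⊕ κ), L.length ≤ k → ∀ a, ∀ z ∈ U a,
      |Dw P Q L (f a) z| ≤ C * (g a z * r a z ^ (j - nq L)) := by
  induction k generalizing j f with
  | zero =>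
    obtain ⟨C, hC⟩ := h.bd
    refine ⟨|C|, abs_nonneg C, fun L hL a z hz => ?_⟩
    have : L = [] := List.length_eq_zero_iff.1 (Nat.le_zero.1 hL)
    subst this
    refine (hC a z hz).trans (mul_le_mul_of_nonneg_right (le_abs_self C) ?_)
    exact mul_nonneg (hg a z hz) (pow_nonneg (B.r0 a z hz) _)
  | succ k ih =>
    obtain ⟨C, hC⟩ := h.bd
    have hp := fun i => ih (h.2.1 i)
    have hq := fun l => ih (h.2.2 l)
    choose Cp hCp0 hCp using hp
    choose Cq hCq0 hCq using hq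
    cases nonempty_fintype ι
    cases nonempty_fintype κ
    have g0 : ∀ a, ∀ z ∈ U a, ∀ m : ℕ, 0 ≤ g a z * r a z ^ m := fun a z hz m =>
      mul_nonneg (hg a z hz) (pow_nonneg (B.r0 a z hz) _)
    have s1 : 0 ≤ ∑ i, Cp i := Finset.sum_nonneg fun i _ => hCp0 i
    have s2 : 0 ≤ ∑ l, Cq l := Finset.sum_nonneg fun l _ => hCq0 l
    refine ⟨|C| + ∑ i, Cp i + ∑ l, Cq l, by positivity, fun L hL a z hz => ?_⟩
    rcases L with _ | ⟨c | c, L⟩
    · refine (hC a z hz).trans (mul_le_mul_of_nonneg_right ?_ (g0 a z hz _))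
      linarith [le_abs_self C]
    · have h1 := hCp c L (by simpa using hL) a z hz
      refine h1.trans (mul_le_mul_of_nonneg_right ?_ (g0 a z hz _))
      have := Finset.single_le_sum (f := Cp) (fun i _ => hCp0 i) (Finset.mem_univ c)
      linarith [abs_nonneg C]
    · have h1 := hCq c L (by simpa using hL) a z hz
      have e : j - nq (Sum.inr c :: L) = j - 1 - nq L := by
        change j - (nq L + 1) = _; omega
      rw [e]
      refine h1.trans (mul_le_mul_of_nonneg_right ?_ (g0 a z hz _))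
      have := Finset.single_le_sum (f := Cq) (fun i _ => hCq0 i) (Finset.mem_univ c)
      linarith [abs_nonneg C]

end gen

variable {n k : ℕ} {α : Type*} {O : α → Set (V n)} {U : α → Set (VV n)} {R : α → ℝ}
  {r : α → VV n → ℝ} {g : α → MF n} {l : α → V n → ℝ} {u : α → VV n → ℝ}

theorem an_dif (B : Bs U r) {A : ℝ} (h1 : ∀ a, ∀ z ∈ U a, ∀ i, |dif z i| ≤ A * r a z) (i : Fin n) :
    AV U r (fun _ _ => 1) k 1 fun _ z => dif z i := by
  have hs : ∀ a, Sm (U a) fun z : VV n => dif z i := fun a =>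
    ((difL i).contDiff (n := ∞)).contDiffOn
  have h0 : A0 U r (fun _ _ => 1) 1 fun _ z => dif z i :=
    ⟨hs, A, fun a z hz => by simpa using h1 a z hz i⟩
  have hd : ∀ (v z : VV n), dd v (fun z => dif z i) z = v.1 i - v.2 i := by
    intro v z
    have : (fun z : VV n => dif z i) = difL i := rfl
    simp only [dd, this, ContinuousLinearMap.fderiv]
    rfl
  cases k with
  | zero => exact h0
  | succ k =>
    refine ⟨h0, fun l => ?_, fun l => ?_⟩
    · refine (An.zero_fn B).congr B fun a z _ => ?_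
      rw [hd]
      simp [Pd]
    · refine (An.const B (fun _ _ _ => zero_le_one) (fun _ => (Qd (n := n) l).1 i -
        (Qd (n := n) l).2 i) ⟨|(Qd (n := n) l).1 i - (Qd (n := n) l).2 i|, fun a z _ => by
          simp⟩).congr B fun a z _ => ?_
      rw [hd]

/-- **`ρ` has order `2`.** -/
theorem an_rq (B : Bs U r) (hO : ∀ a, IsOpen (O a)) (hm : ∀ a, ∀ z ∈ U a, mid z ∈ O a)
    (hR : ∀ a, 0 < R a) {A : ℝ} (hR1 : ∀ a, 1 ≤ A * R a)
    (hg : ∀ i j, Sf O (fun a _ => R a) (fun _ _ => 1) k (fun a x => g a x i j))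
    (h1 : ∀ a, ∀ z ∈ U a, ∀ i, |dif z i| ≤ A * r a z) :
    AV U r (fun _ _ => 1) k 2 fun a => rq (g a) := by
  have hgm : ∀ i j, AV U r (fun _ _ => 1) k 0 fun a z => g a (mid z) i j := fun i j =>
    An.of_sf B (sf_gm hO hm hR (hg i j) (fun _ _ _ => one_pos) fun a _ _ => hR1 a)
  have p1 : ∀ a, ∀ z ∈ U a, (0 : ℝ) ≤ (fun (_ : α) (_ : VV n) => (1 : ℝ)) a z :=
    fun _ _ _ => zero_le_one
  have ht : ∀ i j : Fin n, AV U r (fun _ _ => 1) k 2
      fun a z => g a (mid z) i j * dif z i * dif z j := fun i j => by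
    have h2 := An.mul B p1 p1 (hgm i j) (an_dif (k := k) B h1 i)
    have h3 := An.mul B (fun a z _ => by norm_num) p1 h2 (an_dif (k := k) B h1 j)
    exact h3.wcongr fun a z _ => by norm_num
  have hs := (An.sum B Finset.univ fun i _ => An.sum B Finset.univ fun j _ => ht i j).cmul B p1
    (1 / 2 : ℝ)
  exact hs.congr B fun a z _ => by simp only [rq, bf]

/-- **`e^u Φ(ρ)` has order `2` and size `e^u`** (`Φ(0) = 0`, `ρ ≤ c`). -/
theorem an_weight (B : Bs U r) (hu : Dn (Pd (n := n)) Qd U r k u) {ρ : α → VV n → ℝ}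
    (hρ : AV U r (fun _ _ => 1) k 2 ρ) {c : ℝ} (hc : ∀ a, ∀ z ∈ U a, |ρ a z| ≤ c) {Φ : ℝ → ℝ}
    (hΦ : ContDiff ℝ ∞ Φ) (h0 : Φ 0 = 0) :
    AV U r (fun a z => Real.exp (u a z)) k 2 fun a z => Real.exp (u a z) * Φ (ρ a z) := by
  refine An.exp B hu ?_
  have p1 : ∀ a, ∀ z ∈ U a, (0 : ℝ) ≤ (fun (_ : α) (_ : VV n) => (1 : ℝ)) a z :=
    fun _ _ _ => zero_le_one
  have hI : ∀ m, Continuous (iteratedDeriv m Φ) := fun m =>
    hΦ.continuous_iteratedDeriv m (by exact_mod_cast le_top)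
  have hB : ∀ m, ∃ C, ∀ t, |t| ≤ c → |iteratedDeriv m Φ t| ≤ C := by
    intro m
    obtain ⟨C, hC⟩ := (isCompact_Icc (a := -c) (b := c)).exists_bound_of_continuousOn
      (hI m).continuousOn
    exact ⟨C, fun t ht => hC t (abs_le.1 ht)⟩
  have hD : ∀ m t, HasDerivAt (iteratedDeriv m Φ) (iteratedDeriv (m + 1) Φ t) t := by
    intro m t
    rw [iteratedDeriv_succ]
    exact ((hΦ.differentiable_iteratedDeriv m (by exact_mod_cast ENat.coe_lt_top m)) t).hasDerivAt
  have hsm : ∀ m, ContDiff ℝ ∞ (iteratedDeriv m Φ) := by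
    intro m
    rw [iteratedDeriv_eq_iterate]
    exact hΦ.iterate_deriv m
  have key := An.comp_j (P := Pd (n := n)) (Q := Qd) (g := fun _ _ => 1) B p1
    (F := fun _ m => iteratedDeriv m Φ) hρ (fun a z _ m => hD m _)
    (fun a m => (hsm m).comp_contDiffOn (hρ.sm a)) ?_ ?_
  · exact key.congr B fun a z _ => by rw [iteratedDeriv_zero]
  · obtain ⟨C1, hC1⟩ := hB 1
    obtain ⟨C2, hC2⟩ := hρ.bd
    refine ⟨|C1| * |C2|, fun a z hz => ?_⟩
    have c0 : 0 ≤ c := (abs_nonneg _).trans (hc a z hz)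
    have h1 : ∀ t ∈ Set.Icc (-c) c, ‖deriv Φ t‖ ≤ |C1| := by
      intro t ht
      have := hC1 t (abs_le.2 ht)
      rw [iteratedDeriv_one] at this
      exact this.trans (le_abs_self _)
    have h2 := (convex_Icc (-c) c).norm_image_sub_le_of_norm_deriv_le (f := Φ)
      (fun t _ => (hΦ.differentiable (by simp)) t) h1 (x := 0) (y := ρ a z)
      ⟨by linarith, c0⟩ (abs_le.1 (hc a z hz))
    rw [h0, sub_zero, sub_zero, Real.norm_eq_abs, Real.norm_eq_abs] at h2
    rw [iteratedDeriv_zero]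
    have h3 : |ρ a z| ≤ |C2| * (1 * r a z ^ 2) := (hC2 a z hz).trans
      (mul_le_mul_of_nonneg_right (le_abs_self _) (by positivity))
    calc |Φ (ρ a z)| ≤ |C1| * |ρ a z| := h2
      _ ≤ |C1| * (|C2| * (1 * r a z ^ 2)) := mul_le_mul_of_nonneg_left h3 (abs_nonneg _)
      _ = |C1| * |C2| * (1 * r a z ^ 2) := by ring
  · intro m
    obtain ⟨C, hC⟩ := hB m
    exact ⟨C, fun a z hz => by rw [mul_one]; exact hC _ (hc a z hz)⟩

end Vale.Agent.P088.R2.H814.An
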