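import Vale.Agent.P088.R2.H814.B2.Qn

/-!
# The divergence terms of the fields near the diagonal

`|dF c x² + dF' c' y²| ≤ C A (e² (x + y)² + (e² r² + e N + e M) (x² + y²))` for fields with
`|c|, |c'| ≤ A`, `e r |c - c'| ≤ A (e r² + M)`, `e r² |D c|, e r² |D' c'| ≤ A (e r² + M)`.
-/

open Set Filter
open scoped ContDiff Topology

noncomputable section

namespace Vale.Agent.P088.R2.H814.An

open Vale.Agent.P088.R2.H961.GW Vale.Agent.P088.R2.H960.W

section nb

variable {X ι α : Type*} [Fintype ι] {U : α → Set X} {r e N : α → X → ℝ}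
variable {s s' : ι → ι → α → X → ℝ} {D D' : ι → ι → ι → α → X → ℝ}
  {DD DD' : ι → ι → ι → ι → α → X → ℝ} {H K M : ι → ι → α → X → ℝ} {w w' : ι → α → X → ℝ}

/-- `F` in numbers. -/
def fF (s : ι → ι → α → X → ℝ) (w : ι → α → X → ℝ) (a : α) (z : X) : ℝ :=
  ∑ k, ∑ l, s k l a z * w k a z * w l a z

/-- `D_j F` in numbers. -/
def pF (s : ι → ι → α → X → ℝ) (D : ι → ι → ι → α → X → ℝ) (H : ι → ι → α → X → ℝ)
    (w : ι → α → X → ℝ) (j : ι) (a : α) (z : X) : ℝ :=
  ∑ k, ∑ l, (D j k l a z * w k a z * w l a z + s k l a z * H j k a z * w l a z +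
    s k l a z * w k a z * H j l a z)

omit [Fintype ι] in
theorem Nb.hT (h : Nb U r e N s s' D D' DD DD' H K M w w') :
    ∀ a, ∀ z ∈ U a, e a z ^ 2 * r a z ^ 2 ≤ eT r e N a z := by
  intro a z hz
  have := mul_nonneg (h.sz.e0 a z hz) (h.sz.N0 a z hz)
  unfold eT; linarith

theorem Nb.fF (h : Nb U r e N s s' D D' DD DD' H K M w w') :
    OO U (fun a z => e a z ^ 2 * r a z ^ 2) (An.fF s w) :=
  OO.fsum fun k => OO.fsum fun l => (((h.os k l).mul (h.ow k)).mul (h.ow l)).gcongr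
    fun a z _ => by unfold o1 er; ring

theorem Nb.fF' (h : Nb U r e N s s' D D' DD DD' H K M w w') :
    OO U (fun a z => e a z ^ 2 * r a z ^ 2) (An.fF s' w') :=
  OO.fsum fun k => OO.fsum fun l => (((h.os' k l).mul (h.ow' k)).mul (h.ow' l)).gcongr
    fun a z _ => by unfold o1 er; ring

omit [Fintype ι] in
theorem S0.b3 (z : S0 U r e N) : ∀ a, ∀ x ∈ U a, e a x ^ 2 * r a x ^ 2 ≤ e a x ^ 2 * r a x := by
  intro a x hx
  have h3 := z.r0 a x hx
  have h4 := z.r1 a x hx
  have : r a x ^ 2 ≤ r a x := by nlinarith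
  exact mul_le_mul_of_nonneg_left this (sq_nonneg _)

theorem Nb.pF (h : Nb U r e N s s' D D' DD DD' H K M w w') (j : ι) :
    OO U (fun a z => e a z ^ 2 * r a z) (An.pF s D H w j) := by
  have q1 : ∀ k l, OO U (fun a z => e a z ^ 2 * r a z) fun a z =>
      D j k l a z * w k a z * w l a z := fun k l =>
    (((h.oD j k l).mul (h.ow k)).mul (h.ow l)).le fun a z hz => by
      have := h.sz.b3 a z hz
      unfold o1 er; linarith
  have q2 : ∀ k l p q t, OO U (fun a z => e a z ^ 2 * r a z) fun a z =>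
      s k l a z * H p q a z * w t a z := fun k l p q t =>
    (((h.os k l).mul (h.oH p q)).mul (h.ow t)).gcongr fun a z _ => by unfold o1 er; ring
  exact OO.fsum fun k => OO.fsum fun l => (((q1 k l).add (q2 k l j k l)).add
    ((q2 k l j l k).congr fun a z _ => by ring))

theorem Nb.pF' (h : Nb U r e N s s' D D' DD DD' H K M w w') (j : ι) :
    OO U (fun a z => e a z ^ 2 * r a z) (An.pF s' D' K w' j) := by
  have q1 : ∀ k l, OO U (fun a z => e a z ^ 2 * r a z) fun a z =>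
      D' j k l a z * w' k a z * w' l a z := fun k l =>
    (((h.oD' j k l).mul (h.ow' k)).mul (h.ow' l)).le fun a z hz => by
      have := h.sz.b3 a z hz
      unfold o1 er; linarith
  have q2 : ∀ k l p q t, OO U (fun a z => e a z ^ 2 * r a z) fun a z =>
      s' k l a z * K p q a z * w' t a z := fun k l p q t =>
    (((h.os' k l).mul (h.oK p q)).mul (h.ow' t)).gcongr fun a z _ => by unfold o1 er; ring
  exact OO.fsum fun k => OO.fsum fun l => (((q1 k l).add (q2 k l j k l)).add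
    ((q2 k l j l k).congr fun a z _ => by ring))

/-- The sum of the derivatives of `F` in the two slots is small. -/
theorem Nb.pp (h : Nb U r e N s s' D D' DD DD' H K M w w') (j : ι) :
    OO U (eT r e N) fun a z => An.pF s D H w j a z + An.pF s' D' K w' j a z := by
  have q1 : ∀ k l, OO U (eT r e N) fun a z => D j k l a z * w k a z * w l a z := fun k l =>
    (((h.oD j k l).mul (h.ow k)).mul (h.ow l)).le fun a z hz => by
      have := h.hT a z hz
      unfold o1 er; linarith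
  have q1' : ∀ k l, OO U (eT r e N) fun a z => D' j k l a z * w' k a z * w' l a z := fun k l =>
    (((h.oD' j k l).mul (h.ow' k)).mul (h.ow' l)).le fun a z hz => by
      have := h.hT a z hz
      unfold o1 er; linarith
  have q2 : ∀ k l p q t, OO U (eT r e N) fun a z => s k l a z * H p q a z * w t a z +
      s' k l a z * K p q a z * w' t a z := fun k l p q t => by
    have t1 : OO U (eT r e N) fun a z => (s k l a z - s' k l a z) * H p q a z * w t a z :=
      (((h.osd k l).mul (h.oH p q)).mul (h.ow t)).le fun a z hz => by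
        have := h.hT a z hz
        unfold er; linarith
    have t2 : OO U (eT r e N) fun a z => s' k l a z * (K p q a z - H p q a z) * w t a z :=
      (((h.os' k l).mul (h.oB p q)).mul (h.ow t)).le fun a z hz => by
        have := h.hT a z hz
        unfold o1 er; linarith
    have t3 : OO U (eT r e N) fun a z => s' k l a z * K p q a z * (w t a z + w' t a z) :=
      (((h.os' k l).mul (h.oK p q)).mul (h.owp t)).gcongr fun a z _ => by
        unfold o1 eq2 eT; ring
    exact ((t1.sub t2).add t3).congr fun a z _ => by ring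
  have key := OO.fsum fun k => OO.fsum fun l => ((((q1 k l).add (q1' k l)).add (q2 k l j k l)).add
    (q2 k l j l k))
  refine key.congr fun a z _ => ?_
  unfold An.pF
  rw [← Finset.sum_add_distrib]
  refine Finset.sum_congr rfl fun k _ => ?_
  rw [← Finset.sum_add_distrib]
  exact Finset.sum_congr rfl fun l _ => by ring

end nb

/-- The arithmetic of the divergence terms. -/
theorem df_arith {ι : Type*} [Fintype ι] {φ φ' c c' : ι → ℝ} {E r T R A C x y : ℝ}
    (hC : 0 ≤ C) (hA : 0 ≤ A) (hr : 0 ≤ r) (hT : 0 ≤ T) (hR : 0 ≤ R)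
    (h1 : ∀ j, |φ j| ≤ C * (E ^ 2 * r)) (h2 : ∀ j, |φ' j| ≤ C * (E ^ 2 * r))
    (h3 : ∀ j, |φ j + φ' j| ≤ C * T) (c1 : ∀ j, |c j| ≤ A) (c2 : ∀ j, |c' j| ≤ A)
    (cd : ∀ j, E ^ 2 * r * |c j - c' j| ≤ A * R) :
    |(∑ j, φ j * c j) * x ^ 2 + (∑ j, φ' j * c' j) * y ^ 2| ≤
      Fintype.card ι * (C * A) * (E ^ 2 * (x + y) ^ 2 +
        (E ^ 2 * r ^ 2 + T + R) * (x ^ 2 + y ^ 2)) := by
  have e1 : (∑ j, φ j * c j) * x ^ 2 + (∑ j, φ' j * c' j) * y ^ 2 =
      (∑ j, (φ j * (c j - c' j) + (φ j + φ' j) * c' j)) * ((x ^ 2 + y ^ 2) / 2) +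
      (∑ j, (φ j * c j - φ' j * c' j)) * ((x + y) * (x - y) / 2) := by
    rw [Finset.sum_add_distrib, Finset.sum_sub_distrib]
    have : (∑ j, φ j * (c j - c' j)) + ∑ j, (φ j + φ' j) * c' j =
        (∑ j, φ j * c j) + ∑ j, φ' j * c' j := by
      rw [← Finset.sum_add_distrib, ← Finset.sum_add_distrib]
      exact Finset.sum_congr rfl fun j _ => by ring
    rw [this]; ring
  have n0 : (0 : ℝ) ≤ Fintype.card ι := Nat.cast_nonneg _
  have b1 : |∑ j, (φ j * (c j - c' j) + (φ j + φ' j) * c' j)| ≤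
      Fintype.card ι * (C * A * R + C * A * T) := by
    refine (Finset.abs_sum_le_sum_abs _ _).trans ?_
    have h : ∀ j, |φ j * (c j - c' j) + (φ j + φ' j) * c' j| ≤ C * A * R + C * A * T := by
      intro j
      refine (abs_add_le _ _).trans (add_le_add ?_ ?_)
      · rw [abs_mul]
        have t1 := mul_le_mul_of_nonneg_right (h1 j) (abs_nonneg (c j - c' j))
        have t2 := mul_le_mul_of_nonneg_left (cd j) hC
        linarith
      · rw [abs_mul]
        calc |φ j + φ' j| * |c' j| ≤ (C * T) * A :=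
              mul_le_mul (h3 j) (c2 j) (abs_nonneg _) (by positivity)
          _ = C * A * T := by ring
    refine (Finset.sum_le_sum fun j _ => h j).trans (le_of_eq ?_)
    rw [Finset.sum_const, Finset.card_univ, nsmul_eq_mul]
  have b2 : |∑ j, (φ j * c j - φ' j * c' j)| ≤ Fintype.card ι * (2 * (C * A) * (E ^ 2 * r)) := by
    refine (Finset.abs_sum_le_sum_abs _ _).trans ?_
    have h : ∀ j, |φ j * c j - φ' j * c' j| ≤ 2 * (C * A) * (E ^ 2 * r) := by
      intro j
      refine (abs_sub _ _).trans ?_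
      rw [abs_mul, abs_mul]
      have k : 0 ≤ C * (E ^ 2 * r) := by positivity
      have t1 := mul_le_mul (h1 j) (c1 j) (abs_nonneg _) k
      have t2 := mul_le_mul (h2 j) (c2 j) (abs_nonneg _) k
      linarith
    refine (Finset.sum_le_sum fun j _ => h j).trans (le_of_eq ?_)
    rw [Finset.sum_const, Finset.card_univ, nsmul_eq_mul]
  have q0 : 0 ≤ x ^ 2 + y ^ 2 := by positivity
  have q1 : E ^ 2 * r * |(x + y) * (x - y)| ≤ E ^ 2 * (x + y) ^ 2 +
      E ^ 2 * r ^ 2 * (x ^ 2 + y ^ 2) := by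
    have t1 := two_mul_le_add_sq |x + y| (r * |x - y|)
    rw [mul_pow, sq_abs, sq_abs] at t1
    have t2 : (x - y) ^ 2 ≤ 2 * (x ^ 2 + y ^ 2) := by nlinarith [sq_nonneg (x + y)]
    have t3 := mul_le_mul_of_nonneg_left t2 (sq_nonneg r)
    have t4 : r * |(x + y) * (x - y)| ≤ (x + y) ^ 2 + r ^ 2 * (x ^ 2 + y ^ 2) := by
      rw [abs_mul]
      nlinarith [sq_nonneg (x + y)]
    have := mul_le_mul_of_nonneg_left t4 (sq_nonneg E)
    linarith
  rw [e1]
  refine (abs_add_le _ _).trans ?_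
  rw [abs_mul, abs_mul, abs_of_nonneg (by positivity : 0 ≤ (x ^ 2 + y ^ 2) / 2), abs_div,
    abs_two]
  have u1 := mul_le_mul_of_nonneg_right b1 (by positivity : 0 ≤ (x ^ 2 + y ^ 2) / 2)
  have u2 := mul_le_mul_of_nonneg_right b2 (by positivity : 0 ≤ |(x + y) * (x - y)| / 2)
  have u3 := mul_le_mul_of_nonneg_left q1 (by positivity : 0 ≤ (Fintype.card ι : ℝ) * (C * A))
  have u4 : 0 ≤ (Fintype.card ι : ℝ) * (C * A) * ((T + R) * (x ^ 2 + y ^ 2)) := by positivity
  linarith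

section fam

variable {E ι β α : Type*} [NormedAddCommGroup E] [NormedSpace ℝ E] [Fintype ι] [Fintype β]
variable {P : ι → E} {Q : ι ⊕ ι → E} {σ τ : α → Sl E ι} {U : α → Set E} {θ : α → E → ℝ}
  {r e N : α → E → ℝ} {W : α → E → ℝ}

/-- `div (F c)` of a slot without zero order coefficients. -/
theorem dF_eq {σ : Sl E ι} {U : Set E} {θ W : E → ℝ} {c : ι → E → ℝ} {z : E} (ok : σ.Ok U θ)
    (hk : ∀ i z, σ.k i z = 0) (hW : Sm U W) (hc : ∀ j, Sm U (c j)) (hz : z ∈ U) :
    dF σ c W z = (∑ j, σ.D j (σ.F W) z * c j z) + ∑ j, σ.F W z * σ.D j (c j) z := by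
  unfold dF
  rw [← Finset.sum_add_distrib]
  refine Finset.sum_congr rfl fun j _ => ?_
  rw [hk j z, zero_mul, add_zero, D_mul σ ok.op (ok.sF hW) (hc j) j hz]

/-- **The divergence terms near the diagonal.** -/
theorem Wb.dF (h : Wb P Q σ τ U θ r e N W) : ∃ C, 0 ≤ C ∧ ∀ a, ∀ z ∈ U a,
    ∀ (c c' : ι → E → ℝ) (A M : ℝ), (∀ j, Sm (U a) (c j)) → (∀ j, Sm (U a) (c' j)) → 0 ≤ A →
      0 ≤ M → (∀ j, |c j z| ≤ A) → (∀ j, |c' j z| ≤ A) →
      (∀ j, e a z * r a z * |c j z - c' j z| ≤ A * (e a z * r a z ^ 2 + M)) →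
      (∀ j, e a z * r a z ^ 2 * |(σ a).D j (c j) z| ≤ A * (e a z * r a z ^ 2 + M)) →
      (∀ j, e a z * r a z ^ 2 * |(τ a).D j (c' j) z| ≤ A * (e a z * r a z ^ 2 + M)) →
      ∀ x y : ℝ, |Vale.Agent.P088.R2.H960.W.dF (σ a) c (W a) z * x ^ 2 +
        Vale.Agent.P088.R2.H960.W.dF (τ a) c' (W a) z * y ^ 2| ≤
      C * A * (e a z ^ 2 * (x + y) ^ 2 + (eT r e N a z + e a z * M) * (x ^ 2 + y ^ 2)) := by
  have g0 : ∀ a, ∀ z ∈ U a, 0 ≤ e a z ^ 2 * r a z := fun a z hz =>
    mul_nonneg (sq_nonneg _) (h.sz.B.r0 a z hz)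
  have gT : ∀ a, ∀ z ∈ U a, 0 ≤ eT r e N a z := fun a z hz =>
    le_trans (by positivity) (h.nb.hT a z hz)
  obtain ⟨C1, c1, k1⟩ := OO.fin g0 fun j => h.nb.pF j
  obtain ⟨C2, c2, k2⟩ := OO.fin g0 fun j => h.nb.pF' j
  obtain ⟨C3, c3, k3⟩ := OO.fin gT fun j => h.nb.pp j
  obtain ⟨C4, c4, k4⟩ := h.nb.fF
  obtain ⟨C5, c5, k5⟩ := h.nb.fF'
  set C := C1 + C2 + C3 with hC
  have C0 : 0 ≤ C := by positivity
  set n : ℝ := (Fintype.card ι : ℝ) with hn
  have n0 : 0 ≤ n := Nat.cast_nonneg _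
  refine ⟨3 * n * C + n * C4 + n * C5, by positivity,
    fun a z hz c c' A M hc hc' hA hM a1 a2 ad dc dc' x y => ?_⟩
  have ez := h.sz.e0 a z hz
  have rz := h.sz.B.r0 a z hz
  have rz1 := h.sz.B.r1 a z hz
  have hT := h.nb.hT a z hz
  have hT0 := gT a z hz
  have d1 : ∀ j, (σ a).D j ((σ a).F (W a)) z = An.pF (fun i j a => (σ a).s i j)
      (fun l i j a => (σ a).D l ((σ a).s i j)) (fun i j a => (σ a).D i ((σ a).D j (W a)))
      (fun i a => (σ a).D i (W a)) j a z := fun j => D_G' (h.ok a) (h.Ws a) (h.Ws a) j hz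
  have d2 : ∀ j, (τ a).D j ((τ a).F (W a)) z = An.pF (fun i j a => (τ a).s i j)
      (fun l i j a => (τ a).D l ((τ a).s i j)) (fun i j a => (τ a).D i ((τ a).D j (W a)))
      (fun i a => (τ a).D i (W a)) j a z := fun j => D_G' (h.ot a) (h.Ws a) (h.Ws a) j hz
  have f1 : |(σ a).F (W a) z| ≤ C4 * (e a z ^ 2 * r a z ^ 2) := k4 a z hz
  have f2 : |(τ a).F (W a) z| ≤ C5 * (e a z ^ 2 * r a z ^ 2) := k5 a z hz
  have key := df_arith (φ := fun j => (σ a).D j ((σ a).F (W a)) z)
    (φ' := fun j => (τ a).D j ((τ a).F (W a)) z) (c := fun j => c j z) (c' := fun j => c' j z)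
    (E := e a z) (r := r a z) (T := eT r e N a z)
    (R := e a z * (e a z * r a z ^ 2 + M)) (A := A) (C := C) (x := x) (y := y) C0 hA rz hT0
    (by positivity)
    (fun j => by
      simp only [d1]
      exact (k1 j a z hz).trans (mul_le_mul_of_nonneg_right (by linarith) (g0 a z hz)))
    (fun j => by
      simp only [d2]
      exact (k2 j a z hz).trans (mul_le_mul_of_nonneg_right (by linarith) (g0 a z hz)))
    (fun j => by
      simp only [d1, d2]
      exact (k3 j a z hz).trans (mul_le_mul_of_nonneg_right (by linarith) (gT a z hz)))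
    a1 a2 (fun j => by
      have := mul_le_mul_of_nonneg_left (ad j) ez
      linarith)
  have v1 : |∑ j, (σ a).F (W a) z * (σ a).D j (c j) z| ≤
      n * (C4 * A * (e a z * (e a z * r a z ^ 2 + M))) := by
    refine (Finset.abs_sum_le_sum_abs _ _).trans ?_
    have hj : ∀ j, |(σ a).F (W a) z * (σ a).D j (c j) z| ≤
        C4 * A * (e a z * (e a z * r a z ^ 2 + M)) := by
      intro j
      rw [abs_mul]
      have t1 := mul_le_mul_of_nonneg_right f1 (abs_nonneg ((σ a).D j (c j) z))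
      have t2 := mul_le_mul_of_nonneg_left (dc j) (mul_nonneg c4 ez)
      linarith
    refine (Finset.sum_le_sum fun j _ => hj j).trans (le_of_eq ?_)
    rw [Finset.sum_const, Finset.card_univ, nsmul_eq_mul]
  have v2 : |∑ j, (τ a).F (W a) z * (τ a).D j (c' j) z| ≤
      n * (C5 * A * (e a z * (e a z * r a z ^ 2 + M))) := by
    refine (Finset.abs_sum_le_sum_abs _ _).trans ?_
    have hj : ∀ j, |(τ a).F (W a) z * (τ a).D j (c' j) z| ≤
        C5 * A * (e a z * (e a z * r a z ^ 2 + M)) := by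
      intro j
      rw [abs_mul]
      have t1 := mul_le_mul_of_nonneg_right f2 (abs_nonneg ((τ a).D j (c' j) z))
      have t2 := mul_le_mul_of_nonneg_left (dc' j) (mul_nonneg c5 ez)
      linarith
    refine (Finset.sum_le_sum fun j _ => hj j).trans (le_of_eq ?_)
    rw [Finset.sum_const, Finset.card_univ, nsmul_eq_mul]
  rw [dF_eq (h.ok a) (h.k1 a) (h.Ws a) hc hz, dF_eq (h.ot a) (h.k2 a) (h.Ws a) hc' hz]
  have e1 : ((∑ j, (σ a).D j ((σ a).F (W a)) z * c j z) +
        ∑ j, (σ a).F (W a) z * (σ a).D j (c j) z) * x ^ 2 +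
      ((∑ j, (τ a).D j ((τ a).F (W a)) z * c' j z) +
        ∑ j, (τ a).F (W a) z * (τ a).D j (c' j) z) * y ^ 2 =
      ((∑ j, (σ a).D j ((σ a).F (W a)) z * c j z) * x ^ 2 +
        (∑ j, (τ a).D j ((τ a).F (W a)) z * c' j z) * y ^ 2) +
      ((∑ j, (σ a).F (W a) z * (σ a).D j (c j) z) * x ^ 2 +
        (∑ j, (τ a).F (W a) z * (τ a).D j (c' j) z) * y ^ 2) := by ring
  rw [e1]
  refine (abs_add_le _ _).trans ((add_le_add key (abs_add_le _ _)).trans ?_)
  rw [abs_mul, abs_mul, abs_of_nonneg (sq_nonneg x), abs_of_nonneg (sq_nonneg y)]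
  have u1 := mul_le_mul_of_nonneg_right v1 (sq_nonneg x)
  have u2 := mul_le_mul_of_nonneg_right v2 (sq_nonneg y)
  have hR : e a z * (e a z * r a z ^ 2 + M) ≤ eT r e N a z + e a z * M := by linarith
  have hRT : e a z ^ 2 * r a z ^ 2 + eT r e N a z + e a z * (e a z * r a z ^ 2 + M) ≤
      3 * (eT r e N a z + e a z * M) := by
    have := mul_nonneg ez hM
    linarith
  have X0 : 0 ≤ x ^ 2 + y ^ 2 := by positivity
  have S0 : 0 ≤ e a z ^ 2 * (x + y) ^ 2 := by positivity
  have hV : 0 ≤ eT r e N a z + e a z * M := add_nonneg hT0 (mul_nonneg ez hM)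
  clear key f1 f2 d1 d2 a1 a2 ad dc dc' k1 k2 k3 k4 k5 v1 v2 e1
  have w1 := mul_le_mul_of_nonneg_right hRT X0
  have w2 := mul_le_mul_of_nonneg_left w1 (by positivity : 0 ≤ n * (C * A))
  have w3 := mul_le_mul_of_nonneg_right hR (sq_nonneg x)
  have w4 := mul_le_mul_of_nonneg_right hR (sq_nonneg y)
  have w5 := mul_le_mul_of_nonneg_left w3 (by positivity : 0 ≤ n * (C4 * A))
  have w6 := mul_le_mul_of_nonneg_left w4 (by positivity : 0 ≤ n * (C5 * A))
  have w7 : 0 ≤ n * (C4 * A) * ((eT r e N a z + e a z * M) * y ^ 2) := by positivity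
  have w8 : 0 ≤ n * (C5 * A) * ((eT r e N a z + e a z * M) * x ^ 2) := by positivity
  have w9 : 0 ≤ (2 * n * C + n * C4 + n * C5) * A * (e a z ^ 2 * (x + y) ^ 2) := by positivity
  generalize e a z * (e a z * r a z ^ 2 + M) = RR at *
  generalize eT r e N a z = TT at *
  generalize e a z ^ 2 * (x + y) ^ 2 = SS at *
  generalize e a z ^ 2 * r a z ^ 2 = ER at *
  generalize e a z * M = EM at *
  clear hC
  linarith

end fam

end Vale.Agent.P088.R2.H814.An
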