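import Vale.Agent.P088.R2.H814.B2.Rt
import Vale.Agent.P088.R2.H475.Z.FrmD

/-!
# The frames of two families of tensors
-/

open Set Filter Metric
open scoped ContDiff Topology Matrix

noncomputable section

namespace Vale.Agent.P088.R2.H814.An

open Vale.Agent.P088.LR Vale.Agent.P088.HY
open Vale.Agent.P088.R2.H961.GW Vale.Agent.P088.R2.H644.Sy Vale.Agent.P088.R2.H464.Cu
open Vale.Agent.P088.R2.H475.Z

variable {n k : ℕ} {α : Type*} {U : α → Set (VV n)} {r : α → VV n → ℝ} {s s₁ s₂ : α → MF n}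

/-- The symmetric part. -/
def sym (S : Fin n → Fin n → ℝ) : Matrix (Fin n) (Fin n) ℝ := fun i j => (S i j + S j i) / 2

/-- The unit matrix as a function. -/
def onf (n : ℕ) : Fin n → Fin n → ℝ := un 1

/-- The radius. -/
def rd0 (n : ℕ) : ℝ := 1 / (4 * (n + 1))

theorem rd0_pos (n : ℕ) : 0 < rd0 n := by unfold rd0; positivity

theorem rd0_n (n : ℕ) : n * (2 * rd0 n) ≤ 1 / 2 := by
  unfold rd0
  have : (0 : ℝ) < n + 1 := by positivity
  rw [show (n : ℝ) * (2 * (1 / (4 * (n + 1)))) = 1 / 2 * (n / (n + 1)) by field_simp; norm_num]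
  have h2 : (n : ℝ) / (n + 1) ≤ 1 := by rw [div_le_one this]; linarith
  linarith

theorem ent_ball {S : Fin n → Fin n → ℝ} {c : ℝ} (h : ‖S - onf n‖ ≤ c) (i j : Fin n) :
    |S i j - (1 : Matrix (Fin n) (Fin n) ℝ) i j| ≤ c :=
  ((norm_le_pi_norm ((S - onf n) i) j).trans (norm_le_pi_norm (S - onf n) i)).trans h

theorem gd_sym {S : Fin n → Fin n → ℝ} (h : ‖S - onf n‖ ≤ 2 * rd0 n) : Gd (sym S) := by
  refine gd_of (fun i j => by unfold sym; ring) (rd0_n n) fun i j => ?_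
  have h1 := ent_ball h i j
  have h2 := ent_ball h j i
  have h3 : (1 : Matrix (Fin n) (Fin n) ℝ) i j = (1 : Matrix (Fin n) (Fin n) ℝ) j i := by
    simp only [Matrix.one_apply, eq_comm]
  rw [← h3] at h2
  unfold sym
  rw [abs_le] at *
  constructor <;> linarith [h1.1, h1.2, h2.1, h2.2]

/-- **The entries of the root are smooth functions of the entries of the matrix.** -/
theorem gc_rt (b i : Fin n) : Gc (ball (onf n) (2 * rd0 n)) (closedBall (onf n) (rd0 n))
    fun S : Fin n → Fin n → ℝ => rt (sym S) b i where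
  op := isOpen_ball
  cp := isCompact_closedBall _ _
  cv := convex_closedBall _ _
  KO := closedBall_subset_ball (by have := rd0_pos n; linarith)
  sm := by
    refine rt_cdo isOpen_ball (fun i j => ?_) (fun S hS => gd_sym ?_) b i
    · have h1 : ∀ i j : Fin n, ContDiff ℝ ∞ fun S : Fin n → Fin n → ℝ => S i j := fun i j =>
        (contDiff_apply ℝ ℝ j).comp (contDiff_apply ℝ (Fin n → ℝ) i)
      exact (((h1 i j).add (h1 j i)).div_const 2).contDiffOn
    · rw [mem_ball, dist_eq_norm] at hS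
      exact hS.le

/-- Two families of tensors. -/
structure Ts (U : α → Set (VV n)) (r : α → VV n → ℝ) (k : ℕ) (s₁ s₂ : α → MF n) : Prop where
  y1 : ∀ a x i j, s₁ a x i j = s₁ a x j i
  y2 : ∀ a x i j, s₂ a x i j = s₂ a x j i
  t1 : ∀ i j, S1 k fun a x => s₁ a x i j
  t2 : ∀ i j, S1 k fun a x => s₂ a x i j
  c1 : ∀ a x i j, |s₁ a x i j - (1 : Matrix (Fin n) (Fin n) ℝ) i j| ≤ rd0 n
  c2 : ∀ a x i j, |s₂ a x i j - (1 : Matrix (Fin n) (Fin n) ℝ) i j| ≤ rd0 n
  d0 : ∃ C, ∀ a, ∀ z ∈ U a, ∀ i j, |s₁ a z.2 i j - s₂ a z.2 i j| ≤ C * r a z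
  d1 : ∃ C, ∀ a, ∀ z ∈ U a, ∀ i j,
    ‖fderiv ℝ (fun x => s₁ a x i j) z.2 - fderiv ℝ (fun x => s₂ a x i j) z.2‖ ≤ C * r a z
  xy : ∃ A, ∀ a, ∀ z ∈ U a, ‖z.1 - z.2‖ ≤ A * r a z

/-- The tensor as a function with values in a normed space. -/
theorem sf_mat (h : ∀ i j, S1 k fun a x => s a x i j) :
    Sf (fun _ => univ) (fun _ _ => 1) (fun _ _ => 1) k fun a x => un (s a x) := by
  set L : Fin n → Fin n → ℝ →L[ℝ] (Fin n → Fin n → ℝ) := fun i j =>
    (ContinuousLinearMap.id ℝ ℝ).smulRight (Pi.single i (Pi.single j (1 : ℝ))) with hL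
  have h1 : ∀ i j, Sf (fun _ => univ) (fun _ _ => 1) (fun _ _ => 1) k
      fun (a : α) x => L i j (s a x i j) := fun i j => (h i j).clm (fun _ => isOpen_univ) (L i j)
  have h2 := Sf.sum (fun _ => isOpen_univ) Finset.univ fun i _ =>
    Sf.sum (fun _ => isOpen_univ) Finset.univ fun j _ => h1 i j
  refine h2.congr (fun _ => isOpen_univ) fun a x _ => ?_
  funext i j
  simp only [hL, ContinuousLinearMap.smulRight_apply, ContinuousLinearMap.coe_id', id_eq, un]
  rw [Finset.sum_apply, Finset.sum_apply, Finset.sum_eq_single i, Finset.sum_apply,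
    Finset.sum_apply, Finset.sum_eq_single j]
  · simp
  · intro c _ hc
    simp [Pi.single_apply, hc.symm]
  · simp
  · intro c _ hc
    simp [Finset.sum_apply, Pi.single_apply, hc.symm]
  · simp

theorem mat_ball (h : ∀ a x i j, |s a x i j - (1 : Matrix (Fin n) (Fin n) ℝ) i j| ≤ rd0 n)
    (a : α) (x : V n) : un (s a x) ∈ closedBall (onf n) (rd0 n) := by
  rw [mem_closedBall, dist_eq_norm, pi_norm_le_iff_of_nonneg (rd0_pos n).le]
  intro i
  rw [pi_norm_le_iff_of_nonneg (rd0_pos n).le]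
  intro j
  exact h a x i j

theorem fd_un (h : ∀ i j, S1 k fun a x => s a x i j) (a : α) (x v : V n) (i j : Fin n) :
    fderiv ℝ (fun x => un (s a x)) x v i j = fderiv ℝ (fun x => s a x i j) x v := by
  have h1 : HasFDerivAt (fun x => un (s a x))
      (ContinuousLinearMap.pi fun i => ContinuousLinearMap.pi fun j =>
        fderiv ℝ (fun x => s a x i j) x) x :=
    hasFDerivAt_pi'' fun i => hasFDerivAt_pi'' fun j => ((h i j).df a x).hasFDerivAt
  rw [h1.fderiv]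
  rfl

namespace Ts

theorem nn (_ : Ts U r k s₁ s₂) {C : ℝ} {a : α} {z : VV n}
    (hC : ∀ i j : Fin n, |s₁ a z.2 i j - s₂ a z.2 i j| ≤ C * r a z) (hr : 0 ≤ r a z) :
    ‖un (s₁ a z.2) - un (s₂ a z.2)‖ ≤ |C| * r a z := by
  have h0 : C * r a z ≤ |C| * r a z := mul_le_mul_of_nonneg_right (le_abs_self C) hr
  have h1 : 0 ≤ |C| * r a z := mul_nonneg (abs_nonneg C) hr
  rw [pi_norm_le_iff_of_nonneg h1]
  intro i
  rw [pi_norm_le_iff_of_nonneg h1]
  intro j
  exact (hC i j).trans h0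

theorem cv (h : Ts U r k s₁ s₂) (hr : ∀ a, ∀ z ∈ U a, 0 ≤ r a z) :
    Cv U r (fun a x => un (s₁ a x)) fun a x => un (s₂ a x) := by
  obtain ⟨C0, h0⟩ := h.d0
  obtain ⟨C1, h1⟩ := h.d1
  refine ⟨⟨|C0|, fun a z hz => h.nn (h0 a z hz) (hr a z hz)⟩, ⟨|C1|, fun a z hz => ?_⟩⟩
  have r0 := hr a z hz
  have q0 : 0 ≤ |C1| * r a z := mul_nonneg (abs_nonneg _) r0
  refine ContinuousLinearMap.opNorm_le_bound _ q0 fun v => ?_
  have q1 : 0 ≤ |C1| * r a z * ‖v‖ := mul_nonneg q0 (norm_nonneg _)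
  rw [pi_norm_le_iff_of_nonneg q1]
  intro i
  rw [pi_norm_le_iff_of_nonneg q1]
  intro j
  have e : (fderiv ℝ (fun x => un (s₁ a x)) z.2 - fderiv ℝ (fun x => un (s₂ a x)) z.2) v i j =
      (fderiv ℝ (fun x => s₁ a x i j) z.2 - fderiv ℝ (fun x => s₂ a x i j) z.2) v := by
    have e1 := fd_un h.t1 a z.2 v i j
    have e2 := fd_un h.t2 a z.2 v i j
    simp only [_root_.sub_apply, Pi.sub_apply, e1, e2]
  rw [e]
  refine (ContinuousLinearMap.le_opNorm _ v).trans (mul_le_mul_of_nonneg_right ?_ (norm_nonneg _))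
  exact (h1 a z hz i j).trans (mul_le_mul_of_nonneg_right (le_abs_self _) r0)

/-- The entries are close. -/
theorem cl (h : Ts U r k s₁ s₂) (i j : Fin n) :
    Cl U r k (fun a x => s₁ a x i j) fun a x => s₂ a x i j := by
  obtain ⟨C0, h0⟩ := h.d0
  obtain ⟨C1, h1⟩ := h.d1
  refine ⟨h.t1 i j, h.t2 i j, ⟨C0, fun a z hz => h0 a z hz i j⟩, ⟨C1, fun a z hz l => ?_⟩⟩
  have e : fderiv ℝ (fun x => s₁ a x i j) z.2 (Pi.single l 1) -
      fderiv ℝ (fun x => s₂ a x i j) z.2 (Pi.single l 1) =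
      (fderiv ℝ (fun x => s₁ a x i j) z.2 - fderiv ℝ (fun x => s₂ a x i j) z.2)
        (Pi.single l 1) := rfl
  have := (fderiv ℝ (fun x => s₁ a x i j) z.2 - fderiv ℝ (fun x => s₂ a x i j) z.2).le_opNorm
    (Pi.single l 1)
  rw [Pi.norm_single, norm_one, mul_one] at this
  rw [e]
  exact this.trans (h1 a z hz i j)

theorem sym1 (h : Ts U r k s₁ s₂) (a : α) (x : V n) : sym (un (s₁ a x)) = s₁ a x := by
  funext i j
  have := h.y1 a x i j
  simp only [sym, un]
  linarith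

theorem sym2 (h : Ts U r k s₁ s₂) (a : α) (x : V n) : sym (un (s₂ a x)) = s₂ a x := by
  funext i j
  have := h.y2 a x i j
  simp only [sym, un]
  linarith

/-- The roots are close. -/
theorem rcl (h : Ts U r (k + 1) s₁ s₂) (hr : ∀ a, ∀ z ∈ U a, 0 ≤ r a z) (b i : Fin n) :
    Cl U r (k + 1) (fun a x => rt (s₁ a x) b i) fun a x => rt (s₂ a x) b i := by
  have key := (gc_rt b i).cl hr (sf_mat h.t1) (mat_ball h.c1) (sf_mat h.t2) (mat_ball h.c2)
    (h.cv hr)
  have e1 : (fun (a : α) x => rt (sym (un (s₁ a x))) b i) = fun a x => rt (s₁ a x) b i := by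
    funext a x; rw [h.sym1]
  have e2 : (fun (a : α) x => rt (sym (un (s₂ a x))) b i) = fun a x => rt (s₂ a x) b i := by
    funext a x; rw [h.sym2]
  rw [e1, e2] at key
  exact key

theorem gd1 (h : Ts U r k s₁ s₂) (a : α) (x : V n) : Gd (s₁ a x) := by
  rw [← h.sym1]
  refine gd_sym ?_
  have := mat_ball h.c1 a x
  rw [mem_closedBall, dist_eq_norm] at this
  have := rd0_pos n
  linarith

theorem gd2 (h : Ts U r k s₁ s₂) (a : α) (x : V n) : Gd (s₂ a x) := by
  rw [← h.sym2]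
  refine gd_sym ?_
  have := mat_ball h.c2 a x
  rw [mem_closedBall, dist_eq_norm] at this
  have := rd0_pos n
  linarith

end Ts

end Vale.Agent.P088.R2.H814.An
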