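import Vale.Agent.P088.R2.H961.W.Mix
import Vale.Agent.P088.R2.H960.W.Mult

/-!
# Frames of a slot

For coefficients `p a i` let `fD a f = ∑ p a i D_i f`.  If `∑_a p a i p a j = s_ij` the conjugated
operator `P` is `∑_a (A_a + div) A_a`, `A_a f = fD a f + f fD a W`.
-/

open MeasureTheory Set Filter
open scoped ContDiff Topology

noncomputable section

namespace Vale.Agent.P088.R2.H814.B2

open Vale.Agent.P088.R2.H961.GW Vale.Agent.P088.R2.H960.W

variable {E ι κ α : Type*} [NormedAddCommGroup E] [NormedSpace ℝ E] [Fintype ι] [Fintype κ]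
  [Fintype α]

/-- The derivation of a frame vector. -/
def fD (σ : Sl E ι) (p : α → ι → E → ℝ) (a : α) (f : E → ℝ) (z : E) : ℝ :=
  ∑ i, p a i z * σ.D i f z

/-- The divergence of a frame vector. -/
def fl (σ : Sl E ι) (p : α → ι → E → ℝ) (a : α) (z : E) : ℝ :=
  ∑ i, (σ.D i (p a i) z + σ.k i z * p a i z)

/-- `A_a f = fD a f + f fD a W`. -/
def fA (σ : Sl E ι) (p : α → ι → E → ℝ) (W : E → ℝ) (a : α) (f : E → ℝ) (z : E) : ℝ :=
  fD σ p a f z + f z * fD σ p a W z

section pw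

variable {σ : Sl E ι} {τ : Sl E κ} {U : Set E} {θ : E → ℝ} {v W f g h : E → ℝ} {z : E}
  {p : α → ι → E → ℝ} {q : α → κ → E → ℝ}

omit [Fintype α] in
theorem s_fD (ok : σ.Ok U θ) (hp : ∀ a i, Sm U (p a i)) (hf : Sm U f) (a : α) :
    Sm U (fD σ p a f) :=
  Sm.sum _ fun i _ => (hp a i).mul (ok.sD hf i)

omit [Fintype α] in
theorem t_fD (ok : σ.Ok U θ) (hp : ∀ a i, Sm U (p a i)) (hf : Te U f) (a : α) :
    Te U (fD σ p a f) :=
  Te.sum ok.op _ fun i _ => (ok.tD hf i).mul_left ok.op (hp a i)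

omit [Fintype α] in
theorem s_fl (ok : σ.Ok U θ) (hp : ∀ a i, Sm U (p a i)) (a : α) : Sm U (fl σ p a) :=
  Sm.sum _ fun i _ => (ok.sD (hp a i) i).add ((ok.ks i).mul (hp a i))

omit [Fintype α] in
theorem s_fA (ok : σ.Ok U θ) (hp : ∀ a i, Sm U (p a i)) (hW : Sm U W) (hf : Sm U f) (a : α) :
    Sm U (fA σ p W a f) :=
  (s_fD ok hp hf a).add (hf.mul (s_fD ok hp hW a))

omit [Fintype α] in
theorem t_fA (ok : σ.Ok U θ) (hp : ∀ a i, Sm U (p a i)) (hW : Sm U W) (hf : Te U f) (a : α) :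
    Te U (fA σ p W a f) :=
  (t_fD ok hp hf a).add ok.op (hf.mul_right ok.op (s_fD ok hp hW a))

omit [Fintype α] in
theorem fD_congr (hU : IsOpen U) (e : ∀ z ∈ U, f z = g z) (a : α) (hz : z ∈ U) :
    fD σ p a f z = fD σ p a g z :=
  Finset.sum_congr rfl fun i _ => by rw [D_congr σ hU e i hz]

omit [Fintype α] in
theorem fD_add (hU : IsOpen U) (hf : Sm U f) (hg : Sm U g) (a : α) (hz : z ∈ U) :
    fD σ p a (fun z => f z + g z) z = fD σ p a f z + fD σ p a g z := by
  unfold fD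
  rw [← Finset.sum_add_distrib]
  exact Finset.sum_congr rfl fun i _ => by rw [D_add σ hU hf hg i hz]; ring

omit [Fintype α] in
theorem fD_sub (hU : IsOpen U) (hf : Sm U f) (hg : Sm U g) (a : α) (hz : z ∈ U) :
    fD σ p a (fun z => f z - g z) z = fD σ p a f z - fD σ p a g z := by
  unfold fD
  rw [← Finset.sum_sub_distrib]
  exact Finset.sum_congr rfl fun i _ => by rw [D_sub σ hU hf hg i hz]; ring

omit [Fintype α] in
theorem fD_mul (hU : IsOpen U) (hf : Sm U f) (hg : Sm U g) (a : α) (hz : z ∈ U) :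
    fD σ p a (fun z => f z * g z) z = fD σ p a f z * g z + f z * fD σ p a g z := by
  unfold fD
  rw [Finset.sum_mul, Finset.mul_sum, ← Finset.sum_add_distrib]
  exact Finset.sum_congr rfl fun i _ => by rw [D_mul σ hU hf hg i hz]; ring

omit [Fintype α] in
theorem fD_cmul (hU : IsOpen U) (c : ℝ) (hf : Sm U f) (a : α) (hz : z ∈ U) :
    fD σ p a (fun z => c * f z) z = c * fD σ p a f z := by
  unfold fD
  rw [Finset.mul_sum]
  exact Finset.sum_congr rfl fun i _ => by rw [D_cmul σ hU c hf i hz]; ring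

omit [Fintype α] in
/-- `A_a` in terms of `Y_j`. -/
theorem fA_eq (p : α → ι → E → ℝ) (W f : E → ℝ) (a : α) (z : E) :
    fA σ p W a f z = ∑ j, p a j z * YY σ W f j z := by
  unfold fA fD YY
  rw [Finset.mul_sum, ← Finset.sum_add_distrib]
  exact Finset.sum_congr rfl fun i _ => by ring

/-- The conjugated operator in a frame. -/
theorem fP (ok : σ.Ok U θ) (hp : ∀ a i, Sm U (p a i)) (fr : ∀ z ∈ U, ∀ i j,
    ∑ a, p a i z * p a j z = σ.s i j z) (v : E → ℝ) (hW : Sm U W) (hf : Sm U f) (hz : z ∈ U) :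
    ∑ a, (fD σ p a (fA σ p W a f) z + fD σ p a W z * fA σ p W a f z +
      fl σ p a z * fA σ p W a f z) = σ.P v W f z - v z * f z := by
  have hU := ok.op
  have sy := fun j => sY ok hW hf j
  rw [P_eq ok v hW hf hz]
  have e1 : ∀ a, fD σ p a (fA σ p W a f) z = ∑ i, ∑ j, (p a i z * σ.D i (p a j) z *
      YY σ W f j z + p a i z * p a j z * σ.D i (YY σ W f j) z) := by
    intro a
    rw [fD_congr hU (fun z _ => fA_eq p W f a z) a hz]
    unfold fD
    refine Finset.sum_congr rfl fun i _ => ?_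
    rw [D_sum σ hU _ (fun j _ => (hp a j).mul (sy j)) i hz, Finset.mul_sum]
    refine Finset.sum_congr rfl fun j _ => ?_
    rw [D_mul σ hU (hp a j) (sy j) i hz]
    ring
  have e2 : ∀ a, fD σ p a W z * fA σ p W a f z = ∑ i, ∑ j, p a i z * p a j z *
      (σ.D i W z * YY σ W f j z) := by
    intro a
    rw [fA_eq]
    unfold fD
    rw [Finset.sum_mul_sum]
    exact Finset.sum_congr rfl fun i _ => Finset.sum_congr rfl fun j _ => by ring
  have e3 : ∀ a, fl σ p a z * fA σ p W a f z = ∑ i, ∑ j, (σ.D i (p a i) z * p a j z *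
      YY σ W f j z + p a i z * p a j z * (σ.k i z * YY σ W f j z)) := by
    intro a
    rw [fA_eq]
    unfold fl
    rw [Finset.sum_mul_sum]
    exact Finset.sum_congr rfl fun i _ => Finset.sum_congr rfl fun j _ => by ring
  have e4 : ∀ i j, σ.D i (σ.s i j) z = ∑ a, (σ.D i (p a i) z * p a j z +
      p a i z * σ.D i (p a j) z) := by
    intro i j
    rw [D_congr σ hU (g := fun z => ∑ a, p a i z * p a j z) (fun z hz => (fr z hz i j).symm) i hz,
      D_sum σ hU _ (fun a _ => (hp a i).mul (hp a j)) i hz]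
    exact Finset.sum_congr rfl fun a _ => D_mul σ hU (hp a i) (hp a j) i hz
  have e6 : ∑ a, (fD σ p a (fA σ p W a f) z + fD σ p a W z * fA σ p W a f z +
      fl σ p a z * fA σ p W a f z) = (∑ i, ∑ j, σ.s i j z * (σ.D i (YY σ W f j) z +
        σ.k i z * YY σ W f j z + σ.D i W z * YY σ W f j z)) +
        ∑ i, ∑ j, σ.D i (σ.s i j) z * YY σ W f j z := by
    simp only [e1, e2, e3, ← Finset.sum_add_distrib]
    rw [Finset.sum_comm]
    refine Finset.sum_congr rfl fun i _ => ?_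
    rw [Finset.sum_comm]
    refine Finset.sum_congr rfl fun j _ => ?_
    rw [e4 i j, ← fr z hz i j, Finset.sum_mul, Finset.sum_mul, ← Finset.sum_add_distrib]
    exact Finset.sum_congr rfl fun a _ => by ring
  rw [e6]
  simp only [← Finset.sum_add_distrib]
  ring

omit [Fintype α] in
/-- Derivations of the two slots commute if the frames depend on their own slot only. -/
theorem fD_comm (ok : σ.Ok U θ) (ot : τ.Ok U θ) (cm : Cm σ τ U) (hp : ∀ a i, Sm U (p a i))
    (hq : ∀ a i, Sm U (q a i)) (hp0 : ∀ z ∈ U, ∀ a i k, τ.D k (p a i) z = 0)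
    (hq0 : ∀ z ∈ U, ∀ a k i, σ.D i (q a k) z = 0) (hf : Sm U f) (a b : α) (hz : z ∈ U) :
    fD σ p a (fD τ q b f) z = fD τ q b (fD σ p a f) z := by
  have hU := ok.op
  have e1 : ∀ i, σ.D i (fD τ q b f) z = ∑ k, q b k z * σ.D i (τ.D k f) z := by
    intro i
    have : σ.D i (fD τ q b f) z = σ.D i (fun z => ∑ k, q b k z * τ.D k f z) z := rfl
    rw [this, D_sum σ hU _ (fun k _ => (hq b k).mul (ot.sD hf k)) i hz]
    refine Finset.sum_congr rfl fun k _ => ?_
    rw [D_mul σ hU (hq b k) (ot.sD hf k) i hz, hq0 z hz b k i]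
    ring
  have e2 : ∀ k, τ.D k (fD σ p a f) z = ∑ i, p a i z * τ.D k (σ.D i f) z := by
    intro k
    have : τ.D k (fD σ p a f) z = τ.D k (fun z => ∑ i, p a i z * σ.D i f z) z := rfl
    rw [this, D_sum τ hU _ (fun i _ => (hp a i).mul (ok.sD hf i)) k hz]
    refine Finset.sum_congr rfl fun i _ => ?_
    rw [D_mul τ hU (hp a i) (ok.sD hf i) k hz, hp0 z hz a i k]
    ring
  have e3 : fD σ p a (fD τ q b f) z = ∑ i, p a i z * σ.D i (fD τ q b f) z := rfl
  have e4 : fD τ q b (fD σ p a f) z = ∑ k, q b k z * τ.D k (fD σ p a f) z := rfl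
  rw [e3, e4]
  simp only [e1, e2, Finset.mul_sum]
  rw [Finset.sum_comm]
  refine Finset.sum_congr rfl fun k _ => Finset.sum_congr rfl fun i _ => ?_
  rw [cm.cc f hf z hz i k]
  ring

end pw

variable [MeasureSpace E] [FiniteDimensional ℝ E] [BorelSpace E]
  [(volume : Measure E).IsAddHaarMeasure]

section integral

variable {σ : Sl E ι} {U : Set E} {θ : E → ℝ} {h : E → ℝ} {p : α → ι → E → ℝ}

omit [Fintype α] in
theorem fibp (ok : σ.Ok U θ) (hp : ∀ a i, Sm U (p a i)) (hh : Te U h) (a : α) :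
    In U θ (fun z => fD σ p a h z + fl σ p a z * h z) = 0 := by
  have hU := ok.op
  have t1 : ∀ i, Te U fun z => p a i z * h z := fun i => hh.mul_left hU (hp a i)
  have t2 : ∀ i ∈ Finset.univ, Te U fun z => σ.D i (fun z => p a i z * h z) z +
      σ.k i z * (p a i z * h z) := fun i _ =>
    (ok.tD (t1 i) i).add hU ((t1 i).mul_left hU (ok.ks i))
  have e : In U θ (fun z => ∑ i, (σ.D i (fun z => p a i z * h z) z +
      σ.k i z * (p a i z * h z))) = 0 := by
    rw [In_sum hU ok.ts _ t2]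
    exact Finset.sum_eq_zero fun i _ => ibp ok (t1 i) i
  rw [← e]
  refine In_congr hU fun z hz => ?_
  unfold fD fl
  rw [Finset.sum_mul, ← Finset.sum_add_distrib]
  refine Finset.sum_congr rfl fun i _ => ?_
  rw [D_mul σ hU (hp a i) hh.sm i hz]
  ring

end integral

end Vale.Agent.P088.R2.H814.B2
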