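import Vale.Agent.P088.R2.H814.B2.KT2

/-!
# The zero order trick

A weighted part `ϑ |w|²`, `w_a = A*_a f - B*_a h`, of the main square controls the zero order term
`ϑ |(p·D - q·E) W|² s²`, `s = f + h`, with small multiples of `(P t)²`, `t = f - h`, and errors
`ϑ |(p·D + q·E) W|² t²`.
-/

open MeasureTheory Set Filter
open scoped ContDiff Topology

noncomputable section

namespace Vale.Agent.P088.R2.H814.B2

open Vale.Agent.P088.R2.H961.GW Vale.Agent.P088.R2.H960.W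

variable {E ι κ α : Type*} [NormedAddCommGroup E] [NormedSpace ℝ E] [Fintype ι] [Fintype κ]
  [Fintype α]

/-- `A*_a f = ∑ p_ai X_i f`. -/
def fX (σ : Sl E ι) (p : α → ι → E → ℝ) (W f : E → ℝ) (a : α) (z : E) : ℝ :=
  ∑ i, p a i z * XX σ W f i z

/-- The zero order coefficient gained by the trick. -/
def kO (σ : Sl E ι) (τ : Sl E κ) (p : α → ι → E → ℝ) (q : α → κ → E → ℝ) (W ϑ : E → ℝ)
    (z : E) : ℝ :=
  ∑ a, (ϑ z * gg σ τ p q a W z ^ 2 + gg σ τ p q a (fun z => ϑ z * gg σ τ p q a W z) z +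
    gl σ τ p q a z * (ϑ z * gg σ τ p q a W z))

/-- The drift coefficient. -/
def kn (σ : Sl E ι) (τ : Sl E κ) (p : α → ι → E → ℝ) (q : α → κ → E → ℝ) (W : E → ℝ) (a : α)
    (z : E) : ℝ := 2 * gs σ τ p q a W z + gr σ τ p q a z

/-- The coefficient of `s t`. -/
def kk (σ : Sl E ι) (τ : Sl E κ) (p : α → ι → E → ℝ) (q : α → κ → E → ℝ) (W : E → ℝ) (a : α)
    (z : E) : ℝ := gl σ τ p q a z * gs σ τ p q a W z + gg σ τ p q a (gr σ τ p q a) z +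
      gl σ τ p q a z * gr σ τ p q a z

/-- The loss in `s²`. -/
def kS (σ : Sl E ι) (τ : Sl E κ) (p : α → ι → E → ℝ) (q : α → κ → E → ℝ) (ψ φ : E → ℝ)
    (ε η : ℝ) (z : E) : ℝ :=
  8 / η * φ z ^ 2 + 2 * ψ z ^ 2 + ∑ a, (4 / ε * (2 * gg σ τ p q a ψ z +
    1 / 2 * gl σ τ p q a z * ψ z) ^ 2 + 4 * gg σ τ p q a ψ z ^ 2 + 2 * ψ z ^ 2)

/-- The loss in `t²`. -/
def kT (σ : Sl E ι) (τ : Sl E κ) (p : α → ι → E → ℝ) (q : α → κ → E → ℝ) (v₁ v₂ W ψ : E → ℝ)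
    (ε : ℝ) (z : E) : ℝ :=
  2 * ψ z ^ 2 * (v₁ z - v₂ z) ^ 2 + ∑ a, ((4 / ε + 4) * (ψ z ^ 2 * kn σ τ p q W a z ^ 2) +
    2 * (ψ z ^ 2 * kk σ τ p q W a z ^ 2))

theorem am {ε : ℝ} (hε : 0 < ε) (x y : ℝ) : -(ε * x ^ 2) - 4 / ε * y ^ 2 ≤ 4 * (x * y) := by
  have h : 0 ≤ ε * (x + 2 / ε * y) ^ 2 := by positivity
  have e : ε * (x + 2 / ε * y) ^ 2 = ε * x ^ 2 + 4 * (x * y) + 4 / ε * y ^ 2 := by
    field_simp; ring
  linarith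

theorem pt1 {ε : ℝ} (hε : 0 < ε) (ψ g n δ s t D K k : ℝ) :
    -(ε * (ψ ^ 2 * D ^ 2)) - ε * (ψ ^ 2 * K ^ 2) -
      (4 / ε * (2 * g + 1 / 2 * δ * ψ) ^ 2 + 4 * g ^ 2 + 2 * ψ ^ 2) * s ^ 2 -
      ((4 / ε + 4) * (ψ ^ 2 * n ^ 2) + 2 * (ψ ^ 2 * k ^ 2)) * t ^ 2 ≤
      4 * (n * t * (ψ ^ 2 * D - 2 * ψ * g * s) + (2 * ψ * g + 1 / 2 * δ * ψ ^ 2) * s * K -
        ψ ^ 2 * s * t * k) := by
  have h1 := am hε (ψ * D) (ψ * n * t)
  have h2 := am hε (ψ * K) ((2 * g + 1 / 2 * δ * ψ) * s)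
  have h3 : 0 ≤ 4 * (ψ * n * t - g * s) ^ 2 := by positivity
  have h4 : 0 ≤ 2 * (ψ * s - ψ * k * t) ^ 2 := by positivity
  have e1 : 4 / ε * (ψ * n * t) ^ 2 = 4 / ε * (ψ ^ 2 * n ^ 2) * t ^ 2 := by ring
  have e2 : 4 / ε * ((2 * g + 1 / 2 * δ * ψ) * s) ^ 2 =
      4 / ε * (2 * g + 1 / 2 * δ * ψ) ^ 2 * s ^ 2 := by ring
  rw [e1] at h1
  rw [e2] at h2
  nlinarith [h1, h2, h3, h4]

theorem pt2 {η : ℝ} (hη : 0 < η) (ψ χ φ s t P Q v : ℝ) (h : ψ ^ 2 = χ * φ) :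
    -(η * (χ ^ 2 * (P ^ 2 + Q ^ 2))) - (8 / η * φ ^ 2 + 2 * ψ ^ 2) * s ^ 2 -
      2 * ψ ^ 2 * v ^ 2 * t ^ 2 ≤ 4 * (ψ ^ 2 * s * (-(P - Q) + v * t)) := by
  have h1 := am hη (χ * P) (-(φ * s))
  have h2 := am hη (χ * Q) (φ * s)
  have h3 : 0 ≤ 2 * (ψ * s + ψ * v * t) ^ 2 := by positivity
  have e1 : 4 / η * (-(φ * s)) ^ 2 = 4 / η * φ ^ 2 * s ^ 2 := by ring
  have e2 : 4 / η * (φ * s) ^ 2 = 4 / η * φ ^ 2 * s ^ 2 := by ring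
  have e3 : 8 / η * φ ^ 2 * s ^ 2 = 4 / η * φ ^ 2 * s ^ 2 + 4 / η * φ ^ 2 * s ^ 2 := by ring
  have e4 : 4 * (ψ ^ 2 * s * (-(P - Q) + v * t)) = -(4 * (χ * φ) * s * P) +
      4 * (χ * φ) * s * Q + 4 * (ψ ^ 2 * s * (v * t)) := by rw [← h]; ring
  rw [e1] at h1
  rw [e2] at h2
  nlinarith [h1, h2, h3, e3, e4]

section te

variable {σ : Sl E ι} {τ : Sl E κ} {U : Set E} {θ : E → ℝ} {v₁ v₂ W f h s t ψ χ φ : E → ℝ}
  {p : α → ι → E → ℝ} {q : α → κ → E → ℝ}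

omit [Fintype α] in
theorem fX_eq (p : α → ι → E → ℝ) (W f : E → ℝ) (a : α) (z : E) :
    fX σ p W f a z = fD σ p a W z * f z - fD σ p a f z := by
  unfold fX fD XX
  rw [Finset.sum_mul, ← Finset.sum_sub_distrib]
  exact Finset.sum_congr rfl fun i _ => by ring

theorem s_kO (F : Fr σ τ p q U θ) (hW : Sm U W) {ϑ : E → ℝ} (hϑ : Sm U ϑ) :
    Sm U (kO σ τ p q W ϑ) := by
  have sO := fun a => s_gg F hW (τ := τ) a
  have sϑO : ∀ a, Sm U fun z => ϑ z * gg σ τ p q a W z := fun a => hϑ.mul (sO a)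
  exact Sm.sum _ fun a _ => ((hϑ.mul ((sO a).pow 2)).add
      (s_gg F (sϑO a) a)).add ((s_gl F a).mul (sϑO a))

theorem s_kn (F : Fr σ τ p q U θ) (hW : Sm U W) (a : α) : Sm U (kn σ τ p q W a) :=
  (contDiffOn_const.mul (s_gs F hW a)).add (s_gr F a)

theorem s_kk (F : Fr σ τ p q U θ) (hW : Sm U W) (a : α) : Sm U (kk σ τ p q W a) :=
  (((s_gl F a).mul (s_gs F hW a)).add (s_gg F (s_gr F a) a)).add ((s_gl F a).mul (s_gr F a))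

theorem s_kS (F : Fr σ τ p q U θ) (hψ : Sm U ψ) (hφ : Sm U φ) (ε η : ℝ) :
    Sm U (kS σ τ p q ψ φ ε η) := by
  refine ((contDiffOn_const.mul (hφ.pow 2)).add (contDiffOn_const.mul (hψ.pow 2))).add
    (Sm.sum _ fun a _ => ?_)
  have g := s_gg F hψ a
  exact ((contDiffOn_const.mul (((contDiffOn_const.mul g).add
    ((contDiffOn_const.mul (s_gl F a)).mul hψ)).pow 2)).add
    (contDiffOn_const.mul (g.pow 2))).add (contDiffOn_const.mul (hψ.pow 2))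

theorem s_kT (F : Fr σ τ p q U θ) (h₁ : Sm U v₁) (h₂ : Sm U v₂) (hW : Sm U W) (hψ : Sm U ψ)
    (ε : ℝ) : Sm U (kT σ τ p q v₁ v₂ W ψ ε) := by
  refine ((contDiffOn_const.mul (hψ.pow 2)).mul ((h₁.sub h₂).pow 2)).add
    (Sm.sum _ fun a _ => ?_)
  exact (contDiffOn_const.mul ((hψ.pow 2).mul ((s_kn F hW a).pow 2))).add
    (contDiffOn_const.mul ((hψ.pow 2).mul ((s_kk F hW a).pow 2)))

end te

variable [MeasureSpace E] [FiniteDimensional ℝ E] [BorelSpace E]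
  [(volume : Measure E).IsAddHaarMeasure]

section integral

variable {σ : Sl E ι} {τ : Sl E κ} {U : Set E} {θ : E → ℝ} {v₁ v₂ W f h s t ψ χ φ : E → ℝ}
  {p : α → ι → E → ℝ} {q : α → κ → E → ℝ}

/-- The inequality in `s` and `t`. -/
theorem kt_st (F : Fr σ τ p q U θ) (h₁ : Sm U v₁) (h₂ : Sm U v₂) (hW : Sm U W) (hs : Te U s)
    (ht : Te U t) (hψ : Sm U ψ) (hχ : Sm U χ) (hφ : Sm U φ) (hp : ∀ z ∈ U, ψ z ^ 2 = χ z * φ z)
    {ε η : ℝ} (hε : 0 < ε) (hη : 0 < η) :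
    (2 - ε) * (In U θ (fun z => ∑ a, ψ z ^ 2 * gg σ τ p q a s z ^ 2) +
        In U θ (fun z => kO σ τ p q W (fun z => ψ z ^ 2) z * s z ^ 2)) +
      (2 - ε) * In U θ (fun z => ∑ a, ψ z ^ 2 * Ks σ τ p q W a t z ^ 2) -
      η * In U θ (fun z => χ z ^ 2 * (σ.P v₁ W t z ^ 2 + τ.P v₂ W t z ^ 2)) -
      In U θ (fun z => kS σ τ p q ψ φ ε η z * s z ^ 2) -
      In U θ (fun z => kT σ τ p q v₁ v₂ W ψ ε z * t z ^ 2) ≤
      2 * In U θ (fun z => ψ z ^ 2 * ∑ a, (Ds σ τ p q W a s z + Ks σ τ p q W a t z) ^ 2) := by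
  have hU := F.ok.op
  have hψ2 : Sm U fun z => ψ z ^ 2 := hψ.pow 2
  have tD := fun a => t_Ds F hW hs a
  have tK := fun a => t_Ks F hW ht a
  have cr := cross F h₁ h₂ hW hs ht hψ2
  have sq := star_sq F hW hs hψ2
  have tDD : Te U fun z => ∑ a, ψ z ^ 2 * Ds σ τ p q W a s z ^ 2 :=
    Te.sum hU _ fun a _ => ((tD a).sq hU).mul_left hU hψ2
  have tKK : Te U fun z => ∑ a, ψ z ^ 2 * Ks σ τ p q W a t z ^ 2 :=
    Te.sum hU _ fun a _ => ((tK a).sq hU).mul_left hU hψ2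
  have tDK : Te U fun z => ∑ a, ψ z ^ 2 * (Ds σ τ p q W a s z * Ks σ τ p q W a t z) :=
    Te.sum hU _ fun a _ => ((tK a).mul_left hU (tD a).sm).mul_left hU hψ2
  have e0 : 2 * In U θ (fun z => ψ z ^ 2 * ∑ a, (Ds σ τ p q W a s z + Ks σ τ p q W a t z) ^ 2) =
      2 * In U θ (fun z => ∑ a, ψ z ^ 2 * Ds σ τ p q W a s z ^ 2) +
      2 * In U θ (fun z => ∑ a, ψ z ^ 2 * Ks σ τ p q W a t z ^ 2) +
      4 * In U θ (xr σ τ p q v₁ v₂ W (fun z => ψ z ^ 2) s t) := by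
    rw [← cr, ← In_cmul, ← In_cmul, ← In_cmul, ← In_cmul,
      ← In_add hU F.ok.ts (tDD.cmul hU 2) (tKK.cmul hU 2),
      ← In_add hU F.ok.ts ((tDD.cmul hU 2).add hU (tKK.cmul hU 2)) (tDK.cmul hU 4)]
    refine In_congr hU fun z _ => ?_
    simp only [Finset.mul_sum, ← Finset.sum_add_distrib]
    exact Finset.sum_congr rfl fun a _ => by ring
  have tS : Te U fun z => kS σ τ p q ψ φ ε η z * s z ^ 2 :=
    (hs.sq hU).mul_left hU (s_kS F hψ hφ ε η)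
  have tT : Te U fun z => kT σ τ p q v₁ v₂ W ψ ε z * t z ^ 2 :=
    (ht.sq hU).mul_left hU (s_kT F h₁ h₂ hW hψ ε)
  have tP : Te U fun z => χ z ^ 2 * (σ.P v₁ W t z ^ 2 + τ.P v₂ W t z ^ 2) :=
    ((((F.ok.tP h₁ hW ht).sq hU).add hU ((F.ot.tP h₂ hW ht).sq hU))).mul_left hU (hχ.pow 2)
  have tx := (t_xr F h₁ h₂ hW hs ht hψ2).cmul hU 4
  have key : In U θ (fun z => (-1) * (ε * ∑ a, ψ z ^ 2 * Ds σ τ p q W a s z ^ 2) -
      (ε * ∑ a, ψ z ^ 2 * Ks σ τ p q W a t z ^ 2) -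
      η * (χ z ^ 2 * (σ.P v₁ W t z ^ 2 + τ.P v₂ W t z ^ 2)) -
      kS σ τ p q ψ φ ε η z * s z ^ 2 - kT σ τ p q v₁ v₂ W ψ ε z * t z ^ 2) ≤
      In U θ (fun z => 4 * xr σ τ p q v₁ v₂ W (fun z => ψ z ^ 2) s t z) := by
    refine In_mono hU F.ok.tp F.ok.ts (((((((tDD.cmul hU ε).cmul hU (-1)).sub hU
      (tKK.cmul hU ε)).sub hU (tP.cmul hU η)).sub hU tS)).sub hU tT) tx fun z hz => ?_
    have q2 := pt2 hη (ψ z) (χ z) (φ z) (s z) (t z) (σ.P v₁ W t z) (τ.P v₂ W t z) (v₁ z - v₂ z)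
      (hp z hz)
    have q1 := Finset.sum_le_sum fun a (_ : a ∈ (Finset.univ : Finset α)) =>
      pt1 hε (ψ z) (gg σ τ p q a ψ z) (kn σ τ p q W a z) (gl σ τ p q a z) (s z) (t z)
        (Ds σ τ p q W a s z) (Ks σ τ p q W a t z) (kk σ τ p q W a z)
    have e1 : ∀ a, gg σ τ p q a (fun z => ψ z ^ 2) z = 2 * ψ z * gg σ τ p q a ψ z := by
      intro a
      have : gg σ τ p q a (fun z => ψ z ^ 2) z = gg σ τ p q a (fun z => ψ z * ψ z) z := by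
        simp only [pow_two]
      rw [this, gg_mul hU hψ hψ a hz]
      ring
    have e2 : xr σ τ p q v₁ v₂ W (fun z => ψ z ^ 2) s t z =
        ψ z ^ 2 * s z * (-(σ.P v₁ W t z - τ.P v₂ W t z) + (v₁ z - v₂ z) * t z) +
        ∑ a, (kn σ τ p q W a z * t z * (ψ z ^ 2 * Ds σ τ p q W a s z -
          2 * ψ z * gg σ τ p q a ψ z * s z) + (2 * ψ z * gg σ τ p q a ψ z +
          1 / 2 * gl σ τ p q a z * ψ z ^ 2) * s z * Ks σ τ p q W a t z -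
          ψ z ^ 2 * s z * t z * kk σ τ p q W a z) := by
      unfold xr kn kk
      simp only [e1]
    unfold kS kT
    have e3 : (-1) * (ε * ∑ a, ψ z ^ 2 * Ds σ τ p q W a s z ^ 2) -
        (ε * ∑ a, ψ z ^ 2 * Ks σ τ p q W a t z ^ 2) -
        η * (χ z ^ 2 * (σ.P v₁ W t z ^ 2 + τ.P v₂ W t z ^ 2)) -
        (8 / η * φ z ^ 2 + 2 * ψ z ^ 2 + ∑ a, (4 / ε * (2 * gg σ τ p q a ψ z +
          1 / 2 * gl σ τ p q a z * ψ z) ^ 2 + 4 * gg σ τ p q a ψ z ^ 2 + 2 * ψ z ^ 2)) * s z ^ 2 -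
        (2 * ψ z ^ 2 * (v₁ z - v₂ z) ^ 2 + ∑ a, ((4 / ε + 4) * (ψ z ^ 2 *
          kn σ τ p q W a z ^ 2) + 2 * (ψ z ^ 2 * kk σ τ p q W a z ^ 2))) * t z ^ 2 =
        (-(η * (χ z ^ 2 * (σ.P v₁ W t z ^ 2 + τ.P v₂ W t z ^ 2))) -
          (8 / η * φ z ^ 2 + 2 * ψ z ^ 2) * s z ^ 2 -
          2 * ψ z ^ 2 * (v₁ z - v₂ z) ^ 2 * t z ^ 2) +
        ∑ a, (-(ε * (ψ z ^ 2 * Ds σ τ p q W a s z ^ 2)) -
          ε * (ψ z ^ 2 * Ks σ τ p q W a t z ^ 2) -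
          (4 / ε * (2 * gg σ τ p q a ψ z + 1 / 2 * gl σ τ p q a z * ψ z) ^ 2 +
            4 * gg σ τ p q a ψ z ^ 2 + 2 * ψ z ^ 2) * s z ^ 2 -
          ((4 / ε + 4) * (ψ z ^ 2 * kn σ τ p q W a z ^ 2) +
            2 * (ψ z ^ 2 * kk σ τ p q W a z ^ 2)) * t z ^ 2) := by
      simp only [Finset.sum_sub_distrib, Finset.sum_neg_distrib, ← Finset.mul_sum,
        ← Finset.sum_mul]
      ring
    have q3 := add_le_add q2 q1
    rw [← Finset.mul_sum, ← mul_add, ← e2] at q3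
    exact le_trans (le_of_eq e3) q3
  rw [In_sub hU F.ok.ts ((((tDD.cmul hU ε).cmul hU (-1)).sub hU
      (tKK.cmul hU ε)).sub hU (tP.cmul hU η) |>.sub hU tS) tT,
    In_sub hU F.ok.ts (((((tDD.cmul hU ε).cmul hU (-1)).sub hU
      (tKK.cmul hU ε)).sub hU (tP.cmul hU η))) tS,
    In_sub hU F.ok.ts ((((tDD.cmul hU ε).cmul hU (-1)).sub hU
      (tKK.cmul hU ε))) (tP.cmul hU η),
    In_sub hU F.ok.ts ((tDD.cmul hU ε).cmul hU (-1)) (tKK.cmul hU ε), In_cmul, In_cmul, In_cmul,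
    In_cmul, In_cmul] at key
  rw [e0]
  have e5 : In U θ (fun z => kO σ τ p q W (fun z => ψ z ^ 2) z * s z ^ 2) =
      In U θ (fun z => (∑ a, (ψ z ^ 2 * gg σ τ p q a W z ^ 2 +
        gg σ τ p q a (fun z => ψ z ^ 2 * gg σ τ p q a W z) z +
        gl σ τ p q a z * (ψ z ^ 2 * gg σ τ p q a W z))) * s z ^ 2) := rfl
  rw [e5]
  rw [sq] at key ⊢
  linarith

/-- **The zero order trick.** -/
theorem kt (F : Fr σ τ p q U θ) (h₁ : Sm U v₁) (h₂ : Sm U v₂) (hW : Sm U W) (hf : Te U f)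
    (hh : Te U h) (hψ : Sm U ψ) (hχ : Sm U χ) (hφ : Sm U φ) (hp : ∀ z ∈ U, ψ z ^ 2 = χ z * φ z)
    {ε η : ℝ} (hε : 0 < ε) (hη : 0 < η) :
    (2 - ε) * (In U θ (fun z => ∑ a, ψ z ^ 2 * gg σ τ p q a (fun z => f z + h z) z ^ 2) +
        In U θ (fun z => kO σ τ p q W (fun z => ψ z ^ 2) z * (f z + h z) ^ 2)) +
      (2 - ε) * In U θ (fun z => ∑ a, ψ z ^ 2 * Ks σ τ p q W a (fun z => f z - h z) z ^ 2) -
      η * In U θ (fun z => χ z ^ 2 * (σ.P v₁ W (fun z => f z - h z) z ^ 2 +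
        τ.P v₂ W (fun z => f z - h z) z ^ 2)) -
      In U θ (fun z => kS σ τ p q ψ φ ε η z * (f z + h z) ^ 2) -
      In U θ (fun z => kT σ τ p q v₁ v₂ W ψ ε z * (f z - h z) ^ 2) ≤
      8 * In U θ (fun z => ψ z ^ 2 * ∑ a, (fX σ p W f a z - fX τ q W h a z) ^ 2) := by
  have hU := F.ok.op
  have e := kt_st F h₁ h₂ hW (hf.add hU hh) (hf.sub hU hh) hψ hχ hφ hp hε hη
  refine e.trans (le_of_eq ?_)
  have e8 : (8 : ℝ) * In U θ (fun z => ψ z ^ 2 * ∑ a, (fX σ p W f a z - fX τ q W h a z) ^ 2) =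
      2 * In U θ (fun z => 4 * (ψ z ^ 2 * ∑ a, (fX σ p W f a z - fX τ q W h a z) ^ 2)) := by
    rw [In_cmul]; ring
  rw [e8]
  congr 1
  refine In_congr hU fun z hz => ?_
  simp only [Finset.mul_sum]
  refine Finset.sum_congr rfl fun a _ => ?_
  have e1 : Ds σ τ p q W a (fun z => f z + h z) z + Ks σ τ p q W a (fun z => f z - h z) z =
      2 * (fX σ p W f a z - fX τ q W h a z) := by
    rw [fX_eq, fX_eq]
    unfold Ds Ks gg gs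
    rw [fD_add hU hf.sm hh.sm a hz, fD_add hU hf.sm hh.sm a hz, fD_sub hU hf.sm hh.sm a hz,
      fD_sub hU hf.sm hh.sm a hz]
    ring
  rw [e1]
  ring

end integral

end Vale.Agent.P088.R2.H814.B2
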