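import Vale.Agent.P088.R2.H814.B2.KT3
import Vale.Agent.P088.R2.H86.Z.Abs

/-!
# The input (kt) of helper86's `zoneII`

From `kt` with `ψ = χ ζ`, `φ = χ ζ²`, `ζ² = L g`, under pointwise hypotheses.
-/

open MeasureTheory Set Filter
open scoped ContDiff Topology

noncomputable section

namespace Vale.Agent.P088.R2.H814.B2

open Vale.Agent.P088.R2.H961.GW Vale.Agent.P088.R2.H644 Vale.Agent.P088.R2.H960.W
  Vale.Agent.P088.R2.H551.E Vale.Agent.P088.R2.H86.Z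

variable {E ι κ α : Type*} [NormedAddCommGroup E] [NormedSpace ℝ E] [Fintype ι] [Fintype κ]
  [Fintype α]

/-- The pointwise hypotheses where `χ ≠ 0`. -/
structure KP (σ : Sl E ι) (τ : Sl E κ) (p : α → ι → E → ℝ) (q : α → κ → E → ℝ)
    (v₁ v₂ W ζ k e : E → ℝ) (η' η : ℝ) (z : E) : Prop where
  /-- the gain -/
  gain : 2 * e z ≤ ∑ a, (ζ z ^ 2 * gg σ τ p q a W z ^ 2 +
    gg σ τ p q a (fun z => ζ z ^ 2 * gg σ τ p q a W z) z +
    gl σ τ p q a z * (ζ z ^ 2 * gg σ τ p q a W z))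
  /-- the loss in `(a + b)²` -/
  ls : 8 / η' * ζ z ^ 4 + 2 * ζ z ^ 2 + ∑ a, (8 * (2 * gg σ τ p q a ζ z +
    1 / 2 * gl σ τ p q a z * ζ z) ^ 2 + 8 * gg σ τ p q a ζ z ^ 2 + 2 * ζ z ^ 2) ≤ 1 / 4 * e z
  /-- the loss in `(a - b)²` -/
  lt1 : 2 * ζ z ^ 2 * (v₁ z - v₂ z) ^ 2 + ∑ a, (8 * (ζ z ^ 2 * kn σ τ p q W a z ^ 2) +
    2 * (ζ z ^ 2 * kk σ τ p q W a z ^ 2)) ≤ η / 2 * (k z * σ.F W z)
  lt2 : 2 * ζ z ^ 2 * (v₁ z - v₂ z) ^ 2 + ∑ a, (8 * (ζ z ^ 2 * kn σ τ p q W a z ^ 2) +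
    2 * (ζ z ^ 2 * kk σ τ p q W a z ^ 2)) ≤ η / 2 * (k z * τ.F W z)

/-- The pointwise hypotheses with derivatives of `χ`. -/
structure KZ (σ : Sl E ι) (τ : Sl E κ) (p : α → ι → E → ℝ) (q : α → κ → E → ℝ)
    (W χ ζ e Z : E → ℝ) (z : E) : Prop where
  z1 : |2 * χ z * ∑ a, gg σ τ p q a χ z * (ζ z ^ 2 * gg σ τ p q a W z)| ≤ 1 / 4 * (Z z * e z)
  z2 : 40 * ∑ a, ζ z ^ 2 * gg σ τ p q a χ z ^ 2 ≤ 1 / 4 * (Z z * e z)

section pw

variable {σ : Sl E ι} {τ : Sl E κ} {U : Set E} {θ : E → ℝ} {v v₁ v₂ W f g h s t ζ χ k e Z : E → ℝ}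
  {z : E} {p : α → ι → E → ℝ} {q : α → κ → E → ℝ} {η' η : ℝ}

theorem P_sub' (ok : σ.Ok U θ) (v : E → ℝ) (hf : Sm U f) (hh : Sm U h) (hz : z ∈ U) :
    σ.P v W (fun z => f z - h z) z = σ.P v W f z - σ.P v W h z := by
  unfold Sl.P Sl.K
  rw [L_sub ok hf hh hz, G_sub ok W hf hh hz]
  ring

omit [Fintype α] in
theorem gg_sq (hU : IsOpen U) (hf : Sm U f) (a : α) (hz : z ∈ U) :
    gg σ τ p q a (fun z => f z ^ 2) z = 2 * f z * gg σ τ p q a f z := by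
  have : gg σ τ p q a (fun z => f z ^ 2) z = gg σ τ p q a (fun z => f z * f z) z := by
    simp only [pow_two]
  rw [this, gg_mul hU hf hf a hz]
  ring

theorem kO_eq (F : Fr σ τ p q U θ) (hW : Sm U W) (hχ : Sm U χ) (hζ : Sm U ζ) (hz : z ∈ U) :
    kO σ τ p q W (fun z => (χ z * ζ z) ^ 2) z =
      χ z ^ 2 * (∑ a, (ζ z ^ 2 * gg σ τ p q a W z ^ 2 +
        gg σ τ p q a (fun z => ζ z ^ 2 * gg σ τ p q a W z) z +
        gl σ τ p q a z * (ζ z ^ 2 * gg σ τ p q a W z))) +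
      2 * χ z * ∑ a, gg σ τ p q a χ z * (ζ z ^ 2 * gg σ τ p q a W z) := by
  have hU := F.ok.op
  unfold kO
  rw [Finset.mul_sum, Finset.mul_sum, ← Finset.sum_add_distrib]
  refine Finset.sum_congr rfl fun a _ => ?_
  have sO := s_gg F hW (τ := τ) a
  have e1 : gg σ τ p q a (fun z => (χ z * ζ z) ^ 2 * gg σ τ p q a W z) z =
      gg σ τ p q a (fun z => χ z ^ 2 * (ζ z ^ 2 * gg σ τ p q a W z)) z := by
    congr 1; funext z; ring
  rw [e1, gg_mul hU (hχ.pow 2) ((hζ.pow 2).mul sO) a hz, gg_sq hU hχ a hz]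
  ring

theorem kS_le (F : Fr σ τ p q U θ) (hχ : Sm U χ) (hζ : Sm U ζ) (η' : ℝ) (hz : z ∈ U) :
    kS σ τ p q (fun z => χ z * ζ z) (fun z => χ z * ζ z ^ 2) 1 η' z ≤
      χ z ^ 2 * (8 / η' * ζ z ^ 4 + 2 * ζ z ^ 2 + ∑ a, (8 * (2 * gg σ τ p q a ζ z +
        1 / 2 * gl σ τ p q a z * ζ z) ^ 2 + 8 * gg σ τ p q a ζ z ^ 2 + 2 * ζ z ^ 2)) +
      40 * ∑ a, ζ z ^ 2 * gg σ τ p q a χ z ^ 2 := by
  have hU := F.ok.op
  have key : ∑ a, (4 / 1 * (2 * gg σ τ p q a (fun z => χ z * ζ z) z +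
      1 / 2 * gl σ τ p q a z * (χ z * ζ z)) ^ 2 + 4 * gg σ τ p q a (fun z => χ z * ζ z) z ^ 2 +
      2 * (χ z * ζ z) ^ 2) ≤ ∑ a, (χ z ^ 2 * (8 * (2 * gg σ τ p q a ζ z +
        1 / 2 * gl σ τ p q a z * ζ z) ^ 2 + 8 * gg σ τ p q a ζ z ^ 2 + 2 * ζ z ^ 2) +
        40 * (ζ z ^ 2 * gg σ τ p q a χ z ^ 2)) := by
    refine Finset.sum_le_sum fun a _ => ?_
    rw [gg_mul hU hχ hζ a hz]
    have h1 := sq_nonneg (2 * (gg σ τ p q a χ z * ζ z) - χ z * (2 * gg σ τ p q a ζ z +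
        1 / 2 * gl σ τ p q a z * ζ z))
    have h2 := sq_nonneg (gg σ τ p q a χ z * ζ z - χ z * gg σ τ p q a ζ z)
    nlinarith [h1, h2]
  have key2 : ∑ a, (χ z ^ 2 * (8 * (2 * gg σ τ p q a ζ z +
        1 / 2 * gl σ τ p q a z * ζ z) ^ 2 + 8 * gg σ τ p q a ζ z ^ 2 + 2 * ζ z ^ 2) +
        40 * (ζ z ^ 2 * gg σ τ p q a χ z ^ 2)) = χ z ^ 2 * (∑ a, (8 * (2 * gg σ τ p q a ζ z +
        1 / 2 * gl σ τ p q a z * ζ z) ^ 2 + 8 * gg σ τ p q a ζ z ^ 2 + 2 * ζ z ^ 2)) +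
        40 * ∑ a, ζ z ^ 2 * gg σ τ p q a χ z ^ 2 := by
    rw [Finset.sum_add_distrib, ← Finset.mul_sum, ← Finset.mul_sum]
  rw [key2] at key
  unfold kS
  have e1 : 8 / η' * (χ z * ζ z ^ 2) ^ 2 + 2 * (χ z * ζ z) ^ 2 =
      χ z ^ 2 * (8 / η' * ζ z ^ 4 + 2 * ζ z ^ 2) := by ring
  linarith

theorem kT_eq (v₁ v₂ W : E → ℝ) (z : E) :
    kT σ τ p q v₁ v₂ W (fun z => χ z * ζ z) 1 z =
      χ z ^ 2 * (2 * ζ z ^ 2 * (v₁ z - v₂ z) ^ 2 + ∑ a, (8 * (ζ z ^ 2 * kn σ τ p q W a z ^ 2) +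
    2 * (ζ z ^ 2 * kk σ τ p q W a z ^ 2))) := by
  unfold kT
  rw [mul_add, Finset.mul_sum]
  congr 1
  · ring
  · refine Finset.sum_congr rfl fun a _ => ?_
    ring

end pw

variable [MeasureSpace E] [FiniteDimensional ℝ E] [BorelSpace E]
  [(volume : Measure E).IsAddHaarMeasure]

section integral

variable {σ : Sl E ι} {τ : Sl E κ} {U : Set E} {θ : E → ℝ}
  {v₁ v₂ W a b ζ χ k g e Z : E → ℝ} {p : α → ι → E → ℝ} {q : α → κ → E → ℝ} {η' η L : ℝ}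

/-- **The input (kt) of `zoneII`** with `C₂ = 8 L`, `δ = 2 η'`. -/
theorem ktII (F : Fr σ τ p q U θ) (h₁ : Sm U v₁) (h₂ : Sm U v₂)
    (el₁ : ∀ z ∈ U, El σ z) (el₂ : ∀ z ∈ U, El τ z) (hW : Sm U W)
    (hχ : Sm U χ) (hζ : Sm U ζ) (hk : Sm U k) (hg : Sm U g) (he : Sm U e) (hZ : Sm U Z)
    (ha : Te U a) (hb : Te U b) (hk0 : ∀ z ∈ U, 0 ≤ k z) (hg0 : ∀ z ∈ U, 0 ≤ g z)
    (he0 : ∀ z ∈ U, 0 ≤ e z) (hZ0 : ∀ z ∈ U, 0 ≤ Z z)
    (hL : ∀ z ∈ U, ζ z ^ 2 = L * g z) (hη' : 0 < η') (hη : 0 ≤ η)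
    (hp : ∀ z ∈ U, χ z ≠ 0 → KP σ τ p q v₁ v₂ W ζ k e η' η z)
    (hz' : ∀ z ∈ U, KZ σ τ p q W χ ζ e Z z) :
    In U θ (fun z => χ z ^ 2 * (e z * (a z + b z) ^ 2)) ≤
      8 * L * In U θ (fun z => χ z ^ 2 * (g z * wq p q z (Ch.XX σ W a z) (Ch.XX τ W b z))) +
      2 * η' * In U θ (fun z => χ z ^ 2 * sqd σ τ v₁ v₂ W a b z) +
      η * (In U θ (fun z => χ z ^ 2 * (k z * σ.F W z * a z ^ 2)) +
        In U θ (fun z => χ z ^ 2 * (k z * τ.F W z * b z ^ 2))) +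
      In U θ (fun z => Z z * ud σ τ W g e p q a b z) := by
  have hU := F.ok.op
  have ok := F.ok
  have ot := F.ot
  have hχ2 : Sm U fun z => χ z ^ 2 := hχ.pow 2
  have hζ2 : Sm U fun z => ζ z ^ 2 := hζ.pow 2
  have key := kt F h₁ h₂ hW ha hb (hχ.mul hζ) hχ (hχ.mul hζ2)
    (fun z _ => by ring) (ε := 1) (η := η') one_pos hη'
  have sab := ha.add hU hb
  have dab := ha.sub hU hb
  -- the test functions
  have tE : Te U fun z => χ z ^ 2 * (e z * (a z + b z) ^ 2) :=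
    ((sab.sq hU).mul_left hU he).mul_left hU hχ2
  have tQ : Te U fun z => χ z ^ 2 * (g z * wq p q z (Ch.XX σ W a z) (Ch.XX τ W b z)) :=
    ((twq ok ot F.hp F.hq hW ha hb).mul_left hU hg).mul_left hU hχ2
  have tsq := (tsqd ok ot h₁ h₂ hW ha hb).mul_left hU hχ2
  have tF1 : Te U fun z => χ z ^ 2 * (k z * σ.F W z * a z ^ 2) :=
    ((ha.sq hU).mul_left hU (hk.mul (ok.sF hW))).mul_left hU hχ2
  have tF2 : Te U fun z => χ z ^ 2 * (k z * τ.F W z * b z ^ 2) :=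
    ((hb.sq hU).mul_left hU (hk.mul (ot.sF hW))).mul_left hU hχ2
  have tud' := (tud ok ot F.hp F.hq hg he hW ha hb).mul_left hU hZ
  have tO : Te U fun z => kO σ τ p q W (fun z => (χ z * ζ z) ^ 2) z * (a z + b z) ^ 2 :=
    (sab.sq hU).mul_left hU (s_kO F hW ((hχ.mul hζ).pow 2))
  have tS : Te U fun z => kS σ τ p q (fun z => χ z * ζ z) (fun z => χ z * ζ z ^ 2) 1 η' z *
      (a z + b z) ^ 2 := (sab.sq hU).mul_left hU (s_kS F (hχ.mul hζ) (hχ.mul hζ2) 1 η')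
  have tT : Te U fun z => kT σ τ p q v₁ v₂ W (fun z => χ z * ζ z) 1 z * (a z - b z) ^ 2 :=
    (dab.sq hU).mul_left hU (s_kT F h₁ h₂ hW (hχ.mul hζ) 1)
  have tPP : Te U fun z => χ z ^ 2 * (σ.P v₁ W (fun z => a z - b z) z ^ 2 +
      τ.P v₂ W (fun z => a z - b z) z ^ 2) :=
    (((ok.tP h₁ hW dab).sq hU).add hU ((ot.tP h₂ hW dab).sq hU)).mul_left hU hχ2
  -- the unit density
  have uZ : ∀ z ∈ U, e z * (a z + b z) ^ 2 ≤ ud σ τ W g e p q a b z := by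
    intro z hz
    have h1 := mul_nonneg (hg0 z hz) (wq_nonneg p q z (Ch.XX σ W a z) (Ch.XX τ W b z))
    have h2 : 0 ≤ (∑ i, Ch.XX σ W a z i ^ 2) + ∑ i, Ch.XX τ W b z i ^ 2 :=
      add_nonneg (Finset.sum_nonneg fun _ _ => sq_nonneg _)
        (Finset.sum_nonneg fun _ _ => sq_nonneg _)
    have h3 := mul_nonneg ((el₁ z hz).F0 W) (sq_nonneg (a z))
    have h4 := mul_nonneg ((el₂ z hz).F0 W) (sq_nonneg (b z))
    unfold ud Vale.Agent.P088.R2.H86.Z.uf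
    linarith
  -- the comparisons
  have c1 : 7 / 4 * In U θ (fun z => χ z ^ 2 * (e z * (a z + b z) ^ 2)) -
      1 / 2 * In U θ (fun z => Z z * ud σ τ W g e p q a b z) ≤
      In U θ (fun z => kO σ τ p q W (fun z => (χ z * ζ z) ^ 2) z * (a z + b z) ^ 2) -
      In U θ (fun z => kS σ τ p q (fun z => χ z * ζ z) (fun z => χ z * ζ z ^ 2) 1 η' z *
        (a z + b z) ^ 2) := by
    rw [← In_cmul, ← In_cmul, ← In_sub hU ok.ts (tE.cmul hU _) (tud'.cmul hU _),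
      ← In_sub hU ok.ts tO tS]
    refine In_mono hU ok.tp ok.ts ((tE.cmul hU _).sub hU (tud'.cmul hU _)) (tO.sub hU tS)
      fun z hz => ?_
    have hk1 := kO_eq F hW hχ hζ hz
    have hk2 := kS_le F hχ hζ η' hz
    obtain ⟨z1, z2⟩ := hz' z hz
    have h1 := (abs_le.1 z1).1
    have hu := mul_le_mul_of_nonneg_left (uZ z hz) (hZ0 z hz)
    have s0 := sq_nonneg (a z + b z)
    have main : 7 / 4 * (χ z ^ 2 * e z) - 1 / 2 * (Z z * e z) ≤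
        kO σ τ p q W (fun z => (χ z * ζ z) ^ 2) z -
        kS σ τ p q (fun z => χ z * ζ z) (fun z => χ z * ζ z ^ 2) 1 η' z := by
      by_cases hχz : χ z = 0
      · rw [hk1]
        rw [hχz] at hk2 h1 ⊢
        nlinarith
      · have hP := hp z hz hχz
        have g1 := mul_le_mul_of_nonneg_left hP.gain (sq_nonneg (χ z))
        have g2 := mul_le_mul_of_nonneg_left hP.ls (sq_nonneg (χ z))
        rw [hk1]
        linarith
    have m2 := mul_le_mul_of_nonneg_right main s0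
    nlinarith [m2, hu]
  have c2 : In U θ (fun z => kT σ τ p q v₁ v₂ W (fun z => χ z * ζ z) 1 z * (a z - b z) ^ 2) ≤
      η * (In U θ (fun z => χ z ^ 2 * (k z * σ.F W z * a z ^ 2)) +
        In U θ (fun z => χ z ^ 2 * (k z * τ.F W z * b z ^ 2))) := by
    rw [← In_add hU ok.ts tF1 tF2, ← In_cmul]
    refine In_mono hU ok.tp ok.ts tT ((tF1.add hU tF2).cmul hU η) fun z hz => ?_
    rw [kT_eq]
    by_cases hχz : χ z = 0
    · rw [hχz]; simp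
    · have hP := hp z hz hχz
      set K := 2 * ζ z ^ 2 * (v₁ z - v₂ z) ^ 2 + ∑ a, (8 * (ζ z ^ 2 * kn σ τ p q W a z ^ 2) +
        2 * (ζ z ^ 2 * kk σ τ p q W a z ^ 2)) with hK
      have hK0 : 0 ≤ K := by
        refine add_nonneg (by positivity) (Finset.sum_nonneg fun i _ => by positivity)
      have h1 := mul_le_mul_of_nonneg_right hP.lt1 (sq_nonneg (a z))
      have h2 := mul_le_mul_of_nonneg_right hP.lt2 (sq_nonneg (b z))
      have h3 : K * (a z - b z) ^ 2 ≤ 2 * (K * a z ^ 2) + 2 * (K * b z ^ 2) := by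
        nlinarith [mul_nonneg hK0 (sq_nonneg (a z + b z))]
      have h4 : K * (a z - b z) ^ 2 ≤ η * (k z * σ.F W z * a z ^ 2 + k z * τ.F W z * b z ^ 2) := by
        linarith
      have h5 := mul_le_mul_of_nonneg_left h4 (sq_nonneg (χ z))
      linarith
  have c3 : In U θ (fun z => χ z ^ 2 * (σ.P v₁ W (fun z => a z - b z) z ^ 2 +
      τ.P v₂ W (fun z => a z - b z) z ^ 2)) ≤
      2 * In U θ (fun z => χ z ^ 2 * sqd σ τ v₁ v₂ W a b z) := by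
    rw [← In_cmul]
    refine In_mono hU ok.tp ok.ts tPP (tsq.cmul hU 2) fun z hz => ?_
    rw [P_sub' ok v₁ ha.sm hb.sm hz, P_sub' ot v₂ ha.sm hb.sm hz]
    have h1 := sq_nonneg (σ.P v₁ W a z + σ.P v₁ W b z)
    have h2 := sq_nonneg (τ.P v₂ W a z + τ.P v₂ W b z)
    have h3 := mul_nonneg (sq_nonneg (χ z)) h1
    have h4 := mul_nonneg (sq_nonneg (χ z)) h2
    unfold sqd
    nlinarith
  have c4 : In U θ (fun z => (χ z * ζ z) ^ 2 * ∑ r, (fX σ p W a r z - fX τ q W b r z) ^ 2) =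
      L * In U θ (fun z => χ z ^ 2 * (g z * wq p q z (Ch.XX σ W a z) (Ch.XX τ W b z))) := by
    rw [← In_cmul]
    refine In_congr hU fun z hz => ?_
    have e1 : wq p q z (Ch.XX σ W a z) (Ch.XX τ W b z) =
        ∑ r, (fX σ p W a r z - fX τ q W b r z) ^ 2 := rfl
    rw [e1, mul_pow, hL z hz]
    ring
  have n1 : 0 ≤ In U θ (fun z => ∑ r, (χ z * ζ z) ^ 2 *
      gg σ τ p q r (fun z => a z + b z) z ^ 2) :=
    In_nonneg hU ok.tp fun z _ => Finset.sum_nonneg fun _ _ => by positivity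
  have n2 : 0 ≤ In U θ (fun z => ∑ r, (χ z * ζ z) ^ 2 *
      Ks σ τ p q W r (fun z => a z - b z) z ^ 2) :=
    In_nonneg hU ok.tp fun z _ => Finset.sum_nonneg fun _ _ => by positivity
  have n3 : 0 ≤ In U θ (fun z => χ z ^ 2 * (e z * (a z + b z) ^ 2)) :=
    In_nonneg hU ok.tp fun z hz => mul_nonneg (sq_nonneg _)
      (mul_nonneg (he0 z hz) (sq_nonneg _))
  have n4 : 0 ≤ In U θ (fun z => Z z * ud σ τ W g e p q a b z) :=
    In_nonneg hU ok.tp fun z hz => mul_nonneg (hZ0 z hz)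
      ((mul_nonneg (he0 z hz) (sq_nonneg _)).trans (uZ z hz))
  rw [c4] at key
  have c5 := mul_le_mul_of_nonneg_left c3 hη'.le
  linarith

end integral

end Vale.Agent.P088.R2.H814.B2
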