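import Vale.Agent.P088.R2.H814.B2.Tot
import Vale.Agent.P088.R2.H814.B2.KT4

/-!
# The pointwise hypotheses of `ktII` from the bounds of the weight and of the frames
-/

open Set Filter
open scoped ContDiff Topology

noncomputable section

namespace Vale.Agent.P088.R2.H814.An

open Vale.Agent.P088.R2.H961.GW Vale.Agent.P088.R2.H960.W Vale.Agent.P088.R2.H644
  Vale.Agent.P088.R2.H86.Z Vale.Agent.P088.R2.H814.B2

variable {E ι β α : Type*} [NormedAddCommGroup E] [NormedSpace ℝ E] [Fintype ι] [Fintype β]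
variable {P : ι → E} {Q : ι ⊕ ι → E} {σ τ : α → Sl E ι} {U : α → Set E} {θ : α → E → ℝ}
  {r e N : α → E → ℝ} {W : α → E → ℝ} {p q : α → β → ι → E → ℝ} {k j : ℕ} {f : α → E → ℝ}

/-- The frames with the data of slots. -/
theorem Wf.fr (h : Wb P Q σ τ U θ r e N W) (w : Wf P Q σ τ U r p q) (a : α) :
    Fr (σ a) (τ a) (p a) (q a) (U a) (θ a) where
  ok := h.ok a
  ot := h.ot a
  cm := h.cm a
  hp b i := (w.ap b i).sm a
  hq b i := (w.aq b i).sm a
  hp0 z hz b i k := w.p0 a z hz b i k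
  hq0 z hz b k i := w.q0 a z hz b k i
  fp z hz i j := w.fp a z hz i j
  fq z hz i j := w.fq a z hz i j

namespace Wb

omit [Fintype β] in
theorem fd1 (h : Wb P Q σ τ U θ r e N W) (ap : ∀ b i, An P Q U r (fun _ _ => 1) 2 0 fun a => p a b i)
    (hf : ∀ i, Mx P Q U r e N k j fun a => (σ a).D i (f a)) (hk : k ≤ 2) (b : β) :
    Mx P Q U r e N k j fun a => fD (σ a) (p a) b (f a) :=
  Mx.sum h.sz Finset.univ fun i _ => by
    have := Mx.mul h.sz ((ap b i).mono_k hk) (hf i)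
    rwa [zero_add] at this

omit [Fintype β] in
theorem fd2 (h : Wb P Q σ τ U θ r e N W) (aq : ∀ b i, An P Q U r (fun _ _ => 1) 2 0 fun a => q a b i)
    (hf : ∀ i, Mx P Q U r e N k j fun a => (τ a).D i (f a)) (hk : k ≤ 2) (b : β) :
    Mx P Q U r e N k j fun a => fD (τ a) (q a) b (f a) :=
  Mx.sum h.sz Finset.univ fun i _ => by
    have := Mx.mul h.sz ((aq b i).mono_k hk) (hf i)
    rwa [zero_add] at this

theorem gW (h : Wb P Q σ τ U θ r e N W) (w : Wf P Q σ τ U r p q) (b : β) :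
    Mx P Q U r e N 2 1 fun a z => gg (σ a) (τ a) (p a) (q a) b (W a) z :=
  (h.fd1 w.ap (fun i => (h.w1 i).mono_k (by norm_num)) le_rfl b).sub h.sz
    (h.fd2 w.aq (fun i => (h.w2 i).mono_k (by norm_num)) le_rfl b)

theorem ggW (h : Wb P Q σ τ U θ r e N W) (w : Wf P Q σ τ U r p q) (b b' : β) :
    OO U e fun a z => gg (σ a) (τ a) (p a) (q a) b (fun z => gg (σ a) (τ a) (p a) (q a) b' (W a) z) z :=
  h.o_e ((h.fd1 w.ap (fun i => h.x1 (h.gW w b') i) one_le_two b).sub h.sz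
    (h.fd2 w.aq (fun i => h.x2 (h.gW w b') i) one_le_two b))

theorem sW (h : Wb P Q σ τ U θ r e N W) (w : Wf P Q σ τ U r p q) (b : β) :
    Mx P Q U r e N 1 2 fun a z => gs (σ a) (τ a) (p a) (q a) b (W a) z := by
  have h1 : ∀ i, Mx P Q U r e N 1 2 fun a z => p a b i z * dd (P i) (W a) z := fun i => by
    have := Mx.mul h.sz ((w.ap b i).mono_k one_le_two) ((h.Wp i).mono_k (by norm_num : 1 ≤ 3))
    rwa [zero_add] at this
  have h2 : ∀ i, Mx P Q U r e N 1 2 fun a z => (p a b i z - q a b i z) * (τ a).D i (W a) z :=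
    fun i => Mx.mul h.sz (w.ad b i) ((h.w2 i).mono_k (by norm_num : 1 ≤ 3))
  refine (Mx.sum h.sz Finset.univ fun i _ => (h1 i).sub h.sz (h2 i)).congr fun a z hz => ?_
  unfold gs fD
  rw [← Finset.sum_add_distrib]
  refine Finset.sum_congr rfl fun i _ => ?_
  rw [h.Dp a i]
  ring

theorem fl1 (h : Wb P Q σ τ U θ r e N W) (w : Wf P Q σ τ U r p q) (b : β) :
    An P Q U r (fun _ _ => 1) 1 0 fun a z => fl (σ a) (p a) b z :=
  (An.sum h.sz.B Finset.univ fun i _ => (w.ap b i).2.2 (Sum.inl i)).congr h.sz.B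
    fun a z _ => by
      unfold fl
      refine Finset.sum_congr rfl fun i _ => ?_
      rw [h.D1, h.k1, zero_mul, add_zero]

theorem fl2 (h : Wb P Q σ τ U θ r e N W) (w : Wf P Q σ τ U r p q) (b : β) :
    An P Q U r (fun _ _ => 1) 1 0 fun a z => fl (τ a) (q a) b z :=
  (An.sum h.sz.B Finset.univ fun i _ => (w.aq b i).2.2 (Sum.inr i)).congr h.sz.B
    fun a z _ => by
      unfold fl
      refine Finset.sum_congr rfl fun i _ => ?_
      rw [h.D2, h.k2, zero_mul, add_zero]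

theorem one0 : ∀ a : α, ∀ z ∈ U a, (0 : ℝ) ≤ (fun (_ : α) (_ : E) => (1 : ℝ)) a z :=
  fun _ _ _ => zero_le_one

theorem gl0 (h : Wb P Q σ τ U θ r e N W) (w : Wf P Q σ τ U r p q) (b : β) :
    OO U o1 fun a z => gl (σ a) (τ a) (p a) (q a) b z :=
  h.o_1 ((h.fl1 w b).sub h.sz.B one0 (h.fl2 w b))

theorem gr0 (h : Wb P Q σ τ U θ r e N W) (w : Wf P Q σ τ U r p q) (b : β) :
    An P Q U r (fun _ _ => 1) 1 0 fun a z => gr (σ a) (τ a) (p a) (q a) b z :=
  ((h.fl1 w b).add h.sz.B (h.fl2 w b)).cmul h.sz.B one0 (1 / 2)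

theorem ggr (h : Wb P Q σ τ U θ r e N W) (w : Wf P Q σ τ U r p q) (b b' : β) :
    OO U o1 fun a z => gg (σ a) (τ a) (p a) (q a) b (gr (σ a) (τ a) (p a) (q a) b') z := by
  have h1 : ∀ i, OO U o1 fun a z => p a b i z * (σ a).D i (gr (σ a) (τ a) (p a) (q a) b') z :=
    fun i => ((h.o_1 (w.ap b i)).mul (h.o_1 (((h.gr0 w b').2.2 (Sum.inl i)).congr h.sz.B
      (f' := fun a => (σ a).D i (gr (σ a) (τ a) (p a) (q a) b')) fun a z _ => by
        rw [h.D1]))).gcongr fun a z _ => by simp [o1]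
  have h2 : ∀ i, OO U o1 fun a z => q a b i z * (τ a).D i (gr (σ a) (τ a) (p a) (q a) b') z :=
    fun i => ((h.o_1 (w.aq b i)).mul (h.o_1 (((h.gr0 w b').2.2 (Sum.inr i)).congr h.sz.B
      (f' := fun a => (τ a).D i (gr (σ a) (τ a) (p a) (q a) b')) fun a z _ => by
        rw [h.D2]))).gcongr fun a z _ => by simp [o1]
  exact (OO.fsum h1).sub (OO.fsum h2)

/-- `gg_b W = 2 p_b·D W + O(e r² + N)`. -/
theorem gd (h : Wb P Q σ τ U θ r e N W) (w : Wf P Q σ τ U r p q) (b : β) :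
    OO U (eq2 r e N) fun a z => gg (σ a) (τ a) (p a) (q a) b (W a) z -
      2 * fD (σ a) (p a) b (W a) z := by
  have h1 := (h.o_eq (h.sW w b)).neg
  refine h1.congr fun a z _ => ?_
  unfold gg gs
  ring

end Wb

end Vale.Agent.P088.R2.H814.An
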