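import Vale.Agent.P088.R2.H814.B2.Kp

/-!
# The pointwise hypotheses of `ktII`: the numbers
-/

open Set Filter
open scoped ContDiff Topology

noncomputable section

namespace Vale.Agent.P088.R2.H814.An

open Vale.Agent.P088.R2.H961.GW Vale.Agent.P088.R2.H960.W Vale.Agent.P088.R2.H644
  Vale.Agent.P088.R2.H86.Z Vale.Agent.P088.R2.H814.B2

variable {E ι β α : Type*} [NormedAddCommGroup E] [NormedSpace ℝ E] [Fintype ι] [Fintype β]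
variable {P : ι → E} {Q : ι ⊕ ι → E} {σ τ : α → Sl E ι} {U : α → Set E} {θ : α → E → ℝ}
  {r e N : α → E → ℝ} {W : α → E → ℝ} {p q : α → β → ι → E → ℝ} {k j : ℕ} {f : α → E → ℝ}

/-- The function `ζ` of the zero order trick at a point. -/
structure Ze (σ τ : Sl E ι) (U : Set E) (ζ : E → ℝ) (r lam A : ℝ) (z : E) : Prop where
  hζ : Sm U ζ
  A0 : 0 ≤ A
  e : ζ z ^ 2 * r ^ 2 = lam
  d1 : ∀ i, (r ^ 2 * σ.D i ζ z) ^ 2 ≤ A ^ 2 * lam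
  d2 : ∀ i, (r ^ 2 * τ.D i ζ z) ^ 2 ≤ A ^ 2 * lam

theorem Ze.l0 {σ τ : Sl E ι} {U : Set E} {ζ : E → ℝ} {r lam A : ℝ} {z : E}
    (h : Ze σ τ U ζ r lam A z) : 0 ≤ lam := h.e ▸ by positivity

/-- `r² gg ζ`. -/
theorem Ze.gg {σ τ : Sl E ι} {U : Set E} {ζ : E → ℝ} {r lam A C : ℝ} {z : E}
    {p q : β → ι → E → ℝ} (h : Ze σ τ U ζ r lam A z) (hC : 0 ≤ C) (hp : ∀ b i, |p b i z| ≤ C)
    (hq : ∀ b i, |q b i z| ≤ C) (b : β) :
    |r ^ 2 * B2.gg σ τ p q b ζ z| ≤ 2 * (Fintype.card ι * C) * (A * √lam) := by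
  have l0 := h.l0
  have s1 : ∀ i, |r ^ 2 * σ.D i ζ z| ≤ A * √lam := fun i => by
    refine abs_le_of_sq_le_sq ?_ (mul_nonneg h.A0 (Real.sqrt_nonneg _))
    rw [mul_pow A, Real.sq_sqrt l0]
    exact h.d1 i
  have s2 : ∀ i, |r ^ 2 * τ.D i ζ z| ≤ A * √lam := fun i => by
    refine abs_le_of_sq_le_sq ?_ (mul_nonneg h.A0 (Real.sqrt_nonneg _))
    rw [mul_pow A, Real.sq_sqrt l0]
    exact h.d2 i
  have e1 : r ^ 2 * B2.gg σ τ p q b ζ z = (∑ i, p b i z * (r ^ 2 * σ.D i ζ z)) -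
      ∑ i, q b i z * (r ^ 2 * τ.D i ζ z) := by
    unfold B2.gg fD
    rw [mul_sub, Finset.mul_sum, Finset.mul_sum]
    congr 1 <;> exact Finset.sum_congr rfl fun i _ => by ring
  have hs : 0 ≤ A * √lam := mul_nonneg h.A0 (Real.sqrt_nonneg _)
  have t1 : |∑ i, p b i z * (r ^ 2 * σ.D i ζ z)| ≤ Fintype.card ι * (C * (A * √lam)) := by
    refine (Finset.abs_sum_le_sum_abs _ _).trans ?_
    have : ∀ i, |p b i z * (r ^ 2 * σ.D i ζ z)| ≤ C * (A * √lam) := fun i => by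
      rw [abs_mul]
      exact mul_le_mul (hp b i) (s1 i) (abs_nonneg _) hC
    refine (Finset.sum_le_sum fun i _ => this i).trans (le_of_eq ?_)
    rw [Finset.sum_const, Finset.card_univ, nsmul_eq_mul]
  have t2 : |∑ i, q b i z * (r ^ 2 * τ.D i ζ z)| ≤ Fintype.card ι * (C * (A * √lam)) := by
    refine (Finset.abs_sum_le_sum_abs _ _).trans ?_
    have : ∀ i, |q b i z * (r ^ 2 * τ.D i ζ z)| ≤ C * (A * √lam) := fun i => by
      rw [abs_mul]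
      exact mul_le_mul (hq b i) (s2 i) (abs_nonneg _) hC
    refine (Finset.sum_le_sum fun i _ => this i).trans (le_of_eq ?_)
    rw [Finset.sum_const, Finset.card_univ, nsmul_eq_mul]
  rw [e1]
  refine (abs_sub _ _).trans ?_
  linarith

/-- The arithmetic of one term of the gain. -/
theorem gain_1 {ζ r lam G GG l y e K A K' : ℝ} (hr : 0 ≤ r) (hr1 : r ≤ 1) (he : 0 ≤ e)
    (hK : 0 ≤ K) (hK' : 0 ≤ K') (hA : 0 ≤ A) (hl0 : 0 ≤ lam) (hζ : ζ ^ 2 * r ^ 2 = lam)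
    (hG : |G| ≤ K * (e * r)) (hGG : |GG| ≤ K * e) (hl : |l| ≤ K)
    (hy : |r ^ 2 * y| ≤ K' * (A * √lam)) :
    lam * G ^ 2 - lam * e * (2 * (K * K' * A) + K + K ^ 2) ≤
      r ^ 2 * (ζ ^ 2 * G ^ 2 + (2 * ζ * y * G + ζ ^ 2 * GG) + l * (ζ ^ 2 * G)) := by
  have s0 := Real.sqrt_nonneg lam
  have s2 := Real.sq_sqrt hl0
  have z1 : |ζ * r| = √lam := by
    rw [← hζ, ← mul_pow, Real.sqrt_sq_eq_abs]
  have t1 : |r ^ 2 * (2 * ζ * y * G)| ≤ 2 * (K * K' * A) * (lam * e) := by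
    by_cases hr0 : r = 0
    · rw [hr0]
      simp only [ne_eq, OfNat.ofNat_ne_zero, not_false_eq_true, zero_pow, zero_mul, abs_zero]
      positivity
    · have rp : 0 < r := lt_of_le_of_ne hr (Ne.symm hr0)
      have e1 : r ^ 2 * (2 * ζ * y * G) * r = 2 * (ζ * r) * (r ^ 2 * y) * G := by ring
      have e2 : |r ^ 2 * (2 * ζ * y * G)| * r = 2 * √lam * |r ^ 2 * y| * |G| := by
        have : |r ^ 2 * (2 * ζ * y * G)| * r = |r ^ 2 * (2 * ζ * y * G) * r| := by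
          rw [abs_mul _ r, abs_of_pos rp]
        rw [this, e1, abs_mul, abs_mul, abs_mul, abs_two, z1]
      have e3 : 2 * √lam * |r ^ 2 * y| * |G| ≤ 2 * √lam * (K' * (A * √lam)) * (K * (e * r)) :=
        mul_le_mul (mul_le_mul_of_nonneg_left hy (by positivity)) hG (abs_nonneg _) (by positivity)
      have e4 : 2 * √lam * (K' * (A * √lam)) * (K * (e * r)) =
          2 * (K * K' * A) * (lam * e) * r := by
        rw [show 2 * √lam * (K' * (A * √lam)) * (K * (e * r)) =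
          2 * (K * K' * A) * (√lam ^ 2 * e) * r by ring, s2]
      have e5 : |r ^ 2 * (2 * ζ * y * G)| * r ≤ 2 * (K * K' * A) * (lam * e) * r := by
        rw [e2, ← e4]; exact e3
      exact le_of_mul_le_mul_right e5 rp
  have t2 : |r ^ 2 * (ζ ^ 2 * GG)| ≤ lam * (K * e) := by
    have : r ^ 2 * (ζ ^ 2 * GG) = lam * GG := by rw [← hζ]; ring
    rw [this, abs_mul, abs_of_nonneg hl0]
    exact mul_le_mul_of_nonneg_left hGG hl0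
  have t3 : |r ^ 2 * (l * (ζ ^ 2 * G))| ≤ lam * (K ^ 2 * e) := by
    have : r ^ 2 * (l * (ζ ^ 2 * G)) = lam * (l * G) := by rw [← hζ]; ring
    rw [this, abs_mul, abs_of_nonneg hl0, abs_mul]
    refine mul_le_mul_of_nonneg_left ?_ hl0
    calc |l| * |G| ≤ K * (K * (e * r)) := mul_le_mul hl hG (abs_nonneg _) hK
      _ = K ^ 2 * e * r := by ring
      _ ≤ K ^ 2 * e := mul_le_of_le_one_right (by positivity) hr1
  have e0 : r ^ 2 * (ζ ^ 2 * G ^ 2) = lam * G ^ 2 := by rw [← hζ]; ring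
  have a1 := neg_abs_le (r ^ 2 * (2 * ζ * y * G))
  have a2 := neg_abs_le (r ^ 2 * (ζ ^ 2 * GG))
  have a3 := neg_abs_le (r ^ 2 * (l * (ζ ^ 2 * G)))
  linarith

/-- The arithmetic of one term of `ls`. -/
theorem ls_1 {ζ r lam l y K A K' : ℝ} (hr : 0 ≤ r) (hr1 : r ≤ 1)
    (hl0 : 0 ≤ lam) (hζ : ζ ^ 2 * r ^ 2 = lam) (hl : |l| ≤ K)
    (hy : |r ^ 2 * y| ≤ K' * (A * √lam)) :
    r ^ 4 * (8 * (2 * y + 1 / 2 * l * ζ) ^ 2 + 8 * y ^ 2 + 2 * ζ ^ 2) ≤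
      (72 * (K' * A) ^ 2 + 4 * K ^ 2 + 2) * lam := by
  have s2 := Real.sq_sqrt hl0
  have hy2 : (r ^ 2 * y) ^ 2 ≤ (K' * A) ^ 2 * lam := by
    have h := pow_le_pow_left₀ (abs_nonneg _) hy 2
    rw [sq_abs] at h
    refine h.trans (le_of_eq ?_)
    rw [show (K' * (A * √lam)) ^ 2 = (K' * A) ^ 2 * √lam ^ 2 by ring, s2]
  have hl2 : l ^ 2 ≤ K ^ 2 := by
    have h := pow_le_pow_left₀ (abs_nonneg _) hl 2
    rwa [sq_abs] at h
  have e1 : r ^ 4 * ζ ^ 2 = r ^ 2 * lam := by rw [← hζ]; ring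
  have r2 : r ^ 2 ≤ 1 := by nlinarith
  have e2 : r ^ 4 * ζ ^ 2 ≤ lam := by
    rw [e1]; exact mul_le_of_le_one_left hl0 r2
  have e3 : r ^ 4 * (l ^ 2 * ζ ^ 2) ≤ K ^ 2 * lam := by
    calc r ^ 4 * (l ^ 2 * ζ ^ 2) = l ^ 2 * (r ^ 4 * ζ ^ 2) := by ring
      _ ≤ K ^ 2 * lam := mul_le_mul hl2 e2 (by positivity) (sq_nonneg _)
  have e4 : r ^ 4 * (2 * y + 1 / 2 * l * ζ) ^ 2 ≤ 8 * (r ^ 2 * y) ^ 2 +
      1 / 2 * (r ^ 4 * (l ^ 2 * ζ ^ 2)) := by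
    have : 0 ≤ (r ^ 2 * (2 * y - 1 / 2 * l * ζ)) ^ 2 := sq_nonneg _
    nlinarith
  have e5 : r ^ 4 * y ^ 2 = (r ^ 2 * y) ^ 2 := by ring
  nlinarith

/-- The arithmetic of one term of `lt`. -/
theorem lt_1 {ζ r lam gs gr kn kk gl ggr K T : ℝ} (hl0 : 0 ≤ lam) (hζ : ζ ^ 2 * r ^ 2 = lam)
    (hK : 0 ≤ K) (hT : 0 ≤ T) (h1 : |gs| ≤ K * T) (h2 : |gr| ≤ K) (h3 : |gl| ≤ K)
    (h4 : |ggr| ≤ K) (hkn : kn = 2 * gs + gr) (hkk : kk = gl * gs + ggr + gl * gr) :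
    r ^ 2 * (8 * (ζ ^ 2 * kn ^ 2) + 2 * (ζ ^ 2 * kk ^ 2)) ≤
      lam * ((64 * K ^ 2 + 6 * (K ^ 2 + K) ^ 2) * (T ^ 2 + 1)) := by
  have e0 : r ^ 2 * (8 * (ζ ^ 2 * kn ^ 2) + 2 * (ζ ^ 2 * kk ^ 2)) =
      lam * (8 * kn ^ 2 + 2 * kk ^ 2) := by rw [← hζ]; ring
  rw [e0]
  refine mul_le_mul_of_nonneg_left ?_ hl0
  have k1 : |kn| ≤ 2 * K * T + K := by
    rw [hkn]
    refine (abs_add_le _ _).trans ?_
    rw [abs_mul, abs_two]
    linarith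
  have k2 : |kk| ≤ K ^ 2 * T + (K + K ^ 2) := by
    rw [hkk]
    refine (abs_add_le _ _).trans ((add_le_add (abs_add_le _ _) le_rfl).trans ?_)
    rw [abs_mul, abs_mul]
    have q1 := mul_le_mul h3 h1 (abs_nonneg _) hK
    have q2 := mul_le_mul h3 h2 (abs_nonneg _) hK
    nlinarith
  have k3 : kn ^ 2 ≤ (2 * K * T + K) ^ 2 := by
    have h := pow_le_pow_left₀ (abs_nonneg _) k1 2
    rwa [sq_abs] at h
  have k4 : kk ^ 2 ≤ (K ^ 2 * T + (K + K ^ 2)) ^ 2 := by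
    have h := pow_le_pow_left₀ (abs_nonneg _) k2 2
    rwa [sq_abs] at h
  have m1 : (2 * K * T + K) ^ 2 ≤ 8 * K ^ 2 * (T ^ 2 + 1) := by
    have : 0 ≤ (2 * K * T - K) ^ 2 := sq_nonneg _
    nlinarith [sq_nonneg K]
  have m2 : (K ^ 2 * T + (K + K ^ 2)) ^ 2 ≤ 2 * (K ^ 2 + K) ^ 2 * (T ^ 2 + 1) := by
    have a1 : K ^ 2 * T + (K + K ^ 2) ≤ (K ^ 2 + K) * (T + 1) := by nlinarith
    have a2 := pow_le_pow_left₀ (by positivity : 0 ≤ K ^ 2 * T + (K + K ^ 2)) a1 2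
    have a3 : ((K ^ 2 + K) * (T + 1)) ^ 2 ≤ 2 * (K ^ 2 + K) ^ 2 * (T ^ 2 + 1) := by
      have : 0 ≤ (K ^ 2 + K) ^ 2 * (T - 1) ^ 2 := by positivity
      nlinarith
    exact a2.trans a3
  have m3 : 0 ≤ (K ^ 2 + K) ^ 2 * (T ^ 2 + 1) := by positivity
  linarith

end Vale.Agent.P088.R2.H814.An
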