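import Vale.Agent.P088.R2.H814.B2.Kp2

/-!
# The pointwise hypotheses `KP`, `KZ` of `ktII` near the diagonal
-/

open Set Filter
open scoped ContDiff Topology

noncomputable section

namespace Vale.Agent.P088.R2.H814.An

open Vale.Agent.P088.R2.H961.GW Vale.Agent.P088.R2.H960.W Vale.Agent.P088.R2.H644
  Vale.Agent.P088.R2.H86.Z Vale.Agent.P088.R2.H814.B2

variable {E ι β α : Type*} [NormedAddCommGroup E] [NormedSpace ℝ E] [Fintype ι] [Fintype β]
variable {P : ι → E} {Q : ι ⊕ ι → E} {σ τ : α → Sl E ι} {U : α → Set E} {θ : α → E → ℝ}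
  {r e N : α → E → ℝ} {W : α → E → ℝ} {p q : α → β → ι → E → ℝ} {k j : ℕ} {f : α → E → ℝ}

/-- The common bounds at a point. -/
structure Kb (σ τ : Sl E ι) (p q : β → ι → E → ℝ) (v₁ v₂ W : E → ℝ) (r e N K : ℝ) (z : E) :
    Prop where
  p1 : ∀ b i, |p b i z| ≤ K
  q1 : ∀ b i, |q b i z| ≤ K
  G : ∀ b, |gg σ τ p q b W z| ≤ K * (e * r)
  GG : ∀ b, |gg σ τ p q b (fun z => gg σ τ p q b W z) z| ≤ K * e
  S : ∀ b, |gs σ τ p q b W z| ≤ K * (e * r ^ 2 + N)
  l : ∀ b, |gl σ τ p q b z| ≤ K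
  g : ∀ b, |gr σ τ p q b z| ≤ K
  gr : ∀ b, |gg σ τ p q b (gr σ τ p q b) z| ≤ K
  v : |v₁ z - v₂ z| ≤ K

/-- **The common bounds.** -/
theorem Wb.kb (h : Wb P Q σ τ U θ r e N W) (w : Wf P Q σ τ U r p q) {v₁ v₂ : α → E → ℝ}
    (hv : OO U o1 fun a z => v₁ a z - v₂ a z) : ∃ K, 1 ≤ K ∧ ∀ a, ∀ z ∈ U a,
      Kb (σ a) (τ a) (p a) (q a) (v₁ a) (v₂ a) (W a) (r a z) (e a z) (N a z) K z := by
  have p1 : ∀ a, ∀ z ∈ U a, (0 : ℝ) ≤ o1 a z := fun _ _ _ => zero_le_one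
  have her : ∀ a, ∀ z ∈ U a, 0 ≤ er r e a z := fun a z hz =>
    mul_nonneg (h.sz.e0 a z hz) (h.sz.B.r0 a z hz)
  have heq : ∀ a, ∀ z ∈ U a, 0 ≤ eq2 r e N a z := fun a z hz =>
    add_nonneg (mul_nonneg (h.sz.e0 a z hz) (sq_nonneg _)) (h.sz.N0 a z hz)
  obtain ⟨C1, c1, k1⟩ := OO.fin (F := fun (i : β × ι) a => p a i.1 i.2) p1
    fun i => h.o_1 (w.ap i.1 i.2)
  obtain ⟨C2, c2, k2⟩ := OO.fin (F := fun (i : β × ι) a => q a i.1 i.2) p1
    fun i => h.o_1 (w.aq i.1 i.2)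
  obtain ⟨C3, c3, k3⟩ := OO.fin her fun b => h.o_er (h.gW w b)
  obtain ⟨C4, c4, k4⟩ := OO.fin h.sz.e0 fun b => h.ggW w b b
  obtain ⟨C5, c5, k5⟩ := OO.fin heq fun b => h.o_eq (h.sW w b)
  obtain ⟨C6, c6, k6⟩ := OO.fin p1 fun b => h.gl0 w b
  obtain ⟨C7, c7, k7⟩ := OO.fin p1 fun b => h.o_1 (h.gr0 w b)
  obtain ⟨C8, c8, k8⟩ := OO.fin p1 fun b => h.ggr w b b
  obtain ⟨C9, c9, k9⟩ := hv
  have hc : 0 ≤ C1 + C2 + C3 + C4 + C5 + C6 + C7 + C8 + C9 := by positivity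
  refine ⟨1 + (C1 + C2 + C3 + C4 + C5 + C6 + C7 + C8 + C9), by linarith, fun a z hz => ?_⟩
  have ez := h.sz.e0 a z hz
  exact
    { p1 := fun b i => (k1 (b, i) a z hz).trans (by simp only [o1, mul_one]; linarith)
      q1 := fun b i => (k2 (b, i) a z hz).trans (by simp only [o1, mul_one]; linarith)
      G := fun b => (k3 b a z hz).trans
        (mul_le_mul_of_nonneg_right (by linarith) (her a z hz))
      GG := fun b => (k4 b a z hz).trans (mul_le_mul_of_nonneg_right (by linarith) ez)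
      S := fun b => (k5 b a z hz).trans
        (mul_le_mul_of_nonneg_right (by linarith) (heq a z hz))
      l := fun b => (k6 b a z hz).trans (by simp only [o1, mul_one]; linarith)
      g := fun b => (k7 b a z hz).trans (by simp only [o1, mul_one]; linarith)
      gr := fun b => (k8 b a z hz).trans (by simp only [o1, mul_one]; linarith)
      v := (k9 a z hz).trans (by simp only [o1, mul_one]; linarith) }

section pt

variable {σ τ : Sl E ι} {p q : β → ι → E → ℝ} {v₁ v₂ W ζ k ee χ Z : E → ℝ} {U : Set E}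
  {θ : E → ℝ} {r e N K lam A η' η : ℝ} {z : E}

/-- `∑_b (p_b · D W)² = F`. -/
theorem fr_F (fp : ∀ i j, ∑ b, p b i z * p b j z = σ.s i j z) (W : E → ℝ) :
    ∑ b, fD σ p b W z ^ 2 = σ.F W z := by
  have e : σ.F W z = ∑ i, ∑ j, σ.s i j z * σ.D i W z * σ.D j W z := rfl
  rw [e]
  have h : ∀ b, fD σ p b W z ^ 2 = ∑ i, ∑ j, p b i z * p b j z * σ.D i W z * σ.D j W z := by
    intro b
    unfold fD
    rw [sq, Finset.sum_mul_sum]
    exact Finset.sum_congr rfl fun i _ => Finset.sum_congr rfl fun j _ => by ring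
  simp only [h]
  rw [Finset.sum_comm]
  refine Finset.sum_congr rfl fun i _ => ?_
  rw [Finset.sum_comm]
  refine Finset.sum_congr rfl fun j _ => ?_
  rw [← fp, Finset.sum_mul, Finset.sum_mul]

/-- The lower bound of the gradient of the difference frame. -/
theorem Kb.low (b : Kb σ τ p q v₁ v₂ W r e N K z)
    (fp : ∀ i j, ∑ b, p b i z * p b j z = σ.s i j z)
    (h0 : Fintype.card β * (K * (e * r ^ 2 + N)) ^ 2 ≤ σ.F W z) :
    σ.F W z ≤ ∑ b, gg σ τ p q b W z ^ 2 := by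
  have h1 : ∀ b', 2 * fD σ p b' W z ^ 2 - (K * (e * r ^ 2 + N)) ^ 2 ≤
      gg σ τ p q b' W z ^ 2 := by
    intro b'
    have e1 : gg σ τ p q b' W z = 2 * fD σ p b' W z - gs σ τ p q b' W z := by
      unfold gg gs; ring
    have h2 := pow_le_pow_left₀ (abs_nonneg _) (b.S b') 2
    rw [sq_abs] at h2
    rw [e1]
    nlinarith [sq_nonneg (fD σ p b' W z - gs σ τ p q b' W z)]
  have h3 := Finset.sum_le_sum fun b' (_ : b' ∈ Finset.univ) => h1 b'
  rw [Finset.sum_sub_distrib, ← Finset.mul_sum, fr_F fp, Finset.sum_const, Finset.card_univ,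
    nsmul_eq_mul] at h3
  linarith

/-- **`KP`.** -/
theorem Kb.kp (b : Kb σ τ p q v₁ v₂ W r e N K z) (F : Fr σ τ p q U θ) (hW : Sm U W) (hz : z ∈ U)
    (hr : 0 < r) (hr1 : r ≤ 1) (he : 0 ≤ e) (hN : 0 ≤ N) (hK : 1 ≤ K)
    (ze : Ze σ τ U ζ r lam A z)
    (h0 : Fintype.card β * (K * (e * r ^ 2 + N)) ^ 2 ≤ σ.F W z)
    (h1 : 2 * (r ^ 2 * ee z) + Fintype.card β * (lam * e *
      (2 * (K * (2 * (Fintype.card ι * K)) * A) + K + K ^ 2)) ≤ lam * σ.F W z)
    (h2 : 8 / η' * lam ^ 2 + 2 * lam + Fintype.card β *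
      ((72 * (2 * (Fintype.card ι * K) * A) ^ 2 + 4 * K ^ 2 + 2) * lam) ≤
      1 / 4 * (r ^ 4 * ee z))
    (h3 : lam * (2 * K ^ 2 + Fintype.card β * ((64 * K ^ 2 + 6 * (K ^ 2 + K) ^ 2) *
      ((e * r ^ 2 + N) ^ 2 + 1))) ≤ η / 2 * (r ^ 2 * (k z * σ.F W z)))
    (h4 : lam * (2 * K ^ 2 + Fintype.card β * ((64 * K ^ 2 + 6 * (K ^ 2 + K) ^ 2) *
      ((e * r ^ 2 + N) ^ 2 + 1))) ≤ η / 2 * (r ^ 2 * (k z * τ.F W z))) :
    KP σ τ p q v₁ v₂ W ζ k ee η' η z := by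
  have K0 : 0 ≤ K := zero_le_one.trans hK
  have l0 := ze.l0
  have rr : 0 < r ^ 2 := by positivity
  have r4 : 0 < r ^ 4 := by positivity
  have hy := ze.gg K0 b.p1 b.q1
  have hU := F.ok.op
  have hT : 0 ≤ e * r ^ 2 + N := by positivity
  have n0 : (0 : ℝ) ≤ Fintype.card β := Nat.cast_nonneg _
  have lt : r ^ 2 * (2 * ζ z ^ 2 * (v₁ z - v₂ z) ^ 2 +
      ∑ a, (8 * (ζ z ^ 2 * kn σ τ p q W a z ^ 2) + 2 * (ζ z ^ 2 * kk σ τ p q W a z ^ 2))) ≤
      lam * (2 * K ^ 2 + Fintype.card β * ((64 * K ^ 2 + 6 * (K ^ 2 + K) ^ 2) *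
      ((e * r ^ 2 + N) ^ 2 + 1))) := by
    have t1 : r ^ 2 * (2 * ζ z ^ 2 * (v₁ z - v₂ z) ^ 2) ≤ lam * (2 * K ^ 2) := by
      have hv := pow_le_pow_left₀ (abs_nonneg _) b.v 2
      rw [sq_abs] at hv
      have e1 : r ^ 2 * (2 * ζ z ^ 2 * (v₁ z - v₂ z) ^ 2) = lam * (2 * (v₁ z - v₂ z) ^ 2) := by
        rw [← ze.e]; ring
      rw [e1]
      exact mul_le_mul_of_nonneg_left (by linarith) l0
    have t2 : r ^ 2 * ∑ a, (8 * (ζ z ^ 2 * kn σ τ p q W a z ^ 2) +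
        2 * (ζ z ^ 2 * kk σ τ p q W a z ^ 2)) ≤ lam * (Fintype.card β *
        ((64 * K ^ 2 + 6 * (K ^ 2 + K) ^ 2) * ((e * r ^ 2 + N) ^ 2 + 1))) := by
      rw [Finset.mul_sum]
      refine (Finset.sum_le_sum fun a _ => lt_1 (gs := gs σ τ p q a W z) (gr := B2.gr σ τ p q a z)
        (gl := gl σ τ p q a z) (ggr := gg σ τ p q a (B2.gr σ τ p q a) z) l0 ze.e K0 hT (b.S a)
        (b.g a) (b.l a) (b.gr a) rfl rfl).trans (le_of_eq ?_)
      rw [Finset.sum_const, Finset.card_univ, nsmul_eq_mul]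
      ring
    rw [mul_add, mul_add]
    linarith
  constructor
  · -- gain
    have low := b.low (F.fp z hz) h0
    have g1 : ∀ a, gg σ τ p q a (fun z => ζ z ^ 2 * gg σ τ p q a W z) z =
        2 * ζ z * gg σ τ p q a ζ z * gg σ τ p q a W z +
          ζ z ^ 2 * gg σ τ p q a (fun z => gg σ τ p q a W z) z := by
      intro a
      rw [gg_mul hU (ze.hζ.pow 2) (s_gg F hW a) a hz, gg_sq hU ze.hζ a hz]
    have g2 : lam * (∑ a, gg σ τ p q a W z ^ 2) - Fintype.card β * (lam * e *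
        (2 * (K * (2 * (Fintype.card ι * K)) * A) + K + K ^ 2)) ≤
        r ^ 2 * ∑ a, (ζ z ^ 2 * gg σ τ p q a W z ^ 2 +
        gg σ τ p q a (fun z => ζ z ^ 2 * gg σ τ p q a W z) z +
        gl σ τ p q a z * (ζ z ^ 2 * gg σ τ p q a W z)) := by
      rw [Finset.mul_sum, Finset.mul_sum]
      have e1 : (Fintype.card β : ℝ) * (lam * e *
        (2 * (K * (2 * (Fintype.card ι * K)) * A) + K + K ^ 2)) = ∑ _b : β, lam * e *
        (2 * (K * (2 * (Fintype.card ι * K)) * A) + K + K ^ 2) := by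
        rw [Finset.sum_const, Finset.card_univ, nsmul_eq_mul]
      rw [e1, ← Finset.sum_sub_distrib]
      refine Finset.sum_le_sum fun a _ => ?_
      rw [g1 a]
      exact gain_1 hr.le hr1 he K0 (by positivity) ze.A0 l0 ze.e (b.G a) (b.GG a) (b.l a) (hy a)
    have g3 := mul_le_mul_of_nonneg_left low l0
    refine le_of_mul_le_mul_left ?_ rr
    linarith
  · -- ls
    refine le_of_mul_le_mul_left ?_ r4
    have e1 : r ^ 4 * ζ z ^ 4 = lam ^ 2 := by rw [← ze.e]; ring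
    have e2 : r ^ 4 * ζ z ^ 2 ≤ lam := by
      have : r ^ 4 * ζ z ^ 2 = r ^ 2 * lam := by rw [← ze.e]; ring
      rw [this]
      exact mul_le_of_le_one_left l0 (by nlinarith)
    have e3 : r ^ 4 * ∑ a, (8 * (2 * gg σ τ p q a ζ z + 1 / 2 * gl σ τ p q a z * ζ z) ^ 2 +
        8 * gg σ τ p q a ζ z ^ 2 + 2 * ζ z ^ 2) ≤ Fintype.card β *
      ((72 * (2 * (Fintype.card ι * K) * A) ^ 2 + 4 * K ^ 2 + 2) * lam) := by
      rw [Finset.mul_sum]
      refine (Finset.sum_le_sum fun a _ => ls_1 hr.le hr1 l0 ze.e (b.l a) (hy a)).trans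
        (le_of_eq ?_)
      rw [Finset.sum_const, Finset.card_univ, nsmul_eq_mul]
    have e4 : r ^ 4 * (8 / η' * ζ z ^ 4) = 8 / η' * lam ^ 2 := by rw [← e1]; ring
    rw [mul_add, mul_add, e4]
    linarith
  · refine le_of_mul_le_mul_left ?_ rr
    linarith
  · refine le_of_mul_le_mul_left ?_ rr
    linarith

/-- **`KZ`.** -/
theorem Kb.kz (b : Kb σ τ p q v₁ v₂ W r e N K z) (hr : 0 < r) (he : 0 ≤ e)
    (hK : 1 ≤ K) (hζ : ζ z ^ 2 * r ^ 2 = lam) {d : ℝ} (hd : 0 ≤ d)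
    (d1 : ∀ i, |σ.D i χ z| ≤ d) (d2 : ∀ i, |τ.D i χ z| ≤ d)
    (h1 : 8 * (Fintype.card β * (2 * (Fintype.card ι * K)) * K) * (lam * (|χ z| * d * e)) ≤
      r * (Z z * ee z))
    (h2 : 160 * (Fintype.card β * (2 * (Fintype.card ι * K)) ^ 2) * (lam * d ^ 2) ≤
      r ^ 2 * (Z z * ee z)) :
    KZ σ τ p q W χ ζ ee Z z := by
  have K0 : 0 ≤ K := zero_le_one.trans hK
  have rr : 0 < r ^ 2 := by positivity
  have l0 : 0 ≤ lam := hζ ▸ by positivity
  have hx : ∀ a, |gg σ τ p q a χ z| ≤ 2 * (Fintype.card ι * K) * d := by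
    intro a
    unfold B2.gg fD
    refine (abs_sub _ _).trans ?_
    have t1 : |∑ i, p a i z * σ.D i χ z| ≤ Fintype.card ι * (K * d) := by
      refine (Finset.abs_sum_le_sum_abs _ _).trans ?_
      have : ∀ i, |p a i z * σ.D i χ z| ≤ K * d := fun i => by
        rw [abs_mul]
        exact mul_le_mul (b.p1 a i) (d1 i) (abs_nonneg _) K0
      refine (Finset.sum_le_sum fun i _ => this i).trans (le_of_eq ?_)
      rw [Finset.sum_const, Finset.card_univ, nsmul_eq_mul]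
    have t2 : |∑ i, q a i z * τ.D i χ z| ≤ Fintype.card ι * (K * d) := by
      refine (Finset.abs_sum_le_sum_abs _ _).trans ?_
      have : ∀ i, |q a i z * τ.D i χ z| ≤ K * d := fun i => by
        rw [abs_mul]
        exact mul_le_mul (b.q1 a i) (d2 i) (abs_nonneg _) K0
      refine (Finset.sum_le_sum fun i _ => this i).trans (le_of_eq ?_)
      rw [Finset.sum_const, Finset.card_univ, nsmul_eq_mul]
    linarith
  constructor
  · refine le_of_mul_le_mul_left ?_ hr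
    have e1 : r * |2 * χ z * ∑ a, gg σ τ p q a χ z * (ζ z ^ 2 * gg σ τ p q a W z)| * r ≤
        2 * (|χ z| * (Fintype.card β * (2 * (Fintype.card ι * K) * d * (lam * (K * (e * r)))))) := by
      have q1 : |∑ a, gg σ τ p q a χ z * (r ^ 2 * ζ z ^ 2 * gg σ τ p q a W z)| ≤
          Fintype.card β * (2 * (Fintype.card ι * K) * d * (lam * (K * (e * r)))) := by
        refine (Finset.abs_sum_le_sum_abs _ _).trans ?_
        have : ∀ a, |gg σ τ p q a χ z * (r ^ 2 * ζ z ^ 2 * gg σ τ p q a W z)| ≤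
            2 * (Fintype.card ι * K) * d * (lam * (K * (e * r))) := fun a => by
          rw [abs_mul, abs_mul]
          have : |r ^ 2 * ζ z ^ 2| = lam := by
            rw [abs_of_nonneg (by positivity), ← hζ]; ring
          rw [this]
          exact mul_le_mul (hx a) (mul_le_mul_of_nonneg_left (b.G a) l0) (by positivity)
            (by positivity)
        refine (Finset.sum_le_sum fun i _ => this i).trans (le_of_eq ?_)
        rw [Finset.sum_const, Finset.card_univ, nsmul_eq_mul]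
      have q2 : r * |2 * χ z * ∑ a, gg σ τ p q a χ z * (ζ z ^ 2 * gg σ τ p q a W z)| * r =
          2 * (|χ z| * |∑ a, gg σ τ p q a χ z * (r ^ 2 * ζ z ^ 2 * gg σ τ p q a W z)|) := by
        have q3 : ∑ a, gg σ τ p q a χ z * (r ^ 2 * ζ z ^ 2 * gg σ τ p q a W z) =
            r ^ 2 * ∑ a, gg σ τ p q a χ z * (ζ z ^ 2 * gg σ τ p q a W z) := by
          rw [Finset.mul_sum]
          exact Finset.sum_congr rfl fun a _ => by ring
        rw [q3, abs_mul, abs_mul (2 : ℝ) , abs_mul (r ^ 2), abs_two, abs_of_pos rr]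
        ring
      rw [q2]
      exact mul_le_mul_of_nonneg_left (mul_le_mul_of_nonneg_left q1 (abs_nonneg _)) zero_le_two
    have e2 : 2 * (|χ z| * (Fintype.card β * (2 * (Fintype.card ι * K) * d *
        (lam * (K * (e * r)))))) ≤ r * (1 / 4 * (Z z * ee z)) * r := by
      have := mul_le_mul_of_nonneg_right h1 hr.le
      linarith
    exact le_of_mul_le_mul_right (e1.trans e2) hr
  · refine le_of_mul_le_mul_left ?_ rr
    have e1 : r ^ 2 * (40 * ∑ a, ζ z ^ 2 * gg σ τ p q a χ z ^ 2) ≤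
        40 * (Fintype.card β * (lam * (2 * (Fintype.card ι * K) * d) ^ 2)) := by
      have q1 : r ^ 2 * (40 * ∑ a, ζ z ^ 2 * gg σ τ p q a χ z ^ 2) =
          40 * ∑ a, lam * gg σ τ p q a χ z ^ 2 := by
        rw [← hζ, Finset.mul_sum, Finset.mul_sum, Finset.mul_sum]
        exact Finset.sum_congr rfl fun a _ => by ring
      rw [q1]
      refine mul_le_mul_of_nonneg_left ?_ (by norm_num)
      have : ∀ a, lam * gg σ τ p q a χ z ^ 2 ≤ lam * (2 * (Fintype.card ι * K) * d) ^ 2 := by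
        intro a
        have h := pow_le_pow_left₀ (abs_nonneg _) (hx a) 2
        rw [sq_abs] at h
        exact mul_le_mul_of_nonneg_left h l0
      refine (Finset.sum_le_sum fun i _ => this i).trans (le_of_eq ?_)
      rw [Finset.sum_const, Finset.card_univ, nsmul_eq_mul]
    linarith

end pt

end Vale.Agent.P088.R2.H814.An
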