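import Vale.Agent.P088.R2.H814.B2.Pq

/-!
# Uniform `O`-bounds at points, and symbols with a stiff part and a slope part

`OO U g f`: `|f a z| ≤ C g a z`.  `Mx`: a sum of a symbol of size `e` and order `j` and of a symbol
of size `N` and order `0`.
-/

open Set Filter
open scoped ContDiff Topology

noncomputable section

namespace Vale.Agent.P088.R2.H814.An

open Vale.Agent.P088.R2.H961.GW

variable {E ι κ α : Type*} [NormedAddCommGroup E] [NormedSpace ℝ E]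

section oo

variable {X : Type*} {U : α → Set X} {g g₁ g₂ g₃ g₄ f f' f₁ f₂ f₃ f₄ : α → X → ℝ}

/-- `f = O(g)` uniformly. -/
def OO (U : α → Set X) (g f : α → X → ℝ) : Prop := ∃ C, 0 ≤ C ∧ ∀ a, ∀ z ∈ U a, |f a z| ≤ C * g a z

theorem OO.mono (h : OO U g f) {A : ℝ} (hA0 : 0 ≤ A) (hA : ∀ a, ∀ z ∈ U a, g a z ≤ A * g₁ a z) :
    OO U g₁ f := by
  obtain ⟨C, h0, h1⟩ := h
  refine ⟨C * A, mul_nonneg h0 hA0, fun a z hz => (h1 a z hz).trans ?_⟩
  rw [mul_assoc]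
  exact mul_le_mul_of_nonneg_left (hA a z hz) h0

theorem OO.le (h : OO U g f) (hA : ∀ a, ∀ z ∈ U a, g a z ≤ g₁ a z) : OO U g₁ f :=
  h.mono zero_le_one fun a z hz => by rw [one_mul]; exact hA a z hz

theorem OO.congr (h : OO U g f) (e : ∀ a, ∀ z ∈ U a, f' a z = f a z) : OO U g f' := by
  obtain ⟨C, h0, h1⟩ := h
  exact ⟨C, h0, fun a z hz => by rw [e a z hz]; exact h1 a z hz⟩

theorem OO.gcongr (h : OO U g f) (e : ∀ a, ∀ z ∈ U a, g a z = g₁ a z) : OO U g₁ f :=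
  h.le fun a z hz => (e a z hz).le

theorem OO.add (h : OO U g f) (h' : OO U g f') : OO U g fun a z => f a z + f' a z := by
  obtain ⟨C, h0, h1⟩ := h
  obtain ⟨C', h0', h1'⟩ := h'
  refine ⟨C + C', add_nonneg h0 h0', fun a z hz => (abs_add_le _ _).trans ?_⟩
  rw [add_mul]
  exact add_le_add (h1 a z hz) (h1' a z hz)

theorem OO.neg (h : OO U g f) : OO U g fun a z => -f a z := by
  obtain ⟨C, h0, h1⟩ := h
  exact ⟨C, h0, fun a z hz => by rw [abs_neg]; exact h1 a z hz⟩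

theorem OO.sub (h : OO U g f) (h' : OO U g f') : OO U g fun a z => f a z - f' a z :=
  (h.add h'.neg).congr fun a z _ => by ring

theorem OO.cmul (h : OO U g f) (c : ℝ) : OO U g fun a z => c * f a z := by
  obtain ⟨C, h0, h1⟩ := h
  refine ⟨|c| * C, mul_nonneg (abs_nonneg _) h0, fun a z hz => ?_⟩
  rw [abs_mul, mul_assoc]
  exact mul_le_mul_of_nonneg_left (h1 a z hz) (abs_nonneg _)

theorem OO.mul (h : OO U g₁ f) (h' : OO U g₂ f') :
    OO U (fun a z => g₁ a z * g₂ a z) fun a z => f a z * f' a z := by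
  obtain ⟨C, h0, h1⟩ := h
  obtain ⟨C', h0', h1'⟩ := h'
  refine ⟨C * C', mul_nonneg h0 h0', fun a z hz => ?_⟩
  rw [abs_mul]
  calc |f a z| * |f' a z| ≤ (C * g₁ a z) * (C' * g₂ a z) :=
        mul_le_mul (h1 a z hz) (h1' a z hz) (abs_nonneg _) ((abs_nonneg _).trans (h1 a z hz))
    _ = C * C' * (g₁ a z * g₂ a z) := by ring

/-- Products of four factors. -/
theorem OO.m4 (h₁ : OO U g₁ f₁) (h₂ : OO U g₂ f₂) (h₃ : OO U g₃ f₃) (h₄ : OO U g₄ f₄) {A : ℝ}
    (hA0 : 0 ≤ A) (hA : ∀ a, ∀ z ∈ U a, g₁ a z * g₂ a z * g₃ a z * g₄ a z ≤ A * g a z) :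
    OO U g fun a z => f₁ a z * f₂ a z * f₃ a z * f₄ a z :=
  (((h₁.mul h₂).mul h₃).mul h₄).mono hA0 hA

theorem OO.sum {β : Type*} (S : Finset β) {F : β → α → X → ℝ} (h : ∀ b ∈ S, OO U g (F b)) :
    OO U g fun a z => ∑ b ∈ S, F b a z := by
  classical
  induction S using Finset.induction_on with
  | empty => exact ⟨0, le_rfl, fun a z _ => by simp⟩
  | insert b S hb ih =>
    refine ((h b (Finset.mem_insert_self b S)).add
      (ih fun c hc => h c (Finset.mem_insert_of_mem hc))).congr fun a z _ => ?_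
    rw [Finset.sum_insert hb]

theorem OO.fsum {β : Type*} [Fintype β] {F : β → α → X → ℝ} (h : ∀ b, OO U g (F b)) :
    OO U g fun a z => ∑ b, F b a z := OO.sum _ fun b _ => h b

theorem OO.const (c : ℝ) : OO U (fun _ _ => 1) fun _ _ => c :=
  ⟨|c|, abs_nonneg c, fun a z _ => by simp⟩

/-- One constant for finitely many bounds. -/
theorem OO.fin {β : Type*} [Finite β] {F : β → α → X → ℝ} (hg : ∀ a, ∀ z ∈ U a, 0 ≤ g a z)
    (h : ∀ b, OO U g (F b)) : ∃ C, 0 ≤ C ∧ ∀ b, ∀ a, ∀ z ∈ U a, |F b a z| ≤ C * g a z := by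
  cases nonempty_fintype β
  choose C h0 h1 using h
  refine ⟨∑ b, C b, Finset.sum_nonneg fun b _ => h0 b, fun b a z hz => (h1 b a z hz).trans ?_⟩
  exact mul_le_mul_of_nonneg_right
    (Finset.single_le_sum (f := C) (fun b _ => h0 b) (Finset.mem_univ b)) (hg a z hz)

end oo

section mx

variable {P : ι → E} {Q : κ → E} {U : α → Set E} {r e N : α → E → ℝ} {k j j' : ℕ}
  {f f' w : α → E → ℝ}

/-- The sizes. -/
structure Sz (U : α → Set E) (r e N : α → E → ℝ) : Prop where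
  B : Bs U r
  e0 : ∀ a, ∀ z ∈ U a, 0 ≤ e a z
  N0 : ∀ a, ∀ z ∈ U a, 0 ≤ N a z

/-- A stiff part of order `j` and a slope part of order `0`. -/
def Mx (P : ι → E) (Q : κ → E) (U : α → Set E) (r e N : α → E → ℝ) (k j : ℕ)
    (f : α → E → ℝ) : Prop :=
  ∃ f₂ f₁ : α → E → ℝ, An P Q U r e k j f₂ ∧ An P Q U r N k 0 f₁ ∧
    ∀ a, ∀ z ∈ U a, f a z = f₂ a z + f₁ a z

theorem Mx.congr (h : Mx P Q U r e N k j f) (q : ∀ a, ∀ z ∈ U a, f' a z = f a z) :
    Mx P Q U r e N k j f' := by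
  obtain ⟨f₂, f₁, h2, h1, h3⟩ := h
  exact ⟨f₂, f₁, h2, h1, fun a z hz => by rw [q a z hz, h3 a z hz]⟩

theorem Mx.sm (h : Mx P Q U r e N k j f) (a : α) : Sm (U a) (f a) := by
  obtain ⟨f₂, f₁, h2, h1, h3⟩ := h
  exact ((h2.sm a).add (h1.sm a)).congr (h3 a)

theorem Mx.mono_j (S : Sz U r e N) (h : Mx P Q U r e N k j f) (hj : j' ≤ j) :
    Mx P Q U r e N k j' f := by
  obtain ⟨f₂, f₁, h2, h1, h3⟩ := h
  exact ⟨f₂, f₁, h2.mono_j S.B S.e0 hj, h1, h3⟩

theorem Mx.mono_k {k' : ℕ} (h : Mx P Q U r e N k j f) (hk : k' ≤ k) : Mx P Q U r e N k' j f := by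
  obtain ⟨f₂, f₁, h2, h1, h3⟩ := h
  exact ⟨f₂, f₁, h2.mono_k hk, h1.mono_k hk, h3⟩

theorem Mx.dP (S : Sz U r e N) (h : Mx P Q U r e N (k + 1) j f) (i : ι) :
    Mx P Q U r e N k j fun a => dd (P i) (f a) := by
  obtain ⟨f₂, f₁, h2, h1, h3⟩ := h
  refine ⟨_, _, h2.2.1 i, h1.2.1 i, fun a z hz => ?_⟩
  exact (dd_congr (S.B.op a) (h3 a) _ hz).trans
    (dd_add (S.B.op a) (h2.sm a) (h1.sm a) _ hz)

theorem Mx.dQ (S : Sz U r e N) (h : Mx P Q U r e N (k + 1) j f) (l : κ) :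
    Mx P Q U r e N k (j - 1) fun a => dd (Q l) (f a) := by
  obtain ⟨f₂, f₁, h2, h1, h3⟩ := h
  refine ⟨_, _, h2.2.2 l, h1.2.2 l, fun a z hz => ?_⟩
  exact (dd_congr (S.B.op a) (h3 a) _ hz).trans
    (dd_add (S.B.op a) (h2.sm a) (h1.sm a) _ hz)

theorem Mx.add (S : Sz U r e N) (h : Mx P Q U r e N k j f) (h' : Mx P Q U r e N k j f') :
    Mx P Q U r e N k j fun a z => f a z + f' a z := by
  obtain ⟨f₂, f₁, h2, h1, h3⟩ := h
  obtain ⟨f₂', f₁', h2', h1', h3'⟩ := h'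
  exact ⟨_, _, h2.add S.B h2', h1.add S.B h1', fun a z hz => by
    simp only [h3 a z hz, h3' a z hz]; ring⟩

theorem Mx.neg (S : Sz U r e N) (h : Mx P Q U r e N k j f) :
    Mx P Q U r e N k j fun a z => -f a z := by
  obtain ⟨f₂, f₁, h2, h1, h3⟩ := h
  exact ⟨_, _, h2.neg S.B S.e0, h1.neg S.B S.N0, fun a z hz => by
    simp only [h3 a z hz]; ring⟩

theorem Mx.sub (S : Sz U r e N) (h : Mx P Q U r e N k j f) (h' : Mx P Q U r e N k j f') :
    Mx P Q U r e N k j fun a z => f a z - f' a z :=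
  (h.add S (h'.neg S)).congr fun a z _ => by ring

theorem Mx.zero_fn (S : Sz U r e N) : Mx P Q U r e N k j fun _ _ => (0 : ℝ) :=
  ⟨_, _, An.zero_fn S.B, An.zero_fn S.B, fun a z _ => by simp⟩

theorem Mx.sum (S : Sz U r e N) {β : Type*} (T : Finset β) {F : β → α → E → ℝ}
    (h : ∀ b ∈ T, Mx P Q U r e N k j (F b)) : Mx P Q U r e N k j fun a z => ∑ b ∈ T, F b a z := by
  classical
  induction T using Finset.induction_on with
  | empty => simpa using Mx.zero_fn (P := P) (Q := Q) (k := k) (j := j) S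
  | insert b T hb ih =>
    refine ((h b (Finset.mem_insert_self b T)).add S
      (ih fun c hc => h c (Finset.mem_insert_of_mem hc))).congr fun a z _ => ?_
    rw [Finset.sum_insert hb]

/-- Multiplication by a symbol of size `1`. -/
theorem Mx.mul (S : Sz U r e N) (hw : An P Q U r (fun _ _ => 1) k j' w)
    (h : Mx P Q U r e N k j f) : Mx P Q U r e N k (j' + j) fun a z => w a z * f a z := by
  obtain ⟨f₂, f₁, h2, h1, h3⟩ := h
  have p1 : ∀ a, ∀ z ∈ U a, (0 : ℝ) ≤ (fun (_ : α) (_ : E) => (1 : ℝ)) a z :=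
    fun _ _ _ => zero_le_one
  refine ⟨_, _, (An.mul S.B p1 S.e0 hw h2).wcongr (g₁ := e) fun a z _ => (one_mul _).symm,
    (An.mul S.B p1 S.N0 (hw.mono_j S.B p1 (Nat.zero_le _)) h1).wcongr (g₁ := N)
      fun a z _ => (one_mul _).symm, fun a z hz => ?_⟩
  simp only [h3 a z hz]
  ring

/-- The bound at a point. -/
theorem Mx.oo (S : Sz U r e N) (h : Mx P Q U r e N k j f) :
    OO U (fun a z => e a z * r a z ^ j + N a z) f := by
  obtain ⟨f₂, f₁, h2, h1, h3⟩ := h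
  obtain ⟨C, hC⟩ := h2.bd
  obtain ⟨D, hD⟩ := h1.bd
  refine ⟨|C| + |D|, by positivity, fun a z hz => ?_⟩
  have a1 := hC a z hz
  have a2 := hD a z hz
  have q1 : 0 ≤ e a z * r a z ^ j := mul_nonneg (S.e0 a z hz) (pow_nonneg (S.B.r0 a z hz) _)
  have q2 := S.N0 a z hz
  have b1 := mul_le_mul_of_nonneg_right (le_abs_self C) q1
  have b2 := mul_le_mul_of_nonneg_right (le_abs_self D) q2
  have b3 := mul_nonneg (abs_nonneg D) q1
  have b4 := mul_nonneg (abs_nonneg C) q2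
  rw [h3 a z hz]
  refine (abs_add_le _ _).trans ?_
  rw [pow_zero, mul_one] at a2
  nlinarith

/-- A symbol is `O`. -/
theorem An.oo (B : Bs U r) (he : ∀ a, ∀ z ∈ U a, 0 ≤ e a z) (h : An P Q U r e k j f) :
    OO U (fun a z => e a z * r a z ^ j) f := by
  obtain ⟨C, hC⟩ := h.bd
  refine ⟨|C|, abs_nonneg C, fun a z hz => (hC a z hz).trans ?_⟩
  exact mul_le_mul_of_nonneg_right (le_abs_self C)
    (mul_nonneg (he a z hz) (pow_nonneg (B.r0 a z hz) _))

end mx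

end Vale.Agent.P088.R2.H814.An
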