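import Vale.Agent.P088.R2.H814.B2.An
import Vale.Agent.P088.R2.H558.Defs

/-!
# The slow and the fast directions on `V × V`
-/

open Set Filter
open scoped ContDiff Topology

noncomputable section

namespace Vale.Agent.P088.R2.H814.An

open Vale.Agent.P088.LR Vale.Agent.P088.HY

variable {n : ℕ} {α : Type*}

/-- The slow directions. -/
def Pd (i : Fin n) : VV n := (Pi.single i 1, Pi.single i 1)

/-- The fast directions. -/
def Qd : Fin n ⊕ Fin n → VV n
  | Sum.inl i => (Pi.single i 1, 0)
  | Sum.inr i => (0, Pi.single i 1)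

/-- Anisotropic symbols on `V × V`. -/
abbrev AV (U : α → Set (VV n)) (r g : α → VV n → ℝ) (k j : ℕ) (f : α → VV n → ℝ) : Prop :=
  An (Pd (n := n)) Qd U r g k j f

end Vale.Agent.P088.R2.H814.An
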