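import Vale.Agent.P088.R2.H814.B2.Th

/-!
# The quantum part `qf` near the diagonal

`|qf (A, B, x, y)| ≤ C (e² (x + y)² + |A|² + |B|² + g |w|² + (e² r² + e N + e) (x² + y²))`.
-/

open Set Filter
open scoped ContDiff Topology

noncomputable section

namespace Vale.Agent.P088.R2.H814.An

open Vale.Agent.P088.R2.H961.GW Vale.Agent.P088.R2.H747.S Vale.Agent.P088.R2.H86.Z
open Vale.Agent.P088.R2.H644.Ch (Lx G2)

variable {E ι β α : Type*} [NormedAddCommGroup E] [NormedSpace ℝ E] [Fintype ι] [Fintype β]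

/-- Frames of the two families of slots. -/
structure Wf (P : ι → E) (Q : ι ⊕ ι → E) (σ τ : α → Sl E ι) (U : α → Set E) (r : α → E → ℝ)
    (p q : α → β → ι → E → ℝ) : Prop where
  fp : ∀ a, ∀ z ∈ U a, ∀ i j, ∑ b, p a b i z * p a b j z = (σ a).s i j z
  fq : ∀ a, ∀ z ∈ U a, ∀ i j, ∑ b, q a b i z * q a b j z = (τ a).s i j z
  ap : ∀ b i, An P Q U r (fun _ _ => 1) 2 0 fun a => p a b i
  aq : ∀ b i, An P Q U r (fun _ _ => 1) 2 0 fun a => q a b i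
  ad : ∀ b i, An P Q U r (fun _ _ => 1) 1 1 fun a z => p a b i z - q a b i z
  p0 : ∀ a, ∀ z ∈ U a, ∀ b i k, (τ a).D k (p a b i) z = 0
  q0 : ∀ a, ∀ z ∈ U a, ∀ b i k, (σ a).D k (q a b i) z = 0

variable {P : ι → E} {Q : ι ⊕ ι → E} {σ τ : α → Sl E ι} {U : α → Set E} {θ : α → E → ℝ}
  {r e N : α → E → ℝ} {W : α → E → ℝ} {p q : α → β → ι → E → ℝ} {k j : ℕ} {f : α → E → ℝ}

namespace Wb

/-- `Λ f` of the first slot. -/
theorem lam1 (h : Wb P Q σ τ U θ r e N W) (hs : ∀ a, Sm (U a) (f a))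
    (hf : ∀ i, Mx P Q U r e N (k + 1) j fun a => (σ a).D i (f a)) (hk : k ≤ 2) :
    Mx P Q U r e N k (j - 1) fun a => (σ a).Λ (f a) := by
  have h1 : ∀ i j', Mx P Q U r e N k (j - 1) fun a z =>
      (σ a).s i j' z * (σ a).D i ((σ a).D j' (f a)) z := fun i j' => by
    have := Mx.mul h.sz ((h.s1 i j').mono_k (hk.trans (by norm_num))) (h.x1 (hf j') i)
    rwa [zero_add] at this
  have h2 : ∀ i j', Mx P Q U r e N k (j - 1) fun a z =>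
      (σ a).D i ((σ a).s i j') z * (σ a).D j' (f a) z := fun i j' => by
    have := Mx.mul h.sz ((h.ds1 i i j').mono_k hk) ((hf j').mono_k (Nat.le_succ k))
    rw [zero_add] at this
    exact this.mono_j h.sz (Nat.sub_le _ _)
  refine (Mx.sum h.sz Finset.univ fun i _ => Mx.sum h.sz Finset.univ fun j' _ =>
    (h1 i j').add h.sz (h2 i j')).congr fun a z hz => ?_
  exact h.l1 a (f a) (hs a) z hz

theorem lam2 (h : Wb P Q σ τ U θ r e N W) (hs : ∀ a, Sm (U a) (f a))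
    (hf : ∀ i, Mx P Q U r e N (k + 1) j fun a => (τ a).D i (f a)) (hk : k ≤ 2) :
    Mx P Q U r e N k (j - 1) fun a => (τ a).Λ (f a) := by
  have h1 : ∀ i j', Mx P Q U r e N k (j - 1) fun a z =>
      (τ a).s i j' z * (τ a).D i ((τ a).D j' (f a)) z := fun i j' => by
    have := Mx.mul h.sz ((h.s2 i j').mono_k (hk.trans (by norm_num))) (h.x2 (hf j') i)
    rwa [zero_add] at this
  have h2 : ∀ i j', Mx P Q U r e N k (j - 1) fun a z =>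
      (τ a).D i ((τ a).s i j') z * (τ a).D j' (f a) z := fun i j' => by
    have := Mx.mul h.sz ((h.ds2 i i j').mono_k hk) ((hf j').mono_k (Nat.le_succ k))
    rw [zero_add] at this
    exact this.mono_j h.sz (Nat.sub_le _ _)
  refine (Mx.sum h.sz Finset.univ fun i _ => Mx.sum h.sz Finset.univ fun j' _ =>
    (h1 i j').add h.sz (h2 i j')).congr fun a z hz => ?_
  exact h.l2 a (f a) (hs a) z hz

theorem L1 (h : Wb P Q σ τ U θ r e N W) : Mx P Q U r e N 2 0 fun a => (σ a).Λ (W a) :=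
  h.lam1 h.Ws h.w1 le_rfl

theorem L2 (h : Wb P Q σ τ U θ r e N W) : Mx P Q U r e N 2 0 fun a => (τ a).Λ (W a) :=
  h.lam2 h.Ws h.w2 le_rfl

/-- The difference of the two `Λ W` has order `1`. -/
theorem Ld (h : Wb P Q σ τ U θ r e N W) :
    Mx P Q U r e N 1 1 fun a z => (σ a).Λ (W a) z - (τ a).Λ (W a) z := by
  have h1 : ∀ i j, Mx P Q U r e N 1 1 fun a z =>
      ((σ a).s i j z - (τ a).s i j z) * (σ a).D i ((σ a).D j (W a)) z := fun i j =>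
    Mx.mul h.sz (h.sd i j) ((h.x1 (h.w1 j) i).mono_k one_le_two)
  have h2 : ∀ i j, Mx P Q U r e N 1 1 fun a z =>
      (τ a).s i j z * (dd (P i) ((σ a).D j (W a)) z -
        ((τ a).D i ((σ a).D j (W a)) z + (τ a).D i ((τ a).D j (W a)) z)) := fun i j =>
    Mx.mul h.sz ((h.s2 i j).mono_k (by norm_num))
      ((((h.w1 j).dP h.sz i).mono_k one_le_two).sub h.sz ((h.p2 i j).mono_k one_le_two))
  have h3 : ∀ i j, Mx P Q U r e N 1 1 fun a z =>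
      (σ a).D i ((σ a).s i j) z * (σ a).D j (W a) z := fun i j =>
    Mx.mul h.sz ((h.ds1 i i j).mono_k one_le_two) ((h.w1 j).mono_k (by norm_num))
  have h4 : ∀ i j, Mx P Q U r e N 1 1 fun a z =>
      (τ a).D i ((τ a).s i j) z * (τ a).D j (W a) z := fun i j =>
    Mx.mul h.sz ((h.ds2 i i j).mono_k one_le_two) ((h.w2 j).mono_k (by norm_num))
  refine (Mx.sum h.sz Finset.univ fun i _ => Mx.sum h.sz Finset.univ fun j _ =>
    ((((h1 i j).add h.sz (h2 i j)).add h.sz (h3 i j)).sub h.sz (h4 i j))).congr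
      fun a z hz => ?_
  rw [h.l1 a (W a) (h.Ws a) z hz, h.l2 a (W a) (h.Ws a) z hz, ← Finset.sum_sub_distrib]
  refine Finset.sum_congr rfl fun i _ => ?_
  rw [← Finset.sum_sub_distrib]
  refine Finset.sum_congr rfl fun j _ => ?_
  rw [h.Dp a i]
  ring

/-- The fourth order terms. -/
theorem LL (h : Wb P Q σ τ U θ r e N W) :
    OO U e (fun a => (σ a).Λ ((σ a).Λ (W a))) ∧ OO U e (fun a => (σ a).Λ ((τ a).Λ (W a))) ∧
      OO U e fun a => (τ a).Λ ((τ a).Λ (W a)) :=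
  ⟨h.o_e (h.lam1 (k := 0) (fun a => h.L1.sm a) (fun i => h.x1 h.L1 i) (Nat.zero_le _)),
    h.o_e (h.lam1 (k := 0) (fun a => h.L2.sm a) (fun i => h.x1 h.L2 i) (Nat.zero_le _)),
    h.o_e (h.lam2 (k := 0) (fun a => h.L2.sm a) (fun i => h.x2 h.L2 i) (Nat.zero_le _))⟩

/-- The third order terms. -/
theorem q1 (h : Wb P Q σ τ U θ r e N W) (w : Wf P Q σ τ U r p q) : ∃ C, 0 ≤ C ∧
    ∀ a, ∀ z ∈ U a, ∀ g : ℝ, 0 ≤ g → 1 ≤ g * r a z ^ 2 → ∀ (A B : ι → ℝ) (x y : ℝ),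
    |x * gA (σ a) ((σ a).Λ (W a)) z A + y * gA (σ a) ((τ a).Λ (W a)) z A +
      x * gA (τ a) ((σ a).Λ (W a)) z B + y * gA (τ a) ((τ a).Λ (W a)) z B| ≤
    C * (e a z ^ 2 * (x + y) ^ 2 + e a z ^ 2 * r a z ^ 2 * (x ^ 2 + y ^ 2) +
      ((∑ i, A i ^ 2) + ∑ i, B i ^ 2) + g * wq (p a) (q a) z A B) := by
  have p1 : ∀ a, ∀ z ∈ U a, (0 : ℝ) ≤ o1 a z := fun _ _ _ => zero_le_one
  obtain ⟨C1, c1, k1⟩ := OO.fin (F := fun (i : ι × ι) a => (σ a).s i.1 i.2) p1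
    fun i => h.o_1 (h.s1 i.1 i.2)
  obtain ⟨C2, c2, k2⟩ := OO.fin (F := fun (i : ι × ι) a => (τ a).s i.1 i.2) p1
    fun i => h.o_1 (h.s2 i.1 i.2)
  obtain ⟨C3, c3, k3⟩ := OO.fin (F := fun (i : β × ι) a => p a i.1 i.2) p1
    fun i => h.o_1 (w.ap i.1 i.2)
  obtain ⟨C4, c4, k4⟩ := OO.fin (F := fun (i : β × ι) a => q a i.1 i.2) p1
    fun i => h.o_1 (w.aq i.1 i.2)
  obtain ⟨C5, c5, k5⟩ := OO.fin (F := fun (i : β × ι) a z => p a i.1 i.2 z - q a i.1 i.2 z)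
    h.sz.B.r0 fun i => h.o_r (w.ad i.1 i.2)
  obtain ⟨C6, c6, k6⟩ := OO.fin (F := fun (i : ι) a => (σ a).D i ((σ a).Λ (W a))) h.sz.e0
    fun i => h.o_e (h.x1 h.L1 i)
  obtain ⟨C7, c7, k7⟩ := OO.fin (F := fun (i : ι) a => (σ a).D i ((τ a).Λ (W a))) h.sz.e0
    fun i => h.o_e (h.x1 h.L2 i)
  obtain ⟨C8, c8, k8⟩ := OO.fin (F := fun (i : ι) a => (τ a).D i ((σ a).Λ (W a))) h.sz.e0
    fun i => h.o_e (h.x2 h.L1 i)
  obtain ⟨C9, c9, k9⟩ := OO.fin (F := fun (i : ι) a => (τ a).D i ((τ a).Λ (W a))) h.sz.e0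
    fun i => h.o_e (h.x2 h.L2 i)
  have her : ∀ a, ∀ z ∈ U a, 0 ≤ er r e a z := fun a z hz =>
    mul_nonneg (h.sz.e0 a z hz) (h.sz.B.r0 a z hz)
  obtain ⟨C0, c0, k0⟩ := OO.fin (F := fun (i : ι) a z => (σ a).D i ((σ a).Λ (W a)) z -
      (σ a).D i ((τ a).Λ (W a)) z + ((τ a).D i ((σ a).Λ (W a)) z - (τ a).D i ((τ a).Λ (W a)) z))
    her fun i => (h.o_er (h.Ld.dP h.sz i)).congr fun a z hz => by
      rw [h.Dp a i, D_sub (σ a) (h.ok a).op (h.L1.sm a) (h.L2.sm a) i hz,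
        D_sub (τ a) (h.ok a).op (h.L1.sm a) (h.L2.sm a) i hz]
  set C := C0 + C1 + C2 + C3 + C4 + C5 + C6 + C7 + C8 + C9 with hC
  have C0' : 0 ≤ C := by positivity
  refine ⟨An.c3 (Fintype.card ι) (Fintype.card β) C, ?_, fun a z hz g hg h1 A B x y => ?_⟩
  · unfold An.c3
    positivity
  have e0 := h.sz.e0 a z hz
  have r0 := h.sz.B.r0 a z hz
  refine third_arith C0' e0 r0 hg h1 (fun i j => ?_) (fun i j => ?_) (fun b i => ?_)
    (fun b i => ?_) (fun b i => ?_) (w.fp a z hz) (w.fq a z hz) (fun i => ?_) (fun i => ?_)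
    (fun i => ?_) (fun i => ?_) (fun i => ?_)
  · refine (k1 (i, j) a z hz).trans ?_
    simp only [o1, mul_one]; linarith
  · refine (k2 (i, j) a z hz).trans ?_
    simp only [o1, mul_one]; linarith
  · refine (k3 (b, i) a z hz).trans ?_
    simp only [o1, mul_one]; linarith
  · refine (k4 (b, i) a z hz).trans ?_
    simp only [o1, mul_one]; linarith
  · exact (k5 (b, i) a z hz).trans (mul_le_mul_of_nonneg_right (by linarith) r0)
  · exact (k6 i a z hz).trans (mul_le_mul_of_nonneg_right (by linarith) e0)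
  · exact (k7 i a z hz).trans (mul_le_mul_of_nonneg_right (by linarith) e0)
  · exact (k8 i a z hz).trans (mul_le_mul_of_nonneg_right (by linarith) e0)
  · exact (k9 i a z hz).trans (mul_le_mul_of_nonneg_right (by linarith) e0)
  · exact (k0 i a z hz).trans (mul_le_mul_of_nonneg_right (by linarith) (her a z hz))

/-- `Γ(W, v)`. -/
theorem Gv1 (h : Wb P Q σ τ U θ r e N W) {v : α → E → ℝ}
    (hv : ∀ i, OO U o1 fun a => (σ a).D i (v a)) : OO U (er r e) fun a => (σ a).Γ (W a) (v a) :=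
  (OO.fsum fun i => OO.fsum fun j => (((h.o_1 (h.s1 i j)).mul (h.o_er (h.w1 i))).mul
    (hv j)).gcongr fun a z _ => by simp [o1])

theorem Gv2 (h : Wb P Q σ τ U θ r e N W) {v : α → E → ℝ}
    (hv : ∀ i, OO U o1 fun a => (τ a).D i (v a)) : OO U (er r e) fun a => (τ a).Γ (W a) (v a) :=
  (OO.fsum fun i => OO.fsum fun j => (((h.o_1 (h.s2 i j)).mul (h.o_er (h.w2 i))).mul
    (hv j)).gcongr fun a z _ => by simp [o1])

end Wb

/-- The size of the error of the zero order terms. -/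
def eQ (r e N : α → E → ℝ) (a : α) (z : E) : ℝ := eT r e N a z + e a z

/-- The final arithmetic. -/
theorem qn_arith {Z0 Z1 l1 l2 l3 g1 g2 x y T R ee S AB gw C0 C1 C2 C3 C4 C5 C6 : ℝ}
    (c0 : 0 ≤ C0) (c1 : 0 ≤ C1) (c2 : 0 ≤ C2) (c3 : 0 ≤ C3) (c4 : 0 ≤ C4) (c5 : 0 ≤ C5)
    (c6 : 0 ≤ C6) (e0 : 0 ≤ ee) (S0 : 0 ≤ S) (AB0 : 0 ≤ AB) (gw0 : 0 ≤ gw) (T0 : 0 ≤ T)
    (hR : R ≤ T) (a0 : |Z0| ≤ C0 * (S + T * (x ^ 2 + y ^ 2)))
    (a1 : |Z1| ≤ C1 * (S + R * (x ^ 2 + y ^ 2) + AB + gw)) (a2 : |l1| ≤ C2 * ee)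
    (a3 : |l2| ≤ C3 * ee) (a4 : |l3| ≤ C4 * ee) (a5 : |g1| ≤ C5 * ee) (a6 : |g2| ≤ C6 * ee) :
    |-(8 * Z0) - 8 * Z1 + 2 * (l1 * x ^ 2 + 2 * (l2 * (x * y)) + l3 * y ^ 2) +
      4 * (g1 * x ^ 2 + g2 * y ^ 2)| ≤
    (8 * C0 + 8 * C1 + 2 * C2 + 2 * C3 + 2 * C4 + 4 * C5 + 4 * C6) *
      (S + AB + gw + (T + ee) * (x ^ 2 + y ^ 2)) := by
  have X0 : 0 ≤ x ^ 2 + y ^ 2 := by positivity
  have b2 : |l1 * x ^ 2| ≤ C2 * ee * (x ^ 2 + y ^ 2) := by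
    rw [abs_mul, abs_of_nonneg (sq_nonneg x)]
    refine (mul_le_mul_of_nonneg_right a2 (sq_nonneg x)).trans ?_
    exact mul_le_mul_of_nonneg_left (by linarith [sq_nonneg y]) (by positivity)
  have b3 : |2 * (l2 * (x * y))| ≤ C3 * ee * (x ^ 2 + y ^ 2) := by
    rw [abs_mul, abs_mul, abs_two]
    have h5 : 2 * |x * y| ≤ x ^ 2 + y ^ 2 := by
      rw [abs_mul]
      nlinarith [sq_nonneg (|x| - |y|), sq_abs x, sq_abs y]
    calc 2 * (|l2| * |x * y|) = |l2| * (2 * |x * y|) := by ring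
      _ ≤ (C3 * ee) * (x ^ 2 + y ^ 2) := mul_le_mul a3 h5 (by positivity) (by positivity)
  have b4 : |l3 * y ^ 2| ≤ C4 * ee * (x ^ 2 + y ^ 2) := by
    rw [abs_mul, abs_of_nonneg (sq_nonneg y)]
    refine (mul_le_mul_of_nonneg_right a4 (sq_nonneg y)).trans ?_
    exact mul_le_mul_of_nonneg_left (by linarith [sq_nonneg x]) (by positivity)
  have b5 : |g1 * x ^ 2| ≤ C5 * ee * (x ^ 2 + y ^ 2) := by
    rw [abs_mul, abs_of_nonneg (sq_nonneg x)]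
    refine (mul_le_mul_of_nonneg_right a5 (sq_nonneg x)).trans ?_
    exact mul_le_mul_of_nonneg_left (by linarith [sq_nonneg y]) (by positivity)
  have b6 : |g2 * y ^ 2| ≤ C6 * ee * (x ^ 2 + y ^ 2) := by
    rw [abs_mul, abs_of_nonneg (sq_nonneg y)]
    refine (mul_le_mul_of_nonneg_right a6 (sq_nonneg y)).trans ?_
    exact mul_le_mul_of_nonneg_left (by linarith [sq_nonneg x]) (by positivity)
  have k1 : |-(8 * Z0) - 8 * Z1 + 2 * (l1 * x ^ 2 + 2 * (l2 * (x * y)) + l3 * y ^ 2) +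
      4 * (g1 * x ^ 2 + g2 * y ^ 2)| ≤ 8 * |Z0| + 8 * |Z1| +
      2 * (|l1 * x ^ 2| + |2 * (l2 * (x * y))| + |l3 * y ^ 2|) +
      4 * (|g1 * x ^ 2| + |g2 * y ^ 2|) := by
    have h := fun t : ℝ => le_abs_self t
    have h' := fun t : ℝ => neg_abs_le t
    rw [abs_le]
    constructor
    · linarith [h Z0, h Z1, h' (l1 * x ^ 2), h' (2 * (l2 * (x * y))), h' (l3 * y ^ 2),
        h' (g1 * x ^ 2), h' (g2 * y ^ 2)]
    · linarith [h' Z0, h' Z1, h (l1 * x ^ 2), h (2 * (l2 * (x * y))), h (l3 * y ^ 2),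
        h (g1 * x ^ 2), h (g2 * y ^ 2)]
  refine k1.trans ?_
  clear k1
  generalize x ^ 2 + y ^ 2 = X at *
  have v1 : R * X ≤ T * X := mul_le_mul_of_nonneg_right hR X0
  have v2 := mul_le_mul_of_nonneg_left v1 c1
  have w1 := mul_nonneg T0 X0
  have w2 := mul_nonneg e0 X0
  have y0 := mul_nonneg c0 (add_nonneg (add_nonneg AB0 gw0) w2)
  have y1 := mul_nonneg c1 w2
  have z0 : 0 ≤ S + AB + gw + T * X := by linarith
  have y2 := mul_nonneg c2 z0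
  have y3 := mul_nonneg c3 z0
  have y4 := mul_nonneg c4 z0
  have y5 := mul_nonneg c5 z0
  have y6 := mul_nonneg c6 z0
  linarith

/-- **The quantum part near the diagonal.** -/
theorem Wb.qf (h : Wb P Q σ τ U θ r e N W) (w : Wf P Q σ τ U r p q) {v₁ v₂ : α → E → ℝ}
    (hv₁ : ∀ i, OO U o1 fun a => (σ a).D i (v₁ a)) (hv₂ : ∀ i, OO U o1 fun a => (τ a).D i (v₂ a)) :
    ∃ C, 0 ≤ C ∧ ∀ a, ∀ z ∈ U a, ∀ g : ℝ, 0 ≤ g → 1 ≤ g * r a z ^ 2 →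
      ∀ (A B : ι → ℝ) (x y : ℝ), |qf (σ a) (τ a) (v₁ a) (v₂ a) (W a) z A B x y| ≤
      C * (e a z ^ 2 * (x + y) ^ 2 + ((∑ i, A i ^ 2) + ∑ i, B i ^ 2) +
        g * wq (p a) (q a) z A B + eQ r e N a z * (x ^ 2 + y ^ 2)) := by
  obtain ⟨C0, c0, k0⟩ := h.q0
  obtain ⟨C1, c1, k1⟩ := h.q1 w
  obtain ⟨h2, h3, h4⟩ := h.LL
  obtain ⟨C2, c2, k2⟩ := h2
  obtain ⟨C3, c3, k3⟩ := h3
  obtain ⟨C4, c4, k4⟩ := h4
  obtain ⟨C5, c5, k5⟩ := (h.Gv1 hv₁).le h.s0.er_le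
  obtain ⟨C6, c6, k6⟩ := (h.Gv2 hv₂).le h.s0.er_le
  refine ⟨8 * C0 + 8 * C1 + 2 * C2 + 2 * C3 + 2 * C4 + 4 * C5 + 4 * C6, by positivity,
    fun a z hz g hg h1 A B x y => ?_⟩
  have ez := h.sz.e0 a z hz
  have hT : e a z ^ 2 * r a z ^ 2 ≤ eT r e N a z := by
    have := mul_nonneg ez (h.sz.N0 a z hz)
    unfold eT; linarith
  have hT0 : 0 ≤ eT r e N a z := le_trans (by positivity) hT
  have hA : 0 ≤ (∑ i, A i ^ 2) + ∑ i, B i ^ 2 :=
    add_nonneg (Finset.sum_nonneg fun _ _ => sq_nonneg _) (Finset.sum_nonneg fun _ _ => sq_nonneg _)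
  exact qn_arith c0 c1 c2 c3 c4 c5 c6 ez (mul_nonneg (sq_nonneg _) (sq_nonneg _)) hA
    (mul_nonneg hg (wq_nonneg (p a) (q a) z A B)) hT0 hT (k0 a z hz x y)
    (k1 a z hz g hg h1 A B x y) (k2 a z hz) (k3 a z hz) (k4 a z hz) (k5 a z hz) (k6 a z hz)

end Vale.Agent.P088.R2.H814.An
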