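import Vale.Agent.P088.R2.H814.B2.Tp
import Mathlib.Analysis.Calculus.ContDiff.Bounds

/-!
# Smooth functions of tensors

`G ∘ f` for `G` smooth near a compact convex set which contains the values of `f`.
-/

open Set Filter
open scoped ContDiff Topology Matrix

noncomputable section

namespace Vale.Agent.P088.R2.H814.An

open Vale.Agent.P088.LR Vale.Agent.P088.HY
open Vale.Agent.P088.R2.H961.GW Vale.Agent.P088.R2.H644.Sy Vale.Agent.P088.R2.H464.Cu

variable {n k : ℕ} {α M H : Type*} [NormedAddCommGroup M] [NormedSpace ℝ M]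
  [NormedAddCommGroup H] [NormedSpace ℝ H]
  {U : α → Set (VV n)} {r : α → VV n → ℝ} {Ω K : Set M} {G : M → H} {f g : α → V n → M}

/-- A smooth function near a compact convex set. -/
structure Gc (Ω K : Set M) (G : M → H) : Prop where
  op : IsOpen Ω
  cp : IsCompact K
  cv : Convex ℝ K
  KO : K ⊆ Ω
  sm : ContDiffOn ℝ ∞ G Ω

theorem Gc.bd (h : Gc Ω K G) (i : ℕ) : ∃ C, 0 ≤ C ∧ ∀ x ∈ K, ‖iteratedFDeriv ℝ i G x‖ ≤ C := by
  have h1 : ContinuousOn (iteratedFDerivWithin ℝ i G Ω) Ω :=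
    h.sm.continuousOn_iteratedFDerivWithin (by exact_mod_cast le_top) h.op.uniqueDiffOn
  obtain ⟨C, hC⟩ := h.cp.exists_bound_of_continuousOn (h1.mono h.KO)
  refine ⟨|C|, abs_nonneg C, fun x hx => ?_⟩
  have := hC x hx
  rw [iteratedFDerivWithin_of_isOpen i h.op (h.KO hx)] at this
  exact this.trans (le_abs_self C)

/-- One bound for the first derivatives. -/
theorem Gc.bds (h : Gc Ω K G) (m : ℕ) :
    ∃ C, 0 ≤ C ∧ ∀ i ≤ m, ∀ x ∈ K, ‖iteratedFDeriv ℝ i G x‖ ≤ C := by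
  choose C h0 hC using h.bd
  refine ⟨∑ i ∈ Finset.range (m + 1), C i, Finset.sum_nonneg fun i _ => h0 i,
    fun i hi x hx => (hC i x hx).trans ?_⟩
  exact Finset.single_le_sum (f := C) (fun j _ => h0 j) (Finset.mem_range.2 (by omega))

/-- **Composition.** -/
theorem Gc.map (h : Gc Ω K G)
    (hf : Sf (fun _ => univ) (fun _ _ => 1) (fun _ _ => 1) k f) (hK : ∀ a x, f a x ∈ K) :
    Sf (fun _ => univ) (fun _ _ => 1) (fun _ _ => 1) k fun a x => G (f a x) := by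
  have hm : ∀ a, MapsTo (f a) univ Ω := fun a x _ => h.KO (hK a x)
  refine ⟨fun a => h.sm.comp (hf.sm a) (hm a), fun j hj => ?_⟩
  obtain ⟨C, hC0, hC⟩ := h.bds j
  have hb : ∀ i, ∃ D, 0 ≤ D ∧ (i ≤ k → ∀ a x, ‖iteratedFDeriv ℝ i (f a) x‖ ≤ D) := by
    intro i
    by_cases hi : i ≤ k
    · obtain ⟨D, hD⟩ := hf.bd i hi
      exact ⟨|D|, abs_nonneg D, fun _ a x => (hD a x (mem_univ x)).trans (by simp [le_abs_self])⟩
    · exact ⟨0, le_rfl, fun h' => absurd h' hi⟩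
  choose D hD0 hD using hb
  set T : ℝ := 1 + ∑ i ∈ Finset.range (j + 1), D i with hT
  have hs : 0 ≤ ∑ i ∈ Finset.range (j + 1), D i := Finset.sum_nonneg fun i _ => hD0 i
  have hT1 : 1 ≤ T := by rw [hT]; linarith
  refine ⟨(j.factorial : ℝ) * C * T ^ j, fun a x _ => ?_⟩
  have key := norm_iteratedFDerivWithin_comp_le (𝕜 := ℝ) (g := G) (f := f a) (n := j) (s := univ)
    (t := Ω) (x := x) h.sm (hf.sm a) (by exact_mod_cast le_top) h.op.uniqueDiffOn
    uniqueDiffOn_univ (hm a) (mem_univ x) (C := C) (D := T) ?_ ?_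
  · rw [iteratedFDerivWithin_univ] at key
    simpa [Function.comp_def] using key
  · intro i hi
    rw [iteratedFDerivWithin_of_isOpen i h.op (h.KO (hK a x))]
    exact hC i hi _ (hK a x)
  · intro i h1 hi
    rw [iteratedFDerivWithin_univ]
    have h2 : D i ≤ T := by
      have := Finset.single_le_sum (f := D) (fun j _ => hD0 j)
        (Finset.mem_range.2 (by omega : i < j + 1))
      rw [hT]
      linarith
    exact ((hD i (hi.trans hj) a x).trans h2).trans (le_self_pow₀ hT1 (by omega))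

theorem Gc.fd (h : Gc Ω K G) : Gc Ω K (fderiv ℝ G) :=
  ⟨h.op, h.cp, h.cv, h.KO, h.sm.fderiv_of_isOpen h.op (by norm_num)⟩

theorem Gc.df (h : Gc Ω K G) {x : M} (hx : x ∈ K) : DifferentiableAt ℝ G x :=
  ((h.sm x (h.KO hx)).contDiffAt (h.op.mem_nhds (h.KO hx))).differentiableAt (by simp)

theorem Gc.lip (h : Gc Ω K G) : ∃ C, 0 ≤ C ∧ ∀ x ∈ K, ∀ y ∈ K, ‖G x - G y‖ ≤ C * ‖x - y‖ := by
  obtain ⟨C, hC0, hC⟩ := h.bd 1
  refine ⟨C, hC0, fun x hx y hy => ?_⟩
  exact Convex.norm_image_sub_le_of_norm_fderiv_le (𝕜 := ℝ) (fun x hx => h.df hx)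
    (fun x hx => by rw [← norm_iteratedFDeriv_one]; exact hC x hx) h.cv hy hx

/-- Pairs of close functions. -/
structure Cv (U : α → Set (VV n)) (r : α → VV n → ℝ) (f g : α → V n → M) : Prop where
  d0 : ∃ C, ∀ a, ∀ z ∈ U a, ‖f a z.2 - g a z.2‖ ≤ C * r a z
  d1 : ∃ C, ∀ a, ∀ z ∈ U a, ‖fderiv ℝ (f a) z.2 - fderiv ℝ (g a) z.2‖ ≤ C * r a z

/-- **A smooth function of close functions.** -/
theorem Gc.cl {G : M → ℝ} (h : Gc Ω K G) (hr : ∀ a, ∀ z ∈ U a, 0 ≤ r a z)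
    (hf : Sf (fun _ => univ) (fun _ _ => 1) (fun _ _ => 1) (k + 1) f) (hK : ∀ a x, f a x ∈ K)
    (hg : Sf (fun _ => univ) (fun _ _ => 1) (fun _ _ => 1) (k + 1) g) (hK' : ∀ a x, g a x ∈ K)
    (c : Cv U r f g) : Cl U r (k + 1) (fun a x => G (f a x)) fun a x => G (g a x) := by
  obtain ⟨C0, h0⟩ := c.d0
  obtain ⟨C1, h1⟩ := c.d1
  obtain ⟨L, hL0, hL⟩ := h.lip
  obtain ⟨L', hL0', hL'⟩ := h.fd.lip
  obtain ⟨B, hB0, hB⟩ := h.bd 1
  obtain ⟨D, hD⟩ := (hf.fd fun _ => isOpen_univ).norm_le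
  have df : ∀ a x, DifferentiableAt ℝ (f a) x := fun a x =>
    ((contDiffOn_univ.1 (hf.sm a)).differentiable (by simp)) x
  have dg : ∀ a x, DifferentiableAt ℝ (g a) x := fun a x =>
    ((contDiffOn_univ.1 (hg.sm a)).differentiable (by simp)) x
  refine ⟨h.map hf hK, h.map hg hK', ⟨L * C0, fun a z hz => ?_⟩,
    ⟨L' * C0 * |D| + B * C1, fun a z hz i => ?_⟩⟩
  · have := hL _ (hK a z.2) _ (hK' a z.2)
    rw [Real.norm_eq_abs] at this
    refine this.trans ?_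
    rw [mul_assoc]
    exact mul_le_mul_of_nonneg_left (h0 a z hz) hL0
  · have e1 : fderiv ℝ (fun x => G (f a x)) z.2 =
        (fderiv ℝ G (f a z.2)).comp (fderiv ℝ (f a) z.2) :=
      ((h.df (hK a z.2)).hasFDerivAt.comp z.2 (df a z.2).hasFDerivAt).fderiv
    have e2 : fderiv ℝ (fun x => G (g a x)) z.2 =
        (fderiv ℝ G (g a z.2)).comp (fderiv ℝ (g a) z.2) :=
      ((h.df (hK' a z.2)).hasFDerivAt.comp z.2 (dg a z.2).hasFDerivAt).fderiv
    rw [e1, e2, ContinuousLinearMap.comp_apply, ContinuousLinearMap.comp_apply]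
    set v : V n := Pi.single i 1 with hv
    have hv1 : ‖v‖ ≤ 1 := by rw [hv, Pi.norm_single, norm_one]
    have e3 : fderiv ℝ G (f a z.2) (fderiv ℝ (f a) z.2 v) -
        fderiv ℝ G (g a z.2) (fderiv ℝ (g a) z.2 v) =
        (fderiv ℝ G (f a z.2) - fderiv ℝ G (g a z.2)) (fderiv ℝ (f a) z.2 v) +
        fderiv ℝ G (g a z.2) ((fderiv ℝ (f a) z.2 - fderiv ℝ (g a) z.2) v) := by
      simp only [_root_.sub_apply, map_sub]
      ring
    rw [e3]
    have hr0 := hr a z hz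
    have a0 := h0 a z hz
    have a1 := h1 a z hz
    have q0 := hL' _ (hK a z.2) _ (hK' a z.2)
    have q1 : ‖fderiv ℝ (f a) z.2 v‖ ≤ |D| := by
      refine ((fderiv ℝ (f a) z.2).le_opNorm v).trans ?_
      have := hD a z.2 (mem_univ _)
      have hD' : ‖fderiv ℝ (f a) z.2‖ ≤ |D| := this.trans (by simp [le_abs_self])
      calc ‖fderiv ℝ (f a) z.2‖ * ‖v‖ ≤ |D| * 1 :=
            mul_le_mul hD' hv1 (norm_nonneg _) (abs_nonneg _)
        _ = |D| := mul_one _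
    have q2 : ‖(fderiv ℝ (f a) z.2 - fderiv ℝ (g a) z.2) v‖ ≤ C1 * r a z := by
      refine (ContinuousLinearMap.le_opNorm _ v).trans ?_
      calc ‖fderiv ℝ (f a) z.2 - fderiv ℝ (g a) z.2‖ * ‖v‖ ≤ C1 * r a z * 1 :=
            mul_le_mul a1 hv1 (norm_nonneg _) ((norm_nonneg _).trans a1)
        _ = _ := mul_one _
    have q3 : ‖fderiv ℝ G (g a z.2)‖ ≤ B := by
      rw [← norm_iteratedFDeriv_one]; exact hB _ (hK' a z.2)
    have t1 : |(fderiv ℝ G (f a z.2) - fderiv ℝ G (g a z.2)) (fderiv ℝ (f a) z.2 v)| ≤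
        L' * (C0 * r a z) * |D| := by
      refine ((fderiv ℝ G (f a z.2) - fderiv ℝ G (g a z.2)).le_opNorm _).trans ?_
      refine mul_le_mul (q0.trans (mul_le_mul_of_nonneg_left a0 hL0')) q1 (norm_nonneg _) ?_
      exact mul_nonneg hL0' ((norm_nonneg _).trans a0)
    have t2 : |fderiv ℝ G (g a z.2) ((fderiv ℝ (f a) z.2 - fderiv ℝ (g a) z.2) v)| ≤
        B * (C1 * r a z) := by
      refine ((fderiv ℝ G (g a z.2)).le_opNorm _).trans ?_
      exact mul_le_mul q3 q2 (norm_nonneg _) hB0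
    refine (abs_add_le _ _).trans ((add_le_add t1 t2).trans (le_of_eq ?_))
    ring

end Vale.Agent.P088.R2.H814.An
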