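import Vale.Agent.P088.R2.H814.B2.Wb
import Vale.Agent.P088.R2.H86.Z.Abs

/-!
# The terms with `D Λ W` and `Λ Λ W` near the diagonal
-/

open Set Filter
open scoped ContDiff Topology

noncomputable section

namespace Vale.Agent.P088.R2.H814.An

section arith

variable {ι β : Type*} [Fintype ι] [Fintype β]

theorem sum2_le {S : ι → ι → ℝ} {L A : ι → ℝ} {s l : ℝ} (hS : ∀ i j, |S i j| ≤ s)
    (hL : ∀ i, |L i| ≤ l) (hs : 0 ≤ s) (hl : 0 ≤ l) :
    |∑ i, ∑ j, S i j * L i * A j| ≤ Fintype.card ι * (s * l) * ∑ j, |A j| := by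
  refine (Finset.abs_sum_le_sum_abs _ _).trans ?_
  have h : ∀ i, |∑ j, S i j * L i * A j| ≤ s * l * ∑ j, |A j| := by
    intro i
    refine (Finset.abs_sum_le_sum_abs _ _).trans ?_
    rw [Finset.mul_sum]
    refine Finset.sum_le_sum fun j _ => ?_
    rw [abs_mul, abs_mul]
    exact mul_le_mul_of_nonneg_right (mul_le_mul (hS i j) (hL i) (abs_nonneg _) hs) (abs_nonneg _)
  refine (Finset.sum_le_sum fun i _ => h i).trans (le_of_eq ?_)
  rw [Finset.sum_const, Finset.card_univ, nsmul_eq_mul]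
  ring

theorem sum1_le {p A : ι → ℝ} {s : ℝ} (hp : ∀ i, |p i| ≤ s) :
    |∑ i, p i * A i| ≤ s * ∑ i, |A i| := by
  refine (Finset.abs_sum_le_sum_abs _ _).trans ?_
  rw [Finset.mul_sum]
  refine Finset.sum_le_sum fun j _ => ?_
  rw [abs_mul]
  exact mul_le_mul_of_nonneg_right (hp j) (abs_nonneg _)

theorem sq_l1 (A : ι → ℝ) : (∑ i, |A i|) ^ 2 ≤ Fintype.card ι * ∑ i, A i ^ 2 := by
  have h := sq_sum_le_card_mul_sum_sq (s := Finset.univ) (f := fun i : ι => |A i|)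
  simpa [sq_abs] using h

/-- The difference of the raised vectors. -/
theorem up_dif {S S' : ι → ι → ℝ} {p q : β → ι → ℝ} {A B : ι → ℝ} {C r : ℝ}
    (hp : ∀ a i, |p a i| ≤ C) (hq : ∀ a i, |q a i| ≤ C) (hpq : ∀ a i, |p a i - q a i| ≤ C * r)
    (fp : ∀ i j, ∑ a, p a i * p a j = S i j) (fq : ∀ i j, ∑ a, q a i * q a j = S' i j) (i : ι) :
    |(∑ j, S i j * A j) - ∑ j, S' i j * B j| ≤
      C * (∑ a, |(∑ j, p a j * A j) - ∑ j, q a j * B j|) +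
        Fintype.card β * (C * r * (C * ∑ j, |B j|)) := by
  have e1 : (∑ j, S i j * A j) - ∑ j, S' i j * B j =
      (∑ a, p a i * ((∑ j, p a j * A j) - ∑ j, q a j * B j)) +
        ∑ a, (p a i - q a i) * ∑ j, q a j * B j := by
    have h1 : ∑ j, S i j * A j = ∑ a, p a i * ∑ j, p a j * A j := by
      simp only [← fp, Finset.sum_mul, Finset.mul_sum]
      rw [Finset.sum_comm]
      exact Finset.sum_congr rfl fun a _ => Finset.sum_congr rfl fun j _ => by ring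
    have h2 : ∑ j, S' i j * B j = ∑ a, q a i * ∑ j, q a j * B j := by
      simp only [← fq, Finset.sum_mul, Finset.mul_sum]
      rw [Finset.sum_comm]
      exact Finset.sum_congr rfl fun a _ => Finset.sum_congr rfl fun j _ => by ring
    rw [h1, h2, ← Finset.sum_sub_distrib, ← Finset.sum_add_distrib]
    exact Finset.sum_congr rfl fun a _ => by ring
  rw [e1]
  refine (abs_add_le _ _).trans (add_le_add ?_ ?_)
  · exact sum1_le fun a => hp a i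
  · refine (Finset.abs_sum_le_sum_abs _ _).trans ?_
    have h : ∀ a, |(p a i - q a i) * ∑ j, q a j * B j| ≤ C * r * (C * ∑ j, |B j|) := by
      intro a
      rw [abs_mul]
      exact mul_le_mul (hpq a i) (sum1_le fun j => hq a j) (abs_nonneg _)
        ((abs_nonneg _).trans (hpq a i))
    refine (Finset.sum_le_sum fun a _ => h a).trans (le_of_eq ?_)
    rw [Finset.sum_const, Finset.card_univ, nsmul_eq_mul]

theorem am_g {g r X Y : ℝ} (hg : 0 ≤ g) (h1 : 1 ≤ g * r ^ 2) (hX : 0 ≤ X) (hY : 0 ≤ Y) :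
    2 * (X * Y) ≤ r ^ 2 * X ^ 2 + g * Y ^ 2 := by
  have h : (2 * (X * Y)) ^ 2 ≤ (r ^ 2 * X ^ 2 + g * Y ^ 2) ^ 2 := by
    have h2 : (X * Y) ^ 2 ≤ g * r ^ 2 * (X * Y) ^ 2 := by
      have := mul_le_mul_of_nonneg_right h1 (sq_nonneg (X * Y))
      linarith
    nlinarith [sq_nonneg (r ^ 2 * X ^ 2 - g * Y ^ 2)]
  exact (abs_le_of_sq_le_sq' h (by positivity)).2

/-- The first bound of the third order terms. -/
theorem third_1 {S S' : ι → ι → ℝ} {p q : β → ι → ℝ} {L₁ L₂ M₁ M₂ A B : ι → ℝ}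
    {C e r b c : ℝ} (hC : 0 ≤ C) (he : 0 ≤ e) (hr : 0 ≤ r)
    (hS : ∀ i j, |S i j| ≤ C) (hS' : ∀ i j, |S' i j| ≤ C)
    (hp : ∀ a i, |p a i| ≤ C) (hq : ∀ a i, |q a i| ≤ C) (hpq : ∀ a i, |p a i - q a i| ≤ C * r)
    (fp : ∀ i j, ∑ a, p a i * p a j = S i j) (fq : ∀ i j, ∑ a, q a i * q a j = S' i j)
    (hL₁ : ∀ i, |L₁ i| ≤ C * e) (hL₂ : ∀ i, |L₂ i| ≤ C * e) (hM₁ : ∀ i, |M₁ i| ≤ C * e)
    (hM₂ : ∀ i, |M₂ i| ≤ C * e) (hD : ∀ i, |L₁ i - L₂ i + (M₁ i - M₂ i)| ≤ C * (e * r)) :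
    |(b + c) * (∑ i, ∑ j, S i j * L₁ i * A j) + (b - c) * (∑ i, ∑ j, S i j * L₂ i * A j) +
      (b + c) * (∑ i, ∑ j, S' i j * M₁ i * B j) + (b - c) * (∑ i, ∑ j, S' i j * M₂ i * B j)| ≤
    |b| * (Fintype.card ι * (C * (2 * (C * e))) * (∑ j, |A j|) +
        Fintype.card ι * (C * (2 * (C * e))) * ∑ j, |B j|) +
      |c| * (Fintype.card ι * (2 * (C * e) *
        (C * (∑ a, |(∑ j, p a j * A j) - ∑ j, q a j * B j|) +
        Fintype.card β * (C * r * (C * ∑ j, |B j|)))) +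
        Fintype.card ι * (C * (C * (e * r))) * ∑ j, |B j|) := by
  have B0 : 0 ≤ ∑ j, |B j| := Finset.sum_nonneg fun _ _ => abs_nonneg _
  have W0 : 0 ≤ ∑ a, |(∑ j, p a j * A j) - ∑ j, q a j * B j| :=
    Finset.sum_nonneg fun _ _ => abs_nonneg _
  -- the decomposition
  have e1 : (b + c) * (∑ i, ∑ j, S i j * L₁ i * A j) + (b - c) * (∑ i, ∑ j, S i j * L₂ i * A j) +
      (b + c) * (∑ i, ∑ j, S' i j * M₁ i * B j) + (b - c) * (∑ i, ∑ j, S' i j * M₂ i * B j) =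
      b * ((∑ i, ∑ j, S i j * (L₁ i + L₂ i) * A j) + ∑ i, ∑ j, S' i j * (M₁ i + M₂ i) * B j) +
      c * ((∑ i, (L₁ i - L₂ i) * ((∑ j, S i j * A j) - ∑ j, S' i j * B j)) +
        ∑ i, ∑ j, S' i j * (L₁ i - L₂ i + (M₁ i - M₂ i)) * B j) := by
    have h1 : ∑ i, ∑ j, S i j * (L₁ i + L₂ i) * A j =
        (∑ i, ∑ j, S i j * L₁ i * A j) + ∑ i, ∑ j, S i j * L₂ i * A j := by
      simp only [← Finset.sum_add_distrib]
      exact Finset.sum_congr rfl fun i _ => Finset.sum_congr rfl fun j _ => by ring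
    have h2 : ∑ i, ∑ j, S' i j * (M₁ i + M₂ i) * B j =
        (∑ i, ∑ j, S' i j * M₁ i * B j) + ∑ i, ∑ j, S' i j * M₂ i * B j := by
      simp only [← Finset.sum_add_distrib]
      exact Finset.sum_congr rfl fun i _ => Finset.sum_congr rfl fun j _ => by ring
    have h3 : (∑ i, (L₁ i - L₂ i) * ((∑ j, S i j * A j) - ∑ j, S' i j * B j)) +
        ∑ i, ∑ j, S' i j * (L₁ i - L₂ i + (M₁ i - M₂ i)) * B j =
        (∑ i, ∑ j, S i j * L₁ i * A j) - (∑ i, ∑ j, S i j * L₂ i * A j) +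
        ((∑ i, ∑ j, S' i j * M₁ i * B j) - ∑ i, ∑ j, S' i j * M₂ i * B j) := by
      simp only [← Finset.sum_add_distrib, ← Finset.sum_sub_distrib]
      refine Finset.sum_congr rfl fun i _ => ?_
      rw [Finset.mul_sum, ← Finset.sum_add_distrib]
      exact Finset.sum_congr rfl fun j _ => by ring
    rw [h1, h2, h3]
    ring
  have b1 : |∑ i, ∑ j, S i j * (L₁ i + L₂ i) * A j| ≤
      Fintype.card ι * (C * (2 * (C * e))) * ∑ j, |A j| := by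
    refine sum2_le hS (fun i => (abs_add_le _ _).trans ?_) hC (by positivity)
    linarith [hL₁ i, hL₂ i]
  have b2 : |∑ i, ∑ j, S' i j * (M₁ i + M₂ i) * B j| ≤
      Fintype.card ι * (C * (2 * (C * e))) * ∑ j, |B j| := by
    refine sum2_le hS' (fun i => (abs_add_le _ _).trans ?_) hC (by positivity)
    linarith [hM₁ i, hM₂ i]
  have b3 : |∑ i, ∑ j, S' i j * (L₁ i - L₂ i + (M₁ i - M₂ i)) * B j| ≤
      Fintype.card ι * (C * (C * (e * r))) * ∑ j, |B j| := sum2_le hS' hD hC (by positivity)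
  have b4 : |∑ i, (L₁ i - L₂ i) * ((∑ j, S i j * A j) - ∑ j, S' i j * B j)| ≤
      Fintype.card ι * (2 * (C * e) * (C * (∑ a, |(∑ j, p a j * A j) - ∑ j, q a j * B j|) +
        Fintype.card β * (C * r * (C * ∑ j, |B j|)))) := by
    refine (Finset.abs_sum_le_sum_abs _ _).trans ?_
    have h : ∀ i, |(L₁ i - L₂ i) * ((∑ j, S i j * A j) - ∑ j, S' i j * B j)| ≤
        2 * (C * e) * (C * (∑ a, |(∑ j, p a j * A j) - ∑ j, q a j * B j|) +
        Fintype.card β * (C * r * (C * ∑ j, |B j|))) := by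
      intro i
      rw [abs_mul]
      refine mul_le_mul ?_ (up_dif hp hq hpq fp fq i) (abs_nonneg _) (by positivity)
      refine (abs_sub _ _).trans ?_
      linarith [hL₁ i, hL₂ i]
    refine (Finset.sum_le_sum fun i _ => h i).trans (le_of_eq ?_)
    rw [Finset.sum_const, Finset.card_univ, nsmul_eq_mul]
  rw [e1]
  refine (abs_add_le _ _).trans (add_le_add ?_ ?_)
  · rw [abs_mul]
    exact mul_le_mul_of_nonneg_left ((abs_add_le _ _).trans (add_le_add b1 b2)) (abs_nonneg _)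
  · rw [abs_mul]
    exact mul_le_mul_of_nonneg_left ((abs_add_le _ _).trans (add_le_add b4 b3)) (abs_nonneg _)

/-- The scalar arithmetic of the third order terms. -/
theorem third_2 {n m C e r b c g A1 B1 W1 A2 B2 W2 : ℝ} (n0 : 0 ≤ n) (m0 : 0 ≤ m) (hC : 0 ≤ C)
    (he : 0 ≤ e) (hg : 0 ≤ g) (h1 : 1 ≤ g * r ^ 2) (W0 : 0 ≤ W1)
    (qA : A1 ^ 2 ≤ n * A2) (qB : B1 ^ 2 ≤ n * B2) (qW : W1 ^ 2 ≤ m * W2) :
    |b| * (n * (C * (2 * (C * e))) * A1 + n * (C * (2 * (C * e))) * B1) +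
      |c| * (n * (2 * (C * e) * (C * W1 + m * (C * r * (C * B1)))) +
        n * (C * (C * (e * r))) * B1) ≤
    n * C ^ 2 * (2 * (e ^ 2 * b ^ 2) + n * A2 + n * B2) +
      n * C ^ 2 * (e ^ 2 * r ^ 2 * c ^ 2 + g * (m * W2)) +
      n * C ^ 2 * (m * C + 1 / 2) * (e ^ 2 * r ^ 2 * c ^ 2 + n * B2) := by
  have f1 := two_mul_le_add_sq (|b| * e) A1
  have f2 := two_mul_le_add_sq (|b| * e) B1
  have f3 := two_mul_le_add_sq (|c| * e * r) B1
  have f4 := am_g hg h1 (mul_nonneg (abs_nonneg c) he) W0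
  have e1 : (|b| * e) ^ 2 = e ^ 2 * b ^ 2 := by rw [mul_pow, sq_abs]; ring
  have e2 : (|c| * e * r) ^ 2 = e ^ 2 * r ^ 2 * c ^ 2 := by
    rw [mul_pow, mul_pow, sq_abs]; ring
  have e3 : r ^ 2 * (|c| * e) ^ 2 = e ^ 2 * r ^ 2 * c ^ 2 := by rw [mul_pow, sq_abs]; ring
  have k0 : 0 ≤ n * C ^ 2 := by positivity
  have k1 : 0 ≤ n * C ^ 2 * (m * C + 1 / 2) := by positivity
  have g1 := mul_le_mul_of_nonneg_left (add_le_add f1 f2) k0
  have g2 := mul_le_mul_of_nonneg_left f4 k0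
  have g3 := mul_le_mul_of_nonneg_left f3 k1
  have g4 := mul_le_mul_of_nonneg_left (add_le_add qA qB) k0
  have g5 := mul_le_mul_of_nonneg_left (mul_le_mul_of_nonneg_left qW hg) k0
  have g6 := mul_le_mul_of_nonneg_left qB k1
  rw [e1] at g1
  rw [e3] at g2
  rw [e2] at g3
  linarith

/-- The constant. -/
def c3 (n m C : ℝ) : ℝ := n * C ^ 2 * (4 + 2 * n + m + (m * C + 1 / 2) * (n + 1))

/-- The arithmetic of the third order terms. -/
theorem third_arith {S S' : ι → ι → ℝ} {p q : β → ι → ℝ} {L₁ L₂ M₁ M₂ A B : ι → ℝ}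
    {C e r g x y : ℝ} (hC : 0 ≤ C) (he : 0 ≤ e) (hr : 0 ≤ r) (hg : 0 ≤ g) (h1 : 1 ≤ g * r ^ 2)
    (hS : ∀ i j, |S i j| ≤ C) (hS' : ∀ i j, |S' i j| ≤ C)
    (hp : ∀ a i, |p a i| ≤ C) (hq : ∀ a i, |q a i| ≤ C) (hpq : ∀ a i, |p a i - q a i| ≤ C * r)
    (fp : ∀ i j, ∑ a, p a i * p a j = S i j) (fq : ∀ i j, ∑ a, q a i * q a j = S' i j)
    (hL₁ : ∀ i, |L₁ i| ≤ C * e) (hL₂ : ∀ i, |L₂ i| ≤ C * e) (hM₁ : ∀ i, |M₁ i| ≤ C * e)
    (hM₂ : ∀ i, |M₂ i| ≤ C * e) (hD : ∀ i, |L₁ i - L₂ i + (M₁ i - M₂ i)| ≤ C * (e * r)) :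
    |x * (∑ i, ∑ j, S i j * L₁ i * A j) + y * (∑ i, ∑ j, S i j * L₂ i * A j) +
      x * (∑ i, ∑ j, S' i j * M₁ i * B j) + y * (∑ i, ∑ j, S' i j * M₂ i * B j)| ≤
    c3 (Fintype.card ι) (Fintype.card β) C *
      (e ^ 2 * (x + y) ^ 2 + e ^ 2 * r ^ 2 * (x ^ 2 + y ^ 2) + ((∑ i, A i ^ 2) + ∑ i, B i ^ 2) +
        g * ∑ a, ((∑ j, p a j * A j) - ∑ j, q a j * B j) ^ 2) := by
  obtain ⟨b, c, rfl, rfl⟩ : ∃ b c : ℝ, x = b + c ∧ y = b - c :=
    ⟨(x + y) / 2, (x - y) / 2, by ring, by ring⟩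
  have k1 := third_1 (A := A) (B := B) (b := b) (c := c) hC he hr hS hS' hp hq hpq fp fq hL₁ hL₂
    hM₁ hM₂ hD
  have k2 := third_2 (b := b) (c := c) (Nat.cast_nonneg (Fintype.card ι))
    (Nat.cast_nonneg (Fintype.card β)) hC he hg h1
    (Finset.sum_nonneg fun _ _ => abs_nonneg _ : 0 ≤ ∑ a, |(∑ j, p a j * A j) - ∑ j, q a j * B j|)
    (sq_l1 A) (sq_l1 B) (sq_l1 _)
  refine k1.trans (k2.trans ?_)
  have A0 : 0 ≤ ∑ i, A i ^ 2 := Finset.sum_nonneg fun _ _ => sq_nonneg _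
  have B0 : 0 ≤ ∑ i, B i ^ 2 := Finset.sum_nonneg fun _ _ => sq_nonneg _
  have W0 : 0 ≤ ∑ a, ((∑ j, p a j * A j) - ∑ j, q a j * B j) ^ 2 :=
    Finset.sum_nonneg fun _ _ => sq_nonneg _
  generalize (∑ i, A i ^ 2) = A2 at *
  generalize (∑ i, B i ^ 2) = B2 at *
  generalize (∑ a, ((∑ j, p a j * A j) - ∑ j, q a j * B j) ^ 2) = W2 at *
  generalize hn : (Fintype.card ι : ℝ) = n at *
  generalize hm : (Fintype.card β : ℝ) = m at *
  have n0 : 0 ≤ n := hn ▸ Nat.cast_nonneg _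
  have m0 : 0 ≤ m := hm ▸ Nat.cast_nonneg _
  have hG : 0 ≤ g * W2 := mul_nonneg hg W0
  clear k1 k2 hn hm
  have hb : b ^ 2 ≤ (b + c + (b - c)) ^ 2 := by nlinarith [sq_nonneg b]
  have hc : c ^ 2 ≤ (b + c) ^ 2 + (b - c) ^ 2 := by nlinarith [sq_nonneg b, sq_nonneg c]
  have t1 := mul_le_mul_of_nonneg_left hb (sq_nonneg e)
  have t2 := mul_le_mul_of_nonneg_left hc (by positivity : 0 ≤ e ^ 2 * r ^ 2)
  have k0 : 0 ≤ n * C ^ 2 := by positivity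
  have k1 : 0 ≤ m * C + 1 / 2 := by positivity
  set T1 := e ^ 2 * (b + c + (b - c)) ^ 2 with hT1
  set T2 := e ^ 2 * r ^ 2 * ((b + c) ^ 2 + (b - c) ^ 2) with hT2
  have z1 : 0 ≤ T1 := by positivity
  have z2 : 0 ≤ T2 := by positivity
  have key : (2 * (e ^ 2 * b ^ 2) + n * A2 + n * B2) + (e ^ 2 * r ^ 2 * c ^ 2 + g * (m * W2)) +
      (m * C + 1 / 2) * (e ^ 2 * r ^ 2 * c ^ 2 + n * B2) ≤
      (4 + 2 * n + m + (m * C + 1 / 2) * (n + 1)) * (T1 + T2 + (A2 + B2) + g * W2) := by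
    have u1 := mul_le_mul_of_nonneg_left t2 k1
    have v1 := mul_nonneg n0 (add_nonneg z1 z2)
    have v2 := mul_nonneg n0 (add_nonneg A0 B0)
    have v3 := mul_nonneg n0 hG
    have v4 := mul_nonneg m0 (add_nonneg (add_nonneg z1 z2) (add_nonneg A0 B0))
    have v5 := mul_nonneg k1 (add_nonneg z1 (add_nonneg (add_nonneg A0 B0) hG))
    have v6 := mul_nonneg k1 (mul_nonneg n0 (add_nonneg (add_nonneg z1 z2) (add_nonneg A0 hG)))
    linarith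
  have := mul_le_mul_of_nonneg_left key k0
  unfold c3
  linarith

end arith

end Vale.Agent.P088.R2.H814.An
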