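import Vale.Agent.P088.R2.H814.B2.Df

/-!
# The field `tot` of `HP` from the certificate of the Hessian form

The quantum part and the divergence terms of the fields are absorbed.
-/

open Set Filter
open scoped ContDiff Topology

noncomputable section

namespace Vale.Agent.P088.R2.H814.An

open Vale.Agent.P088.R2.H961.GW Vale.Agent.P088.R2.H960.W Vale.Agent.P088.R2.H644
  Vale.Agent.P088.R2.H747.S Vale.Agent.P088.R2.H86.Z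

variable {E ι β α : Type*} [NormedAddCommGroup E] [NormedSpace ℝ E] [Fintype ι] [Fintype β]
variable {P : ι → E} {Q : ι ⊕ ι → E} {σ τ : α → Sl E ι} {U : α → Set E} {θ : α → E → ℝ}
  {r e N : α → E → ℝ} {W : α → E → ℝ} {p q : α → β → ι → E → ℝ}

/-- The bounds of the fields at a point. -/
structure Fb (σ τ : Sl E ι) (U : Set E) (c c' : ι → E → ℝ) (e r A M : ℝ) (z : E) : Prop where
  hc : ∀ j, Sm U (c j)
  hc' : ∀ j, Sm U (c' j)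
  A0 : 0 ≤ A
  M0 : 0 ≤ M
  a1 : ∀ j, |c j z| ≤ A
  a2 : ∀ j, |c' j z| ≤ A
  ad : ∀ j, e * r * |c j z - c' j z| ≤ A * (e * r ^ 2 + M)
  dc : ∀ j, e * r ^ 2 * |σ.D j (c j) z| ≤ A * (e * r ^ 2 + M)
  dc' : ∀ j, e * r ^ 2 * |τ.D j (c' j) z| ≤ A * (e * r ^ 2 + M)

/-- The arithmetic. -/
theorem tot_arith {K₁ K₂ A Hh Q D X S wg T EM x y k L₀ ee es η F F' : ℝ}
    (h1 : |Q| ≤ K₁ * (es * S + X + wg + T * (x ^ 2 + y ^ 2)))
    (h2 : |D| ≤ K₂ * A * (es * S + (T + EM) * (x ^ 2 + y ^ 2)))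
    (hcert : (4 * k + (K₁ + 16 * K₂)) * X + (L₀ + (K₁ + 16 * K₂)) * wg ≤ Hh)
    (hF : (K₁ + 16 * K₂) * (1 + A) * (T + EM) ≤ η * (k * F))
    (hF' : (K₁ + 16 * K₂) * (1 + A) * (T + EM) ≤ η * (k * F'))
    (hK1 : 0 ≤ K₁) (hK2 : 0 ≤ K₂) (hA : 0 ≤ A) (hX : 0 ≤ X) (hS : 0 ≤ S) (hwg : 0 ≤ wg)
    (hT : 0 ≤ T) (hEM : 0 ≤ EM) (hes : 0 ≤ es) (hee : es ≤ ee) :
    4 * (k * X) + L₀ * wg - (K₁ + 16 * K₂) * (1 + A) * (ee * S) -
      η * (k * F * x ^ 2 + k * F' * y ^ 2) ≤ Hh + Q + 16 * D := by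
  have q1 := (abs_le.1 h1).1
  have q2 := (abs_le.1 h2).1
  have t1 := mul_le_mul_of_nonneg_right hF (sq_nonneg x)
  have t2 := mul_le_mul_of_nonneg_right hF' (sq_nonneg y)
  have t3 : es * S ≤ ee * S := mul_le_mul_of_nonneg_right hee hS
  have t4 := mul_le_mul_of_nonneg_left t3 (by positivity : 0 ≤ (K₁ + 16 * K₂) * (1 + A))
  have p1 : 0 ≤ K₂ * X := by positivity
  have p2 : 0 ≤ K₂ * wg := by positivity
  have p3 : 0 ≤ (K₁ * A + 16 * K₂) * (es * S) := by positivity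
  have p4 : 0 ≤ K₁ * A * (T * (x ^ 2 + y ^ 2)) := by positivity
  have p5 : 0 ≤ (K₁ * (1 + A) + 16 * K₂) * (EM * (x ^ 2 + y ^ 2)) := by positivity
  have p6 : 0 ≤ 16 * K₂ * (T * (x ^ 2 + y ^ 2)) := by positivity
  linarith

/-- **The field `tot` of `HP`.** -/
theorem Wb.tot (h : Wb P Q σ τ U θ r e N W) (w : Wf P Q σ τ U r p q) {v₁ v₂ : α → E → ℝ}
    (hv₁ : ∀ i, OO U o1 fun a => (σ a).D i (v₁ a)) (hv₂ : ∀ i, OO U o1 fun a => (τ a).D i (v₂ a)) :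
    ∃ K, 0 ≤ K ∧ ∀ a, ∀ z ∈ U a, ∀ (c c' : ι → E → ℝ) (A M : ℝ),
      Fb (σ a) (τ a) (U a) c c' (e a z) (r a z) A M z →
      ∀ g k L₀ ee η : ℝ, 0 ≤ g → 1 ≤ g * r a z ^ 2 → e a z ^ 2 ≤ ee →
      (∀ X Y : ι → ℝ, (4 * k + K) * ((∑ i, X i ^ 2) + ∑ i, Y i ^ 2) +
        (L₀ + K) * (g * wq (p a) (q a) z X Y) ≤
        8 * (Ch.TH (σ a) (τ a) (W a) z X Y + tc (σ a) c (W a) z X + tc (τ a) c' (W a) z Y)) →
      K * (1 + A) * (eQ r e N a z + e a z * M) ≤ η * (k * (σ a).F (W a) z) →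
      K * (1 + A) * (eQ r e N a z + e a z * M) ≤ η * (k * (τ a).F (W a) z) →
      ∀ (X Y : ι → ℝ) (x y : ℝ), 4 * (k * ((∑ i, X i ^ 2) + ∑ i, Y i ^ 2)) +
        L₀ * (g * wq (p a) (q a) z X Y) - K * (1 + A) * (ee * (x + y) ^ 2) -
        η * (k * (σ a).F (W a) z * x ^ 2 + k * (τ a).F (W a) z * y ^ 2) ≤
        8 * (Ch.TH (σ a) (τ a) (W a) z X Y + tc (σ a) c (W a) z X + tc (τ a) c' (W a) z Y) +
        Vale.Agent.P088.R2.H747.S.qf (σ a) (τ a) (v₁ a) (v₂ a) (W a) z X Y x y +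
        16 * (Vale.Agent.P088.R2.H960.W.dF (σ a) c (W a) z * x ^ 2 +
          Vale.Agent.P088.R2.H960.W.dF (τ a) c' (W a) z * y ^ 2) := by
  obtain ⟨K₁, k1, b1⟩ := h.qf w hv₁ hv₂
  obtain ⟨K₂, k2, b2⟩ := h.dF
  refine ⟨K₁ + 16 * K₂, by positivity, fun a z hz c c' A M f g k L₀ ee η hg h1 hee hcert hF hF'
    X Y x y => ?_⟩
  have ez := h.sz.e0 a z hz
  have hT0 : 0 ≤ eT r e N a z := le_trans (by positivity) (h.nb.hT a z hz)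
  have hX : 0 ≤ (∑ i, X i ^ 2) + ∑ i, Y i ^ 2 :=
    add_nonneg (Finset.sum_nonneg fun _ _ => sq_nonneg _) (Finset.sum_nonneg fun _ _ => sq_nonneg _)
  have c1 := b1 a z hz g hg h1 X Y x y
  have c2 := b2 a z hz c c' A M f.hc f.hc' f.A0 f.M0 f.a1 f.a2 f.ad f.dc f.dc' x y
  have c2' : |Vale.Agent.P088.R2.H960.W.dF (σ a) c (W a) z * x ^ 2 +
        Vale.Agent.P088.R2.H960.W.dF (τ a) c' (W a) z * y ^ 2| ≤
      K₂ * A * (e a z ^ 2 * (x + y) ^ 2 + (eQ r e N a z + e a z * M) * (x ^ 2 + y ^ 2)) := by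
    refine c2.trans (mul_le_mul_of_nonneg_left ?_ (mul_nonneg k2 f.A0))
    have : 0 ≤ e a z * (x ^ 2 + y ^ 2) := by positivity
    unfold eQ
    linarith
  exact tot_arith c1 c2' (hcert X Y) hF hF' k1 k2 f.A0 hX (sq_nonneg (x + y))
    (mul_nonneg hg (wq_nonneg (p a) (q a) z X Y)) (add_nonneg hT0 ez) (mul_nonneg ez f.M0)
    (sq_nonneg _) hee

end Vale.Agent.P088.R2.H814.An
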