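import Vale.Agent.P088.R2.H814.B2.AnV
import Vale.Agent.P088.R2.H814.B2.Mx

/-!
# Functions of `x` and of `y` as anisotropic symbols

`f(x) - g(y)` has order `1` if `f - g` and its first derivatives are `O(r)`.
-/

open Set Filter
open scoped ContDiff Topology Matrix

noncomputable section

namespace Vale.Agent.P088.R2.H814.An

open Vale.Agent.P088.LR Vale.Agent.P088.HY
open Vale.Agent.P088.R2.H961.GW Vale.Agent.P088.R2.H644.Sy Vale.Agent.P088.R2.H464.Cu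

variable {n k : ℕ} {α : Type*} {U : α → Set (VV n)} {r : α → VV n → ℝ} {f g : α → V n → ℝ}

/-- Functions of one point with bounded derivatives. -/
def S1 (k : ℕ) (f : α → V n → ℝ) : Prop :=
  Sf (fun _ => univ) (fun _ _ => 1) (fun _ _ => 1) k f

theorem S1.cd (h : S1 k f) (a : α) : ContDiff ℝ ∞ (f a) := contDiffOn_univ.1 (h.sm a)

theorem S1.df (h : S1 k f) (a : α) (x : V n) : DifferentiableAt ℝ (f a) x :=
  (h.cd a).differentiable (by simp) x

theorem S1.dir (h : S1 (k + 1) f) (v : V n) : S1 k fun a x => fderiv ℝ (f a) x v :=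
  ((h.fd fun _ => isOpen_univ).clm (fun _ => isOpen_univ)
    (ContinuousLinearMap.apply ℝ ℝ v)).wcongr fun a z _ => by simp

/-- The first variable. -/
theorem S1.x (B : Bs U r) (h : S1 k f) : AV U r (fun _ _ => 1) k 0 fun a z => f a z.1 :=
  An.of_sf B (Sf.compL (U := U) (fun _ => isOpen_univ) h (ContinuousLinearMap.fst ℝ (V n) (V n))
    (fun _ _ _ => mem_univ _) (fun _ _ _ => zero_le_one) fun _ _ _ => zero_le_one)

/-- The second variable. -/
theorem S1.y (B : Bs U r) (h : S1 k f) : AV U r (fun _ _ => 1) k 0 fun a z => f a z.2 :=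
  An.of_sf B (Sf.compL (U := U) (fun _ => isOpen_univ) h (ContinuousLinearMap.snd ℝ (V n) (V n))
    (fun _ _ _ => mem_univ _) (fun _ _ _ => zero_le_one) fun _ _ _ => zero_le_one)

/-- Lipschitz bound. -/
theorem S1.lip (h : S1 (k + 1) f) : ∃ C, 0 ≤ C ∧ ∀ a x y, |f a x - f a y| ≤ C * ‖x - y‖ := by
  obtain ⟨C, hC⟩ := (h.fd fun _ => isOpen_univ).norm_le
  refine ⟨|C|, abs_nonneg C, fun a x y => ?_⟩
  have := Convex.norm_image_sub_le_of_norm_fderiv_le (𝕜 := ℝ) (f := f a) (C := |C|)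
    (fun x _ => h.df a x) (fun x _ => (hC a x (mem_univ x)).trans (by simp [le_abs_self]))
    convex_univ (mem_univ y) (mem_univ x)
  simpa [Real.norm_eq_abs] using this

/-- A pair of close functions. -/
structure Cl (U : α → Set (VV n)) (r : α → VV n → ℝ) (k : ℕ) (f g : α → V n → ℝ) : Prop where
  f1 : S1 k f
  g1 : S1 k g
  d0 : ∃ C, ∀ a, ∀ z ∈ U a, |f a z.2 - g a z.2| ≤ C * r a z
  d1 : ∃ C, ∀ a, ∀ z ∈ U a, ∀ i, |fderiv ℝ (f a) z.2 (Pi.single i 1) -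
    fderiv ℝ (g a) z.2 (Pi.single i 1)| ≤ C * r a z

theorem dd_xy (hf : S1 k f) (hg : S1 k g) (a : α) (v z : VV n) :
    dd v (fun z : VV n => f a z.1 - g a z.2) z = fderiv ℝ (f a) z.1 v.1 - fderiv ℝ (g a) z.2 v.2 := by
  have h1 : HasFDerivAt (fun z : VV n => f a z.1)
      ((fderiv ℝ (f a) z.1).comp (ContinuousLinearMap.fst ℝ (V n) (V n))) z :=
    (hf.df a z.1).hasFDerivAt.comp z (hasFDerivAt_fst (𝕜 := ℝ) (E := V n) (F := V n) (p := z))
  have h2 : HasFDerivAt (fun z : VV n => g a z.2)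
      ((fderiv ℝ (g a) z.2).comp (ContinuousLinearMap.snd ℝ (V n) (V n))) z :=
    (hg.df a z.2).hasFDerivAt.comp z (hasFDerivAt_snd (𝕜 := ℝ) (E := V n) (F := V n) (p := z))
  have h3 := (h1.sub h2).fderiv
  have h4 : fderiv ℝ (fun z : VV n => f a z.1 - g a z.2) z =
      (fderiv ℝ (f a) z.1).comp (ContinuousLinearMap.fst ℝ (V n) (V n)) -
      (fderiv ℝ (g a) z.2).comp (ContinuousLinearMap.snd ℝ (V n) (V n)) := h3
  simp only [dd, h4]
  rfl

/-- **The difference has order `1`.** -/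
theorem Cl.ad (B : Bs U r) (h : Cl U r (k + 2) f g)
    (hxy : ∃ A, ∀ a, ∀ z ∈ U a, ‖z.1 - z.2‖ ≤ A * r a z) :
    AV U r (fun _ _ => 1) 1 1 fun a z => f a z.1 - g a z.2 := by
  obtain ⟨A, hA⟩ := hxy
  obtain ⟨C0, h0⟩ := h.d0
  obtain ⟨C1, h1⟩ := h.d1
  have p1 : ∀ a, ∀ z ∈ U a, (0 : ℝ) ≤ (fun (_ : α) (_ : VV n) => (1 : ℝ)) a z :=
    fun _ _ _ => zero_le_one
  have hs : ∀ a, Sm (U a) fun z => f a z.1 - g a z.2 := fun a =>
    (((h.f1.cd a).comp contDiff_fst).sub ((h.g1.cd a).comp contDiff_snd)).contDiffOn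
  refine ⟨⟨hs, ?_⟩, fun i => ⟨fun a => sm_dd (B.op a) (hs a) _, ?_⟩,
    fun l => ⟨fun a => sm_dd (B.op a) (hs a) _, ?_⟩⟩
  · obtain ⟨L, hL0, hL⟩ := h.f1.lip
    refine ⟨L * A + C0, fun a z hz => ?_⟩
    have e : f a z.1 - g a z.2 = (f a z.1 - f a z.2) + (f a z.2 - g a z.2) := by ring
    change |f a z.1 - g a z.2| ≤ (L * A + C0) * (1 * r a z ^ 1)
    rw [e, one_mul, pow_one, add_mul, mul_assoc]
    exact (abs_add_le _ _).trans (add_le_add ((hL a _ _).trans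
      (mul_le_mul_of_nonneg_left (hA a z hz) hL0)) (h0 a z hz))
  · obtain ⟨L, hL0, hL⟩ := (h.f1.dir (Pi.single i 1)).lip
    refine ⟨L * A + C1, fun a z hz => ?_⟩
    change |dd (Pd i) (fun z : VV n => f a z.1 - g a z.2) z| ≤ (L * A + C1) * (1 * r a z ^ 1)
    rw [dd_xy h.f1 h.g1]
    have e : fderiv ℝ (f a) z.1 (Pd i).1 - fderiv ℝ (g a) z.2 (Pd i).2 =
        (fderiv ℝ (f a) z.1 (Pi.single i 1) - fderiv ℝ (f a) z.2 (Pi.single i 1)) +
        (fderiv ℝ (f a) z.2 (Pi.single i 1) - fderiv ℝ (g a) z.2 (Pi.single i 1)) := by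
      simp only [Pd]; ring
    rw [e, one_mul, pow_one, add_mul, mul_assoc]
    exact (abs_add_le _ _).trans (add_le_add ((hL a _ _).trans
      (mul_le_mul_of_nonneg_left (hA a z hz) hL0)) (h1 a z hz i))
  · obtain ⟨K1, hK1⟩ := (h.f1.dir (Qd (n := n) l).1).norm_le
    obtain ⟨K2, hK2⟩ := (h.g1.dir (Qd (n := n) l).2).norm_le
    refine ⟨K1 + K2, fun a z hz => ?_⟩
    change |dd (Qd l) (fun z : VV n => f a z.1 - g a z.2) z| ≤ (K1 + K2) * (1 * r a z ^ (1 - 1))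
    rw [dd_xy h.f1 h.g1]
    have a1 := hK1 a z.1 (mem_univ _)
    have a2 := hK2 a z.2 (mem_univ _)
    rw [Real.norm_eq_abs] at a1 a2
    have := abs_sub (fderiv ℝ (f a) z.1 (Qd (n := n) l).1) (fderiv ℝ (g a) z.2 (Qd (n := n) l).2)
    simpa using this.trans (by linarith)

end Vale.Agent.P088.R2.H814.An
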