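import Vale.Agent.P088.R2.H814.B2.Zo
import Vale.Agent.P088.R2.H961.W.Mix

/-!
# The weight near the diagonal, in the letters of slots

`Wb`: two families of slots with the scale `1` on a space with slow directions `P i` and fast
directions `Q (inl i)`, `Q (inr i)`, `P i = Q (inl i) + Q (inr i)`, and a weight `W` whose first
derivatives are mixed symbols of order `1` (fast) and `2` (slow).
-/

open Set Filter
open scoped ContDiff Topology

noncomputable section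

namespace Vale.Agent.P088.R2.H814.An

open Vale.Agent.P088.R2.H961.GW
open Vale.Agent.P088.R2.H644.Ch (Lx G2 G2_eq' DD_comm Q4 Q4_s3)

variable {E ι α : Type*} [NormedAddCommGroup E] [NormedSpace ℝ E] [Fintype ι]

/-- The data. -/
structure Wb (P : ι → E) (Q : ι ⊕ ι → E) (σ τ : α → Sl E ι) (U : α → Set E) (θ : α → E → ℝ)
    (r e N : α → E → ℝ) (W : α → E → ℝ) : Prop where
  sz : Sz U r e N
  Ne : ∀ a, ∀ z ∈ U a, N a z ≤ e a z * r a z
  pq : ∀ i, P i = Q (Sum.inl i) + Q (Sum.inr i)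
  ok : ∀ a, (σ a).Ok (U a) (θ a)
  ot : ∀ a, (τ a).Ok (U a) (θ a)
  cm : ∀ a, Cm (σ a) (τ a) (U a)
  r1 : ∀ a z, (σ a).ρ z = 1
  r2 : ∀ a z, (τ a).ρ z = 1
  e1 : ∀ a i, (σ a).e i = Q (Sum.inl i)
  e2 : ∀ a i, (τ a).e i = Q (Sum.inr i)
  k1 : ∀ a i z, (σ a).k i z = 0
  k2 : ∀ a i z, (τ a).k i z = 0
  l1 : ∀ a, Lx (σ a) (U a)
  l2 : ∀ a, Lx (τ a) (U a)
  s1 : ∀ i j, An P Q U r (fun _ _ => 1) 3 0 fun a => (σ a).s i j
  s2 : ∀ i j, An P Q U r (fun _ _ => 1) 3 0 fun a => (τ a).s i j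
  sd : ∀ i j, An P Q U r (fun _ _ => 1) 1 1 fun a z => (σ a).s i j z - (τ a).s i j z
  Ws : ∀ a, Sm (U a) (W a)
  Wq : ∀ l, Mx P Q U r e N 3 1 fun a => dd (Q l) (W a)
  Wp : ∀ i, Mx P Q U r e N 3 2 fun a => dd (P i) (W a)

variable {P : ι → E} {Q : ι ⊕ ι → E} {σ τ : α → Sl E ι} {U : α → Set E} {θ : α → E → ℝ}
  {r e N : α → E → ℝ} {W : α → E → ℝ}

namespace Wb

omit [Fintype ι] in
theorem D_dd {σ : Sl E ι} {v : E} {i : ι} (h1 : ∀ z, σ.ρ z = 1) (he : σ.e i = v) (f : E → ℝ) :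
    σ.D i f = dd v f := by
  funext z
  rw [Sl.D, h1, he, one_mul]
  rfl

theorem D1 (h : Wb P Q σ τ U θ r e N W) (a : α) (i : ι) (f : E → ℝ) :
    (σ a).D i f = dd (Q (Sum.inl i)) f := D_dd (h.r1 a) (h.e1 a i) f

theorem D2 (h : Wb P Q σ τ U θ r e N W) (a : α) (i : ι) (f : E → ℝ) :
    (τ a).D i f = dd (Q (Sum.inr i)) f := D_dd (h.r2 a) (h.e2 a i) f

theorem Dp (h : Wb P Q σ τ U θ r e N W) (a : α) (i : ι) (f : E → ℝ) (z : E) :
    dd (P i) f z = (σ a).D i f z + (τ a).D i f z := by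
  rw [h.D1, h.D2, h.pq i]
  simp only [dd, map_add]

theorem s0 (h : Wb P Q σ τ U θ r e N W) : S0 U r e N where
  r0 := h.sz.B.r0
  r1 := h.sz.B.r1
  e0 := h.sz.e0
  N0 := h.sz.N0
  Ne := h.Ne

theorem o_1 (h : Wb P Q σ τ U θ r e N W) {k : ℕ} {f : α → E → ℝ}
    (hf : An P Q U r (fun _ _ => 1) k 0 f) : OO U o1 f :=
  (An.oo h.sz.B (fun _ _ _ => zero_le_one) hf).gcongr fun a z _ => by simp [o1]

theorem o_r (h : Wb P Q σ τ U θ r e N W) {k : ℕ} {f : α → E → ℝ}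
    (hf : An P Q U r (fun _ _ => 1) k 1 f) : OO U r f :=
  (An.oo h.sz.B (fun _ _ _ => zero_le_one) hf).gcongr fun a z _ => by simp

theorem o_e (h : Wb P Q σ τ U θ r e N W) {k : ℕ} {f : α → E → ℝ}
    (hf : Mx P Q U r e N k 0 f) : OO U e f :=
  (hf.oo h.sz).mono (A := 2) (by norm_num) fun a z hz => by
    have h1 := h.Ne a z hz
    have h2 := h.s0.er_le a z hz
    unfold er at h2
    rw [pow_zero, mul_one]
    linarith

theorem o_er (h : Wb P Q σ τ U θ r e N W) {k : ℕ} {f : α → E → ℝ}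
    (hf : Mx P Q U r e N k 1 f) : OO U (er r e) f :=
  (hf.oo h.sz).mono (A := 2) (by norm_num) fun a z hz => by
    have h1 := h.Ne a z hz
    unfold er
    rw [pow_one]
    linarith

theorem o_eq (h : Wb P Q σ τ U θ r e N W) {k : ℕ} {f : α → E → ℝ}
    (hf : Mx P Q U r e N k 2 f) : OO U (eq2 r e N) f := hf.oo h.sz

/-- Derivatives of the tensors. -/
theorem ds1 (h : Wb P Q σ τ U θ r e N W) (l i j : ι) :
    An P Q U r (fun _ _ => 1) 2 0 fun a => (σ a).D l ((σ a).s i j) :=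
  ((h.s1 i j).2.2 (Sum.inl l)).congr h.sz.B fun a z _ => by rw [h.D1]

theorem ds2 (h : Wb P Q σ τ U θ r e N W) (l i j : ι) :
    An P Q U r (fun _ _ => 1) 2 0 fun a => (τ a).D l ((τ a).s i j) :=
  ((h.s2 i j).2.2 (Sum.inr l)).congr h.sz.B fun a z _ => by rw [h.D2]

theorem dds1 (h : Wb P Q σ τ U θ r e N W) (k l i j : ι) :
    An P Q U r (fun _ _ => 1) 1 0 fun a => (σ a).D k ((σ a).D l ((σ a).s i j)) :=
  ((h.ds1 l i j).2.2 (Sum.inl k)).congr h.sz.B fun a z _ => by rw [h.D1]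

theorem dds2 (h : Wb P Q σ τ U θ r e N W) (k l i j : ι) :
    An P Q U r (fun _ _ => 1) 1 0 fun a => (τ a).D k ((τ a).D l ((τ a).s i j)) :=
  ((h.ds2 l i j).2.2 (Sum.inr k)).congr h.sz.B fun a z _ => by rw [h.D2]

/-- Derivatives of the weight. -/
theorem w1 (h : Wb P Q σ τ U θ r e N W) (i : ι) :
    Mx P Q U r e N 3 1 fun a => (σ a).D i (W a) :=
  (h.Wq (Sum.inl i)).congr fun a z _ => by rw [h.D1]

theorem w2 (h : Wb P Q σ τ U θ r e N W) (i : ι) :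
    Mx P Q U r e N 3 1 fun a => (τ a).D i (W a) :=
  (h.Wq (Sum.inr i)).congr fun a z _ => by rw [h.D2]

/-- A fast derivative in the first slot. -/
theorem x1 (h : Wb P Q σ τ U θ r e N W) {k j : ℕ} {f : α → E → ℝ}
    (hf : Mx P Q U r e N (k + 1) j f) (i : ι) :
    Mx P Q U r e N k (j - 1) fun a => (σ a).D i (f a) :=
  (hf.dQ h.sz (Sum.inl i)).congr fun a z _ => by rw [h.D1]

theorem x2 (h : Wb P Q σ τ U θ r e N W) {k j : ℕ} {f : α → E → ℝ}
    (hf : Mx P Q U r e N (k + 1) j f) (i : ι) :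
    Mx P Q U r e N k (j - 1) fun a => (τ a).D i (f a) :=
  (hf.dQ h.sz (Sum.inr i)).congr fun a z _ => by rw [h.D2]

/-- `D_i (D_j + D'_j) W`. -/
theorem p1 (h : Wb P Q σ τ U θ r e N W) (i j : ι) :
    Mx P Q U r e N 2 1 fun a z => (σ a).D i ((σ a).D j (W a)) z + (σ a).D i ((τ a).D j (W a)) z :=
  (h.x1 (h.Wp j) i).congr fun a z hz => by
    rw [← D_add (σ a) (h.ok a).op ((h.ok a).sD (h.Ws a) j) ((h.ot a).sD (h.Ws a) j) i hz]
    exact (D_congr (σ a) (h.ok a).op (fun z _ => h.Dp a j (W a) z) i hz).symm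

theorem p2 (h : Wb P Q σ τ U θ r e N W) (i j : ι) :
    Mx P Q U r e N 2 1 fun a z => (τ a).D i ((σ a).D j (W a)) z + (τ a).D i ((τ a).D j (W a)) z :=
  (h.x2 (h.Wp j) i).congr fun a z hz => by
    rw [← D_add (τ a) (h.ok a).op ((h.ok a).sD (h.Ws a) j) ((h.ot a).sD (h.Ws a) j) i hz]
    exact (D_congr (τ a) (h.ok a).op (fun z _ => h.Dp a j (W a) z) i hz).symm

/-- `(D_i + D'_i) (D_j + D'_j) W`. -/
theorem p3 (h : Wb P Q σ τ U θ r e N W) (i j : ι) :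
    Mx P Q U r e N 2 2 fun a z => (σ a).D i ((σ a).D j (W a)) z + (σ a).D i ((τ a).D j (W a)) z +
      (τ a).D i ((σ a).D j (W a)) z + (τ a).D i ((τ a).D j (W a)) z :=
  ((h.Wp j).dP h.sz i).congr fun a z hz => by
    have e1 := h.Dp a i (dd (P j) (W a)) z
    have e2 := D_congr (σ a) (h.ok a).op (fun z _ => h.Dp a j (W a) z) i hz
    have e3 := D_congr (τ a) (h.ok a).op (fun z _ => h.Dp a j (W a) z) i hz
    rw [D_add (σ a) (h.ok a).op ((h.ok a).sD (h.Ws a) j) ((h.ot a).sD (h.Ws a) j) i hz] at e2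
    rw [D_add (τ a) (h.ok a).op ((h.ok a).sD (h.Ws a) j) ((h.ot a).sD (h.Ws a) j) i hz] at e3
    rw [e1, e2, e3]
    ring

/-- `(D_l + D'_l) (s - s')`. -/
theorem dsd (h : Wb P Q σ τ U θ r e N W) (l i j : ι) :
    An P Q U r (fun _ _ => 1) 0 1 fun a z =>
      (σ a).D l ((σ a).s i j) z - (τ a).D l ((τ a).s i j) z :=
  ((h.sd i j).2.1 l).congr h.sz.B fun a z hz => by
    have e1 := h.Dp a l (fun z => (σ a).s i j z - (τ a).s i j z) z
    rw [D_sub (σ a) (h.ok a).op ((h.ok a).ss i j) ((h.ot a).ss i j) l hz,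
      D_sub (τ a) (h.ok a).op ((h.ok a).ss i j) ((h.ot a).ss i j) l hz,
      (h.cm a).s1 z hz l i j, (h.cm a).s2 z hz l i j] at e1
    rw [e1]
    ring

/-- **The second order data at points.** -/
theorem nb (h : Wb P Q σ τ U θ r e N W) :
    Nb U r e N (fun i j a => (σ a).s i j) (fun i j a => (τ a).s i j)
      (fun l i j a => (σ a).D l ((σ a).s i j)) (fun l i j a => (τ a).D l ((τ a).s i j))
      (fun k l i j a => (σ a).D k ((σ a).D l ((σ a).s i j)))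
      (fun k l i j a => (τ a).D k ((τ a).D l ((τ a).s i j)))
      (fun i j a => (σ a).D i ((σ a).D j (W a))) (fun i j a => (τ a).D i ((τ a).D j (W a)))
      (fun i j a => (σ a).D i ((τ a).D j (W a)))
      (fun i a => (σ a).D i (W a)) (fun i a => (τ a).D i (W a)) where
  sz := h.s0
  os i j := h.o_1 (h.s1 i j)
  os' i j := h.o_1 (h.s2 i j)
  osd i j := h.o_r (h.sd i j)
  oD l i j := h.o_1 (h.ds1 l i j)
  oD' l i j := h.o_1 (h.ds2 l i j)
  oDd l i j := h.o_r (h.dsd l i j)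
  oDD k l i j := h.o_1 (h.dds1 k l i j)
  oDD' k l i j := h.o_1 (h.dds2 k l i j)
  hH i j a z hz := DD_comm (h.ok a).op (h.r1 a) (h.Ws a) i j hz
  oH i j := h.o_e (h.x1 (h.w1 j) i)
  oP i j := h.o_er (h.p1 i j)
  oS i j := (h.o_eq (h.p3 i j)).congr fun a z hz => by
    rw [(h.cm a).cc (W a) (h.Ws a) z hz j i]; ring
  ow i := h.o_er (h.w1 i)
  owp i := (h.o_eq (h.Wp i)).congr fun a z _ => (h.Dp a i (W a) z).symm

/-- The zero order terms of the quantum part. -/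
theorem q0 (h : Wb P Q σ τ U θ r e N W) : ∃ C, 0 ≤ C ∧ ∀ a, ∀ z ∈ U a, ∀ x y : ℝ,
    |G2 (σ a) (W a) z * x ^ 2 + 2 * (M2 (σ a) (τ a) (W a) (W a) z * (x * y)) +
      G2 (τ a) (W a) z * y ^ 2| ≤ C * (e a z ^ 2 * (x + y) ^ 2 +
        eT r e N a z * (x ^ 2 + y ^ 2)) := by
  obtain ⟨C, h0, hC⟩ := h.nb.zero
  refine ⟨C, h0, fun a z hz x y => ?_⟩
  have e1 := G2_eq' (h.ok a) (h.r1 a) (h.l1 a) (h.Ws a) hz
  have e2 := G2_eq' (h.ot a) (h.r2 a) (h.l2 a) (h.Ws a) hz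
  have e3 : M2 (σ a) (τ a) (W a) (W a) z = mF (fun i j a => (σ a).s i j)
      (fun i j a => (τ a).s i j) (fun i j a => (σ a).D i ((τ a).D j (W a))) a z := by
    unfold M2 mF mN Sl.Γ
    rw [Q4_s3]
    simp only [Q4, Finset.mul_sum]
    refine Finset.sum_congr rfl fun i _ => Finset.sum_congr rfl fun j _ =>
      Finset.sum_congr rfl fun k _ => Finset.sum_congr rfl fun l _ => ?_
    ring
  rw [e1, e2, e3]
  exact hC a z hz x y

end Wb

end Vale.Agent.P088.R2.H814.An
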