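import Vale.Agent.P088.R2.H814.B2.AnV
import Vale.Agent.P088.R2.H814.B2.Mx

/-!
# The near weight `Φ(u) + e^u S(ρ)` as a mixed symbol

Its first derivatives are mixed symbols of order `1` (fast) and `2` (slow).
-/

open Set Filter
open scoped ContDiff Topology Matrix

noncomputable section

namespace Vale.Agent.P088.R2.H814.An

open Vale.Agent.P088.LR Vale.Agent.P088.HY
open Vale.Agent.P088.R2.H961.GW

variable {n k : ℕ} {α : Type*} {U : α → Set (VV n)} {r N u ρ W : α → VV n → ℝ} {Φ : α → ℝ → ℝ}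
  {S : ℝ → ℝ} {c : ℝ}

/-- The data of the near weight. -/
structure Nw (U : α → Set (VV n)) (r N u ρ W : α → VV n → ℝ) (Φ : α → ℝ → ℝ) (S : ℝ → ℝ)
    (c : ℝ) (k : ℕ) : Prop where
  B : Bs U r
  N0 : ∀ a, ∀ z ∈ U a, 0 ≤ N a z
  Ne : ∀ a, ∀ z ∈ U a, N a z ≤ Real.exp (u a z) * r a z
  du : Dn (Pd (n := n)) Qd U r (k + 1) u
  dρ : AV U r (fun _ _ => 1) (k + 1) 2 ρ
  hc : ∀ a, ∀ z ∈ U a, |ρ a z| ≤ c
  sS : ContDiff ℝ ∞ S
  S0 : S 0 = 0
  sΦ : ∀ a, ContDiff ℝ ∞ (Φ a)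
  bd : ∀ m, ∃ C, ∀ a, ∀ z ∈ U a, |iteratedDeriv (m + 1) (Φ a) (u a z)| ≤ C * N a z
  eW : ∀ a, ∀ z ∈ U a, W a z = Φ a (u a z) + Real.exp (u a z) * S (ρ a z)

namespace Nw

/-- The size of the stiff part. -/
def eu (u : α → VV n → ℝ) (a : α) (z : VV n) : ℝ := Real.exp (u a z)

theorem sz (h : Nw U r N u ρ W Φ S c k) : Sz U r (eu u) N where
  B := h.B
  e0 _ _ _ := (Real.exp_pos _).le
  N0 := h.N0

/-- The stiff part. -/
theorem st (h : Nw U r N u ρ W Φ S c k) :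
    AV U r (eu u) (k + 1) 2 fun a z => Real.exp (u a z) * S (ρ a z) :=
  an_weight h.B h.du h.dρ h.hc h.sS h.S0

/-- `Φ'(u)`. -/
theorem ph (h : Nw U r N u ρ W Φ S c k) :
    AV U r N (k + 1) 0 fun a z => deriv (Φ a) (u a z) := by
  have hD : ∀ a m t, HasDerivAt (iteratedDeriv m (Φ a)) (iteratedDeriv (m + 1) (Φ a) t) t := by
    intro a m t
    rw [iteratedDeriv_succ]
    exact (((h.sΦ a).differentiable_iteratedDeriv m (by exact_mod_cast ENat.coe_lt_top m))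
      t).hasDerivAt
  have hsm : ∀ a m, ContDiff ℝ ∞ (iteratedDeriv m (Φ a)) := by
    intro a m
    rw [iteratedDeriv_eq_iterate]
    exact (h.sΦ a).iterate_deriv m
  have key := An.comp (P := Pd (n := n)) (Q := Qd) h.B h.N0
    (F := fun a m => iteratedDeriv (m + 1) (Φ a)) h.du (fun a z _ m => hD a (m + 1) _)
    (fun a m => (hsm a (m + 1)).comp_contDiffOn (h.du.1 a)) h.bd
  exact key.congr h.B fun a z _ => by rw [zero_add, iteratedDeriv_one]

theorem Ws (h : Nw U r N u ρ W Φ S c k) (a : α) : Sm (U a) (W a) :=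
  (((h.sΦ a).comp_contDiffOn (h.du.1 a)).add (h.st.sm a)).congr fun z hz => h.eW a z hz

theorem dW (h : Nw U r N u ρ W Φ S c k) (v : VV n) (a : α) (z : VV n) (hz : z ∈ U a) :
    dd v (W a) z = dd v (fun z => Real.exp (u a z) * S (ρ a z)) z +
      deriv (Φ a) (u a z) * dd v (u a) z := by
  have e1 := dd_congr (h.B.op a) (h.eW a) v hz
  have e2 := dd_add (h.B.op a) ((h.sΦ a).comp_contDiffOn (h.du.1 a)) (h.st.sm a) v hz
  have e3 := dd_comp (h.B.op a) (h.du.1 a) (F := Φ a) v hz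
    (((h.sΦ a).differentiable (by simp)) _).hasDerivAt
  have e2' : dd v (fun z => Φ a (u a z) + Real.exp (u a z) * S (ρ a z)) z =
      dd v (fun z => Φ a (u a z)) z + dd v (fun z => Real.exp (u a z) * S (ρ a z)) z := e2
  rw [e1, e2', e3]
  ring

/-- **Fast derivatives.** -/
theorem Wq (h : Nw U r N u ρ W Φ S c k) (l : Fin n ⊕ Fin n) :
    Mx (Pd (n := n)) Qd U r (eu u) N k 1 fun a => dd (Qd l) (W a) := by
  refine ⟨_, _, h.st.2.2 l, ?_, fun a z hz => h.dW (Qd l) a z hz⟩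
  have := An.mul h.B h.N0 (fun _ _ _ => zero_le_one) (h.ph.pred) (h.du.2.2 l).pred
  exact this.wcongr fun a z _ => by simp

/-- **Slow derivatives.** -/
theorem Wp (h : Nw U r N u ρ W Φ S c k) (i : Fin n) :
    Mx (Pd (n := n)) Qd U r (eu u) N k 2 fun a => dd (Pd i) (W a) := by
  refine ⟨_, _, h.st.2.1 i, ?_, fun a z hz => h.dW (Pd i) a z hz⟩
  have := An.mul h.B h.N0 (fun _ _ _ => zero_le_one) (h.ph.pred) (h.du.2.1 i).pred
  exact this.wcongr fun a z _ => by simp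

end Nw

end Vale.Agent.P088.R2.H814.An
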