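import Vale.Agent.P088.R2.H814.B2.Qn
import Vale.Agent.P088.R2.H516.O.WB

/-!
# The pointwise bounds of the core (helper516's `WB`) from `Wb` with the scale `r + N / e`
-/

open Set Filter
open scoped ContDiff Topology

noncomputable section

namespace Vale.Agent.P088.R2.H814.An

open Vale.Agent.P088.R2.H961.GW Vale.Agent.P088.R2.H516.O
open Vale.Agent.P088.R2.H644.Ch (Lx G2)

variable {E ι α : Type*} [NormedAddCommGroup E] [NormedSpace ℝ E] [Fintype ι]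

variable {P : ι → E} {Q : ι ⊕ ι → E} {σ τ : α → Sl E ι} {U : α → Set E} {θ : α → E → ℝ}
  {r ρ e N : α → E → ℝ} {W : α → E → ℝ}

/-- The last row: `(D_i + D'_i) (Λ W - Λ' W)`. -/
theorem Wb.lp (h : Wb P Q σ τ U θ ρ e N W) (i : ι) :
    Mx P Q U ρ e N 0 1 fun a z => ((σ a).D i ((σ a).Λ (W a)) z + (τ a).D i ((σ a).Λ (W a)) z) -
      ((σ a).D i ((τ a).Λ (W a)) z + (τ a).D i ((τ a).Λ (W a)) z) :=
  (h.Ld.dP h.sz i).congr fun a z hz => by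
    rw [h.Dp, D_sub (σ a) (h.ok a).op ((h.ok a).sL (h.Ws a)) ((h.ot a).sL (h.Ws a)) i hz,
      D_sub (τ a) (h.ok a).op ((h.ok a).sL (h.Ws a)) ((h.ot a).sL (h.Ws a)) i hz]
    ring

/-- **helper516's `WB`.** -/
theorem Wb.w516 (h : Wb P Q σ τ U θ ρ e N W) (he : ∀ a, ∀ z ∈ U a, 0 < e a z)
    (hr0 : ∀ a, ∀ z ∈ U a, 0 ≤ r a z) (hr1 : ∀ a, ∀ z ∈ U a, r a z ≤ 1)
    (hρ : ∀ a, ∀ z ∈ U a, e a z * ρ a z = e a z * r a z + N a z)
    (h1 : ∀ a, ∀ z ∈ U a, ∀ i j, |(σ a).s i j z| ≤ 2)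
    (h2 : ∀ a, ∀ z ∈ U a, ∀ i j, |(τ a).s i j z| ≤ 2) :
    ∃ C, 0 ≤ C ∧ ∀ a, ∀ z ∈ U a, WB (σ a) (τ a) (W a) C (e a z) (r a z) (N a z) z := by
  have p1 : ∀ a, ∀ z ∈ U a, (0 : ℝ) ≤ o1 a z := fun _ _ _ => zero_le_one
  have pr : ∀ a, ∀ z ∈ U a, (0 : ℝ) ≤ ρ a z := h.sz.B.r0
  have per : ∀ a, ∀ z ∈ U a, 0 ≤ er ρ e a z := fun a z hz =>
    mul_nonneg (h.sz.e0 a z hz) (h.sz.B.r0 a z hz)
  have peq : ∀ a, ∀ z ∈ U a, 0 ≤ eq2 ρ e N a z := fun a z hz =>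
    add_nonneg (mul_nonneg (h.sz.e0 a z hz) (sq_nonneg _)) (h.sz.N0 a z hz)
  obtain ⟨C1, c1, k1⟩ := OO.fin (F := fun (i : ι × ι) a z =>
    (σ a).s i.1 i.2 z - (τ a).s i.1 i.2 z) pr fun i => h.o_r (h.sd i.1 i.2)
  obtain ⟨C2, c2, k2⟩ := OO.fin (F := fun (i : ι × ι × ι) a => (σ a).D i.1 ((σ a).s i.2.1 i.2.2))
    p1 fun i => h.o_1 (h.ds1 i.1 i.2.1 i.2.2)
  obtain ⟨C3, c3, k3⟩ := OO.fin (F := fun (i : ι × ι × ι) a => (τ a).D i.1 ((τ a).s i.2.1 i.2.2))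
    p1 fun i => h.o_1 (h.ds2 i.1 i.2.1 i.2.2)
  obtain ⟨C4, c4, k4⟩ := OO.fin (F := fun (i : ι × ι × ι) a z =>
    (σ a).D i.1 ((σ a).s i.2.1 i.2.2) z - (τ a).D i.1 ((τ a).s i.2.1 i.2.2) z)
    pr fun i => h.o_r (h.dsd i.1 i.2.1 i.2.2)
  obtain ⟨C5, c5, k5⟩ := OO.fin (F := fun (i : ι) a => (σ a).D i (W a)) per
    fun i => h.o_er (h.w1 i)
  obtain ⟨C6, c6, k6⟩ := OO.fin (F := fun (i : ι) a => (τ a).D i (W a)) per
    fun i => h.o_er (h.w2 i)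
  obtain ⟨C7, c7, k7⟩ := OO.fin (F := fun (i : ι) a z => (σ a).D i (W a) z + (τ a).D i (W a) z)
    peq fun i => (h.o_eq (h.Wp i)).congr fun a z _ => (h.Dp a i (W a) z).symm
  obtain ⟨C8, c8, k8⟩ := OO.fin (F := fun (i : ι × ι) a => (σ a).D i.1 ((σ a).D i.2 (W a)))
    h.sz.e0 fun i => h.o_e (h.x1 (h.w1 i.2) i.1)
  obtain ⟨C9, c9, k9⟩ := OO.fin (F := fun (i : ι × ι) a => (τ a).D i.1 ((τ a).D i.2 (W a)))
    h.sz.e0 fun i => h.o_e (h.x2 (h.w2 i.2) i.1)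
  obtain ⟨C10, c10, k10⟩ := OO.fin (F := fun (i : ι × ι) a => (σ a).D i.1 ((τ a).D i.2 (W a)))
    h.sz.e0 fun i => h.o_e (h.x1 (h.w2 i.2) i.1)
  obtain ⟨C11, c11, k11⟩ := OO.fin (F := fun (i : ι × ι) a z =>
    (σ a).D i.1 ((σ a).D i.2 (W a)) z + (σ a).D i.1 ((τ a).D i.2 (W a)) z) per
    fun i => h.o_er (h.p1 i.1 i.2)
  obtain ⟨C12, c12, k12⟩ := OO.fin (F := fun (i : ι × ι) a z =>
    (τ a).D i.1 ((σ a).D i.2 (W a)) z + (τ a).D i.1 ((τ a).D i.2 (W a)) z) per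
    fun i => h.o_er (h.p2 i.1 i.2)
  obtain ⟨C13, c13, k13⟩ := OO.fin (F := fun (i : ι × ι) a z =>
    ((σ a).D i.1 ((σ a).D i.2 (W a)) z + (σ a).D i.1 ((τ a).D i.2 (W a)) z) +
    ((τ a).D i.1 ((σ a).D i.2 (W a)) z + (τ a).D i.1 ((τ a).D i.2 (W a)) z)) peq
    fun i => (h.o_eq (h.p3 i.1 i.2)).congr fun a z _ => by ring
  obtain ⟨C14, c14, k14⟩ := OO.fin (F := fun (i : ι) a => (σ a).D i ((σ a).Λ (W a)))
    h.sz.e0 fun i => h.o_e (h.x1 h.L1 i)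
  obtain ⟨C15, c15, k15⟩ := OO.fin (F := fun (i : ι) a => (σ a).D i ((τ a).Λ (W a)))
    h.sz.e0 fun i => h.o_e (h.x1 h.L2 i)
  obtain ⟨C16, c16, k16⟩ := OO.fin (F := fun (i : ι) a => (τ a).D i ((σ a).Λ (W a)))
    h.sz.e0 fun i => h.o_e (h.x2 h.L1 i)
  obtain ⟨C17, c17, k17⟩ := OO.fin (F := fun (i : ι) a => (τ a).D i ((τ a).Λ (W a)))
    h.sz.e0 fun i => h.o_e (h.x2 h.L2 i)
  obtain ⟨C18, c18, k18⟩ := OO.fin (F := fun (i : ι) a z =>
    ((σ a).D i ((σ a).Λ (W a)) z + (τ a).D i ((σ a).Λ (W a)) z) -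
      ((σ a).D i ((τ a).Λ (W a)) z + (τ a).D i ((τ a).Λ (W a)) z)) per
    fun i => h.o_er (h.lp i)
  obtain ⟨C, hC⟩ : ∃ C, C = C1 + C2 + C3 + C4 + C5 + C6 + C7 + C8 + C9 + C10 + C11 + C12 + C13 +
    C14 + C15 + C16 + C17 + C18 := ⟨_, rfl⟩
  have C0 : 0 ≤ C := by rw [hC]; positivity
  refine ⟨4 * C, by positivity, fun a z hz => ?_⟩
  have e0 := he a z hz
  have n0 := h.sz.N0 a z hz
  have ρ0 := h.sz.B.r0 a z hz
  have ρ1 := h.sz.B.r1 a z hz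
  have R0 := hr0 a z hz
  have R1 := hr1 a z hz
  have eρ := hρ a z hz
  have q1 : 0 ≤ e a z * r a z + N a z := add_nonneg (mul_nonneg e0.le R0) n0
  have q2 : 0 ≤ e a z * r a z ^ 2 + N a z := add_nonneg (mul_nonneg e0.le (sq_nonneg _)) n0
  -- conversions
  have t1 : ∀ {x D : ℝ}, 0 ≤ D → D ≤ C → |x| ≤ D * o1 a z → |x| ≤ 4 * C := by
    intro x D h0 hD hx
    simp only [o1, mul_one] at hx
    linarith
  have te : ∀ {x D : ℝ}, 0 ≤ D → D ≤ C → |x| ≤ D * e a z → |x| ≤ 4 * C * e a z := by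
    intro x D h0 hD hx
    exact hx.trans (mul_le_mul_of_nonneg_right (by linarith) e0.le)
  have tr : ∀ {x D : ℝ}, 0 ≤ D → D ≤ C → |x| ≤ D * er ρ e a z →
      |x| ≤ 4 * C * (e a z * r a z + N a z) := by
    intro x D h0 hD hx
    unfold er at hx
    rw [eρ] at hx
    exact hx.trans (mul_le_mul_of_nonneg_right (by linarith) q1)
  have tq : ∀ {x D : ℝ}, 0 ≤ D → D ≤ C → |x| ≤ D * eq2 ρ e N a z →
      |x| ≤ 4 * C * (e a z * r a z ^ 2 + N a z) := by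
    intro x D h0 hD hx
    have w1 : eq2 ρ e N a z ≤ 4 * (e a z * r a z ^ 2 + N a z) := by
      unfold eq2
      have w2 : e a z * ρ a z ^ 2 = e a z * r a z ^ 2 + N a z * (r a z + ρ a z) := by
        have w3 : e a z * ρ a z ^ 2 = (e a z * ρ a z) * ρ a z := by ring
        have w4 : e a z * r a z * ρ a z = r a z * (e a z * ρ a z) := by ring
        rw [w3, eρ, add_mul, w4, eρ]; ring
      have w5 : N a z * (r a z + ρ a z) ≤ N a z * 2 :=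
        mul_le_mul_of_nonneg_left (by linarith) n0
      have w6 : 0 ≤ e a z * r a z ^ 2 := mul_nonneg e0.le (sq_nonneg _)
      rw [w2]
      linarith
    have w0 := peq a z hz
    calc |x| ≤ D * eq2 ρ e N a z := hx
      _ ≤ C * eq2 ρ e N a z := mul_le_mul_of_nonneg_right hD w0
      _ ≤ C * (4 * (e a z * r a z ^ 2 + N a z)) := mul_le_mul_of_nonneg_left w1 C0
      _ = _ := by ring
  have td : ∀ {x D : ℝ}, 0 ≤ D → D ≤ C → |x| ≤ D * ρ a z →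
      e a z * |x| ≤ 4 * C * (e a z * r a z + N a z) := by
    intro x D h0 hD hx
    have w1 : e a z * |x| ≤ e a z * (D * ρ a z) := mul_le_mul_of_nonneg_left hx e0.le
    have w2 : e a z * (D * ρ a z) = D * (e a z * r a z + N a z) := by rw [← eρ]; ring
    rw [w2] at w1
    exact w1.trans (mul_le_mul_of_nonneg_right (by linarith) q1)
  have b : ∀ {x y : ℝ}, x ≤ y → x ≤ y := id
  exact
    { s1 := h1 a z hz
      s2 := h2 a z hz
      sd := fun i j => td c1 (by rw [hC]; linarith) (k1 (i, j) a z hz)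
      t1 := fun l i j => t1 c2 (by rw [hC]; linarith) (k2 (l, i, j) a z hz)
      t2 := fun l i j => t1 c3 (by rw [hC]; linarith) (k3 (l, i, j) a z hz)
      td := fun l i j => td c4 (by rw [hC]; linarith) (k4 (l, i, j) a z hz)
      w1 := fun i => tr c5 (by rw [hC]; linarith) (k5 i a z hz)
      w2 := fun i => tr c6 (by rw [hC]; linarith) (k6 i a z hz)
      wp := fun i => tq c7 (by rw [hC]; linarith) (k7 i a z hz)
      h1 := fun i j => te c8 (by rw [hC]; linarith) (k8 (i, j) a z hz)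
      h2 := fun i j => te c9 (by rw [hC]; linarith) (k9 (i, j) a z hz)
      hm := fun i j => te c10 (by rw [hC]; linarith) (k10 (i, j) a z hz)
      p1 := fun i j => tr c11 (by rw [hC]; linarith) (k11 (i, j) a z hz)
      p2 := fun i j => tr c12 (by rw [hC]; linarith) (k12 (i, j) a z hz)
      pp := fun i j => tq c13 (by rw [hC]; linarith) (k13 (i, j) a z hz)
      l11 := fun i => te c14 (by rw [hC]; linarith) (k14 i a z hz)
      l12 := fun i => te c15 (by rw [hC]; linarith) (k15 i a z hz)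
      l21 := fun i => te c16 (by rw [hC]; linarith) (k16 i a z hz)
      l22 := fun i => te c17 (by rw [hC]; linarith) (k17 i a z hz)
      lp := fun i => tr c18 (by rw [hC]; linarith) (k18 i a z hz) }

end Vale.Agent.P088.R2.H814.An
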