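import Vale.Agent.P088.R2.H814.B2.Mx
import Vale.Agent.P088.R2.H644.W.Gam2

/-!
# The zero order part of the quantum terms near the diagonal

`G`, `G'`: the two `Γ₂`, `M`: the mixed square, in terms of the second derivatives
`H = ∂x∂x W`, `K = ∂y∂y W`, `M = ∂x∂y W`.  Near the diagonal `H + M = O(e r)`,
`H + M + K + Mᵀ = O(e r² + N)` and then `G - G' = O(e² r)`, `G + G' - 2 M = O(e² r² + e N)`.
-/

open Set Filter
open scoped ContDiff Topology

noncomputable section

namespace Vale.Agent.P088.R2.H814.An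

open Vale.Agent.P088.R2.H961.GW
open Vale.Agent.P088.R2.H644.Ch (Q4 Q4_s3 Q4_add Q4_cmul)

variable {X ι α : Type*} [Fintype ι] {U : α → Set X} {r e N : α → X → ℝ}

theorem Q4_anti {f : ι → ι → ι → ι → ℝ} (h : ∀ i j k l, f k l i j = -f i j k l) : Q4 f = 0 := by
  have h1 := Q4_s3 f
  have h2 : (fun a b k l => f k l a b) = fun a b k l => -1 * f a b k l := by
    funext a b k l
    rw [h a b k l]; ring
  rw [h2, Q4_cmul] at h1
  linarith

theorem OO.Q4 {g : α → X → ℝ} {f : ι → ι → ι → ι → α → X → ℝ} (h : ∀ i j k l, OO U g (f i j k l)) :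
    OO U g fun a z => Q4 fun i j k l => f i j k l a z :=
  OO.fsum fun i => OO.fsum fun j => OO.fsum fun k => OO.fsum fun l => h i j k l

/-- The sizes at points. -/
structure S0 (U : α → Set X) (r e N : α → X → ℝ) : Prop where
  r0 : ∀ a, ∀ z ∈ U a, 0 ≤ r a z
  r1 : ∀ a, ∀ z ∈ U a, r a z ≤ 1
  e0 : ∀ a, ∀ z ∈ U a, 0 ≤ e a z
  N0 : ∀ a, ∀ z ∈ U a, 0 ≤ N a z
  Ne : ∀ a, ∀ z ∈ U a, N a z ≤ e a z * r a z

/-- The size `e r`. -/
def er (r e : α → X → ℝ) (a : α) (z : X) : ℝ := e a z * r a z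

/-- The size `e r² + N`. -/
def eq2 (r e N : α → X → ℝ) (a : α) (z : X) : ℝ := e a z * r a z ^ 2 + N a z

/-- The size `e² r² + e N`. -/
def eT (r e N : α → X → ℝ) (a : α) (z : X) : ℝ := e a z ^ 2 * r a z ^ 2 + e a z * N a z

/-- The constant size. -/
def o1 (_ : α) (_ : X) : ℝ := 1

/-- Second order data at points. -/
structure Nb (U : α → Set X) (r e N : α → X → ℝ) (s s' : ι → ι → α → X → ℝ)
    (D D' : ι → ι → ι → α → X → ℝ) (DD DD' : ι → ι → ι → ι → α → X → ℝ)
    (H K M : ι → ι → α → X → ℝ) (w w' : ι → α → X → ℝ) : Prop where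
  sz : S0 U r e N
  os : ∀ i j, OO U o1 (s i j)
  os' : ∀ i j, OO U o1 (s' i j)
  osd : ∀ i j, OO U r fun a z => s i j a z - s' i j a z
  oD : ∀ l i j, OO U o1 (D l i j)
  oD' : ∀ l i j, OO U o1 (D' l i j)
  oDd : ∀ l i j, OO U r fun a z => D l i j a z - D' l i j a z
  oDD : ∀ k l i j, OO U o1 (DD k l i j)
  oDD' : ∀ k l i j, OO U o1 (DD' k l i j)
  hH : ∀ i j a z, z ∈ U a → H i j a z = H j i a z
  oH : ∀ i j, OO U e (H i j)
  oP : ∀ i j, OO U (er r e) fun a z => H i j a z + M i j a z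
  oS : ∀ i j, OO U (eq2 r e N) fun a z => H i j a z + M i j a z + K i j a z + M j i a z
  ow : ∀ i, OO U (er r e) (w i)
  owp : ∀ i, OO U (eq2 r e N) fun a z => w i a z + w' i a z

variable {s s' : ι → ι → α → X → ℝ} {D D' : ι → ι → ι → α → X → ℝ}
  {DD DD' : ι → ι → ι → ι → α → X → ℝ} {H K M : ι → ι → α → X → ℝ} {w w' : ι → α → X → ℝ}

omit [Fintype ι] in
theorem S0.eq2_le (z : S0 U r e N) : ∀ a, ∀ x ∈ U a, eq2 r e N a x ≤ 2 * er r e a x := by
  intro a x hx
  have h1 := z.Ne a x hx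
  have h2 : e a x * r a x ^ 2 ≤ e a x * r a x := by
    have h3 := z.r0 a x hx
    have h4 := z.r1 a x hx
    have h5 := z.e0 a x hx
    have : r a x ^ 2 ≤ r a x := by nlinarith
    exact mul_le_mul_of_nonneg_left this h5
  unfold eq2 er
  linarith

omit [Fintype ι] in
theorem S0.er_le (z : S0 U r e N) : ∀ a, ∀ x ∈ U a, er r e a x ≤ e a x := by
  intro a x hx
  unfold er
  exact mul_le_of_le_one_right (z.e0 a x hx) (z.r1 a x hx)

/-- The difference of the two second derivatives. -/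
theorem Nb.oB (h : Nb U r e N s s' D D' DD DD' H K M w w') (i j : ι) :
    OO U (er r e) fun a z => K i j a z - H i j a z := by
  have h1 := (h.oS i j).mono (by norm_num) h.sz.eq2_le
  refine ((h1.sub (h.oP i j)).sub (h.oP j i)).congr fun a z hz => ?_
  have := h.hH i j a z hz
  linarith

theorem Nb.oK (h : Nb U r e N s s' D D' DD DD' H K M w w') (i j : ι) : OO U e (K i j) :=
  (((h.oB i j).le h.sz.er_le).add (h.oH i j)).congr fun a z _ => by ring

theorem Nb.oM (h : Nb U r e N s s' D D' DD DD' H K M w w') (i j : ι) : OO U e (M i j) :=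
  (((h.oP i j).le h.sz.er_le).sub (h.oH i j)).congr fun a z _ => by ring

theorem Nb.ow' (h : Nb U r e N s s' D D' DD DD' H K M w w') (i : ι) : OO U (er r e) (w' i) :=
  (((h.owp i).mono (by norm_num) h.sz.eq2_le).sub (h.ow i)).congr fun a z _ => by ring

/-- `Γ₂` in numbers. -/
def gN (s : ι → ι → ℝ) (D : ι → ι → ι → ℝ) (DD : ι → ι → ι → ι → ℝ) (H : ι → ι → ℝ)
    (w : ι → ℝ) : ℝ :=
  Q4 (fun a b k l => s a b * s k l * H a k * H b l +
        2 * (s a b * D a k l * H b k * w l) +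
        1 / 2 * (s a b * DD a b k l * w k * w l) +
        -1 * (s k l * D l a b * w k * H a b)) +
      Q4 fun a b k l => 1 / 2 * (D a a b * D b k l * w k * w l) +
        -1 * (s k l * DD l a a b * w k * w b)

/-- The mixed square in numbers. -/
def mN (s s' : ι → ι → ℝ) (M : ι → ι → ℝ) : ℝ := Q4 fun a b k l => s' k l * s a b * M a k * M b l

/-- The three index product: the sum over the two slots is small. -/
theorem Nb.tri (h : Nb U r e N s s' D D' DD DD' H K M w w') (i j k l m p q t : ι) :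
    OO U (eT r e N) fun a z => s i j a z * D k l m a z * H p q a z * w t a z +
      s' i j a z * D' k l m a z * K p q a z * w' t a z := by
  have hT : ∀ a, ∀ z ∈ U a, e a z ^ 2 * r a z ^ 2 ≤ eT r e N a z := by
    intro a z hz
    have := mul_nonneg (h.sz.e0 a z hz) (h.sz.N0 a z hz)
    unfold eT; linarith
  have b1 : ∀ a, ∀ z ∈ U a, r a z * o1 a z * e a z * er r e a z ≤ 1 * eT r e N a z :=
    fun a z hz => by have := hT a z hz; unfold o1 er; linarith
  have b2 : ∀ a, ∀ z ∈ U a, o1 a z * r a z * e a z * er r e a z ≤ 1 * eT r e N a z :=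
    fun a z hz => by have := hT a z hz; unfold o1 er; linarith
  have b3 : ∀ a, ∀ z ∈ U a, o1 a z * o1 a z * er r e a z * er r e a z ≤ 1 * eT r e N a z :=
    fun a z hz => by have := hT a z hz; unfold o1 er; linarith
  have b4 : ∀ a, ∀ z ∈ U a, o1 a z * o1 a z * e a z * eq2 r e N a z ≤ 1 * eT r e N a z :=
    fun a z hz => by unfold o1 eq2 eT; linarith
  have q1 := OO.m4 (h.osd i j) (h.oD k l m) (h.oH p q) (h.ow t) zero_le_one b1
  have q2 := OO.m4 (h.os' i j) (h.oDd k l m) (h.oH p q) (h.ow t) zero_le_one b2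
  have q3 := OO.m4 (h.os' i j) (h.oD' k l m) (h.oB p q) (h.ow t) zero_le_one b3
  have q4 := OO.m4 (h.os' i j) (h.oD' k l m) (h.oK p q) (h.owp t) zero_le_one b4
  exact (((q1.add q2).sub q3).add q4).congr fun a z _ => by ring

/-- The size of the three index product. -/
theorem Nb.t0 (h : Nb U r e N s s' D D' DD DD' H K M w w') (i j k l m p q t : ι) :
    OO U (fun a z => e a z ^ 2 * r a z) fun a z => s i j a z * D k l m a z * H p q a z * w t a z :=
  OO.m4 (h.os i j) (h.oD k l m) (h.oH p q) (h.ow t) (A := 1) zero_le_one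
    fun a z _ => le_of_eq (by unfold o1 er; ring)

theorem Nb.t0' (h : Nb U r e N s s' D D' DD DD' H K M w w') (i j k l m p q t : ι) :
    OO U (fun a z => e a z ^ 2 * r a z)
      fun a z => s' i j a z * D' k l m a z * K p q a z * w' t a z :=
  OO.m4 (h.os' i j) (h.oD' k l m) (h.oK p q) (h.ow' t) (A := 1) zero_le_one
    fun a z _ => le_of_eq (by unfold o1 er; ring)

/-- Products with two first derivatives. -/
theorem Nb.c0 {f g : α → X → ℝ} (h : Nb U r e N s s' D D' DD DD' H K M w w') (hf : OO U o1 f)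
    (hg : OO U o1 g) (t p : ι) :
    OO U (fun a z => e a z ^ 2 * r a z ^ 2) fun a z => f a z * g a z * w t a z * w p a z :=
  OO.m4 hf hg (h.ow t) (h.ow p) (A := 1) zero_le_one fun a z _ => le_of_eq (by unfold o1 er; ring)

theorem Nb.c0' {f g : α → X → ℝ} (h : Nb U r e N s s' D D' DD DD' H K M w w') (hf : OO U o1 f)
    (hg : OO U o1 g) (t p : ι) :
    OO U (fun a z => e a z ^ 2 * r a z ^ 2) fun a z => f a z * g a z * w' t a z * w' p a z :=
  OO.m4 hf hg (h.ow' t) (h.ow' p) (A := 1) zero_le_one fun a z _ => le_of_eq (by unfold o1 er; ring)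

/-- The small part of the main term of `G + G' - 2 M`. -/
theorem Nb.main (h : Nb U r e N s s' D D' DD DD' H K M w w') (i j k l : ι) :
    OO U (eT r e N) fun a z =>
      s i j a z * s k l a z * H i k a z * H j l a z +
        s' i j a z * s' k l a z * K i k a z * K j l a z -
        2 * (s' k l a z * s i j a z * M i k a z * M j l a z) -
      (H i k a z * H j l a z * (s i j a z * (s k l a z - s' k l a z) -
        (s i j a z - s' i j a z) * s k l a z) +
      s i j a z * s k l a z * (H i k a z * (M j l a z - M l j a z) +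
        H j l a z * (M i k a z - M k i a z))) := by
  have hT : ∀ a, ∀ z ∈ U a, e a z ^ 2 * r a z ^ 2 ≤ eT r e N a z := by
    intro a z hz
    have := mul_nonneg (h.sz.e0 a z hz) (h.sz.N0 a z hz)
    unfold eT; linarith
  have r1 : OO U (eT r e N) fun a z => H i k a z * H j l a z * (s i j a z - s' i j a z) *
      (s k l a z - s' k l a z) :=
    OO.m4 (h.oH i k) (h.oH j l) (h.osd i j) (h.osd k l) zero_le_one
      fun a z hz => by have := hT a z hz; linarith
  have r2 : ∀ p q p' q' i j i' j', OO U (eT r e N) fun a z => H p q a z *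
      (K p' q' a z - H p' q' a z) * s i j a z * (s i' j' a z - s' i' j' a z) :=
    fun p q p' q' i j i' j' => OO.m4 (h.oH p q) (h.oB p' q') (h.os i j) (h.osd i' j') zero_le_one
      fun a z hz => by have := hT a z hz; unfold o1 er; linarith
  have r2' : ∀ p q p' q' i j i' j', OO U (eT r e N) fun a z => H p q a z *
      (K p' q' a z - H p' q' a z) * s' i j a z * (s i' j' a z - s' i' j' a z) :=
    fun p q p' q' i j i' j' => OO.m4 (h.oH p q) (h.oB p' q') (h.os' i j) (h.osd i' j') zero_le_one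
      fun a z hz => by have := hT a z hz; unfold o1 er; linarith
  have r3 : OO U (eT r e N) fun a z => (K i k a z - H i k a z) * (K j l a z - H j l a z) *
      s' i j a z * s' k l a z :=
    OO.m4 (h.oB i k) (h.oB j l) (h.os' i j) (h.os' k l) zero_le_one
      fun a z hz => by have := hT a z hz; unfold o1 er; linarith
  have r4 : ∀ p q p' q', OO U (eT r e N) fun a z => (H p q a z + M p q a z) * H p' q' a z *
      s i j a z * (s k l a z - s' k l a z) :=
    fun p q p' q' => OO.m4 (h.oP p q) (h.oH p' q') (h.os i j) (h.osd k l) zero_le_one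
      fun a z hz => by have := hT a z hz; unfold o1 er; linarith
  have r5 : OO U (eT r e N) fun a z => (H i k a z + M i k a z) * (H j l a z + M j l a z) *
      s i j a z * s' k l a z :=
    OO.m4 (h.oP i k) (h.oP j l) (h.os i j) (h.os' k l) zero_le_one
      fun a z hz => by have := hT a z hz; unfold o1 er; linarith
  have r6 : ∀ p q p' q', OO U (eT r e N) fun a z => H p q a z * (H p' q' a z + M p' q' a z +
      K p' q' a z + M q' p' a z) * s i j a z * s k l a z :=
    fun p q p' q' => OO.m4 (h.oH p q) (h.oS p' q') (h.os i j) (h.os k l) zero_le_one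
      fun a z _ => le_of_eq (by unfold o1 eq2 eT; ring)
  have t2 := ((r2 i k j l i j k l).add (r2 j l i k i j k l)).add
    ((r2' i k j l k l i j).add (r2' j l i k k l i j))
  have t4 := ((r4 i k j l).add (r4 j l i k)).cmul 2
  have t5 := r5.cmul 2
  have t6 := (r6 i k j l).add (r6 j l i k)
  exact (((((r1.sub t2).add r3).sub t4).sub t5).add t6).congr fun a z _ => by ring

/-- `Γ₂` of the first slot as a function. -/
def gF (s : ι → ι → α → X → ℝ) (D : ι → ι → ι → α → X → ℝ) (DD : ι → ι → ι → ι → α → X → ℝ)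
    (H : ι → ι → α → X → ℝ) (w : ι → α → X → ℝ) (a : α) (z : X) : ℝ :=
  gN (fun i j => s i j a z) (fun l i j => D l i j a z) (fun k l i j => DD k l i j a z)
    (fun i j => H i j a z) fun i => w i a z

/-- The mixed square as a function. -/
def mF (s s' : ι → ι → α → X → ℝ) (M : ι → ι → α → X → ℝ) (a : α) (z : X) : ℝ :=
  mN (fun i j => s i j a z) (fun i j => s' i j a z) fun i j => M i j a z

/-- The antisymmetric part. -/
def ant (s s' H M : ι → ι → α → X → ℝ) (i j k l : ι) (a : α) (z : X) : ℝ :=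
  H i k a z * H j l a z * (s i j a z * (s k l a z - s' k l a z) -
        (s i j a z - s' i j a z) * s k l a z) +
      s i j a z * s k l a z * (H i k a z * (M j l a z - M l j a z) +
        H j l a z * (M i k a z - M k i a z))

/-- **`G + G' - 2 M = O(e² r² + e N)`.** -/
theorem Nb.z2 (h : Nb U r e N s s' D D' DD DD' H K M w w') :
    OO U (eT r e N) fun a z => gF s D DD H w a z + gF s' D' DD' K w' a z - 2 * mF s s' M a z := by
  have hT : ∀ a, ∀ z ∈ U a, e a z ^ 2 * r a z ^ 2 ≤ eT r e N a z := by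
    intro a z hz
    have := mul_nonneg (h.sz.e0 a z hz) (h.sz.N0 a z hz)
    unfold eT; linarith
  have key := OO.Q4 fun i j k l => ((((((h.main i j k l).add ((h.tri i j i k l j k l).cmul 2)).sub
    (h.tri k l l i j i j k)).add ((((h.c0 (h.os i j) (h.oDD i j k l) k l).le hT).add
    ((h.c0' (h.os' i j) (h.oDD' i j k l) k l).le hT)).cmul (1 / 2))).add
    ((((h.c0 (h.oD i i j) (h.oD j k l) k l).le hT).add
    ((h.c0' (h.oD' i i j) (h.oD' j k l) k l).le hT)).cmul (1 / 2))).sub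
    (((h.c0 (h.os k l) (h.oDD l i i j) k j).le hT).add
    ((h.c0' (h.os' k l) (h.oDD' l i i j) k j).le hT)))
  refine key.congr fun a z hz => ?_
  have han : Q4 (fun i j k l => ant s s' H M i j k l a z) = 0 := by
    refine Q4_anti fun i j k l => ?_
    have h1 := h.hH k i a z hz
    have h2 := h.hH l j a z hz
    unfold ant
    rw [h1, h2]
    ring
  rw [← sub_eq_zero, ← han]
  unfold gF mF gN mN
  simp only [Q4, Finset.mul_sum, ← Finset.sum_add_distrib, ← Finset.sum_sub_distrib]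
  refine Finset.sum_congr rfl fun i _ => Finset.sum_congr rfl fun j _ =>
    Finset.sum_congr rfl fun k _ => Finset.sum_congr rfl fun l _ => ?_
  unfold ant
  ring

/-- **`G - G' = O(e² r)`.** -/
theorem Nb.z1 (h : Nb U r e N s s' D D' DD DD' H K M w w') :
    OO U (fun a z => e a z ^ 2 * r a z) fun a z => gF s D DD H w a z - gF s' D' DD' K w' a z := by
  have hT : ∀ a, ∀ z ∈ U a, e a z ^ 2 * r a z ^ 2 ≤ e a z ^ 2 * r a z := by
    intro a z hz
    have h1 := h.sz.r0 a z hz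
    have h2 := h.sz.r1 a z hz
    have : r a z ^ 2 ≤ r a z := by nlinarith
    exact mul_le_mul_of_nonneg_left this (sq_nonneg _)
  have m1 : ∀ i j k l, OO U (fun a z => e a z ^ 2 * r a z) fun a z =>
      (s i j a z - s' i j a z) * s k l a z * H i k a z * H j l a z := fun i j k l =>
    OO.m4 (h.osd i j) (h.os k l) (h.oH i k) (h.oH j l) (A := 1) zero_le_one
      fun a z _ => le_of_eq (by unfold o1; ring)
  have m2 : ∀ i j k l, OO U (fun a z => e a z ^ 2 * r a z) fun a z =>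
      s' i j a z * (s k l a z - s' k l a z) * H i k a z * H j l a z := fun i j k l =>
    OO.m4 (h.os' i j) (h.osd k l) (h.oH i k) (h.oH j l) (A := 1) zero_le_one
      fun a z _ => le_of_eq (by unfold o1; ring)
  have m3 : ∀ i j k l, OO U (fun a z => e a z ^ 2 * r a z) fun a z =>
      s' i j a z * s' k l a z * (K i k a z - H i k a z) * H j l a z := fun i j k l =>
    OO.m4 (h.os' i j) (h.os' k l) (h.oB i k) (h.oH j l) (A := 1) zero_le_one
      fun a z _ => le_of_eq (by unfold o1 er; ring)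
  have m4 : ∀ i j k l, OO U (fun a z => e a z ^ 2 * r a z) fun a z =>
      s' i j a z * s' k l a z * K i k a z * (K j l a z - H j l a z) := fun i j k l =>
    OO.m4 (h.os' i j) (h.os' k l) (h.oK i k) (h.oB j l) (A := 1) zero_le_one
      fun a z _ => le_of_eq (by unfold o1 er; ring)
  have key := OO.Q4 fun i j k l => (((((((m1 i j k l).add (m2 i j k l)).sub
    ((m3 i j k l).add (m4 i j k l))).add
    (((h.t0 i j i k l j k l).sub (h.t0' i j i k l j k l)).cmul 2)).sub
    ((h.t0 k l l i j i j k).sub (h.t0' k l l i j i j k))).add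
    ((((h.c0 (h.os i j) (h.oDD i j k l) k l).le hT).sub
    ((h.c0' (h.os' i j) (h.oDD' i j k l) k l).le hT)).cmul (1 / 2))).add
    ((((h.c0 (h.oD i i j) (h.oD j k l) k l).le hT).sub
    ((h.c0' (h.oD' i i j) (h.oD' j k l) k l).le hT)).cmul (1 / 2))).sub
    (((h.c0 (h.os k l) (h.oDD l i i j) k j).le hT).sub
    ((h.c0' (h.os' k l) (h.oDD' l i i j) k j).le hT))
  refine key.congr fun a z hz => ?_
  rw [← sub_eq_zero]
  unfold gF gN
  simp only [Q4, Finset.mul_sum, ← Finset.sum_add_distrib, ← Finset.sum_sub_distrib]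
  refine Finset.sum_eq_zero fun i _ => Finset.sum_eq_zero fun j _ =>
    Finset.sum_eq_zero fun k _ => Finset.sum_eq_zero fun l _ => ?_
  ring

omit [Fintype ι] in
theorem S0.b1 (z : S0 U r e N) : ∀ a, ∀ x ∈ U a, e a x ^ 2 * r a x ≤ e a x ^ 2 := by
  intro a x hx
  exact mul_le_of_le_one_right (sq_nonneg _) (z.r1 a x hx)

omit [Fintype ι] in
theorem S0.b2 (z : S0 U r e N) : ∀ a, ∀ x ∈ U a, e a x ^ 2 * r a x ^ 2 ≤ e a x ^ 2 := by
  intro a x hx
  have h3 := z.r0 a x hx
  have h4 := z.r1 a x hx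
  have : r a x ^ 2 ≤ 1 := by nlinarith
  exact mul_le_of_le_one_right (sq_nonneg _) this

/-- **`G = O(e²)`.** -/
theorem Nb.g0 (h : Nb U r e N s s' D D' DD DD' H K M w w') :
    OO U (fun a z => e a z ^ 2) (gF s D DD H w) := by
  have m1 : ∀ i j k l, OO U (fun a z => e a z ^ 2) fun a z =>
      s i j a z * s k l a z * H i k a z * H j l a z := fun i j k l =>
    OO.m4 (h.os i j) (h.os k l) (h.oH i k) (h.oH j l) (A := 1) zero_le_one
      fun a z _ => le_of_eq (by unfold o1; ring)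
  have key := OO.Q4 fun i j k l => (((((m1 i j k l).add
    (((h.t0 i j i k l j k l).le h.sz.b1).cmul 2)).sub
    ((h.t0 k l l i j i j k).le h.sz.b1)).add
    (((h.c0 (h.os i j) (h.oDD i j k l) k l).le h.sz.b2).cmul (1 / 2))).add
    (((h.c0 (h.oD i i j) (h.oD j k l) k l).le h.sz.b2).cmul (1 / 2))).sub
    ((h.c0 (h.os k l) (h.oDD l i i j) k j).le h.sz.b2)
  refine key.congr fun a z hz => ?_
  rw [← sub_eq_zero]
  unfold gF gN
  simp only [Q4, Finset.mul_sum, ← Finset.sum_add_distrib, ← Finset.sum_sub_distrib]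
  refine Finset.sum_eq_zero fun i _ => Finset.sum_eq_zero fun j _ =>
    Finset.sum_eq_zero fun k _ => Finset.sum_eq_zero fun l _ => ?_
  ring

/-- **`M = O(e²)`.** -/
theorem Nb.m0 (h : Nb U r e N s s' D D' DD DD' H K M w w') :
    OO U (fun a z => e a z ^ 2) (mF s s' M) :=
  OO.Q4 fun i j k l => OO.m4 (h.os' k l) (h.os i j) (h.oM i k) (h.oM j l) (A := 1) zero_le_one
      fun a z _ => le_of_eq (by unfold o1; ring)

/-- The arithmetic of the zero order terms. -/
theorem zero_arith {G G' M' ee rr T x y C0 Cm C1 C2 : ℝ} (p0 : 0 ≤ C0) (pm : 0 ≤ Cm) (p1 : 0 ≤ C1)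
    (p2 : 0 ≤ C2) (a0 : |G| ≤ C0 * ee ^ 2) (am : |M'| ≤ Cm * ee ^ 2)
    (a1 : |G - G'| ≤ C1 * (ee ^ 2 * rr)) (a2 : |G + G' - 2 * M'| ≤ C2 * T) (q0 : 0 ≤ rr)
    (q1 : rr ≤ 1) (hT : ee ^ 2 * rr ^ 2 ≤ T) :
    |G * x ^ 2 + 2 * (M' * (x * y)) + G' * y ^ 2| ≤
      (2 * C0 + 2 * C1 + 2 * Cm + C2) * (ee ^ 2 * (x + y) ^ 2 + T * (x ^ 2 + y ^ 2)) := by
  have hT0 : 0 ≤ T := le_trans (by positivity) hT
  obtain ⟨b, c, rfl, rfl⟩ : ∃ b c : ℝ, x = b + c ∧ y = b - c :=
    ⟨(x + y) / 2, (x - y) / 2, by ring, by ring⟩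
  have e1 : G * (b + c) ^ 2 + 2 * (M' * ((b + c) * (b - c))) + G' * (b - c) ^ 2 =
      (2 * G + 2 * M' - (G - G')) * b ^ 2 + 2 * (G - G') * (b * c) +
        (G + G' - 2 * M') * c ^ 2 := by ring
  have w1 : |2 * G + 2 * M' - (G - G')| ≤ (2 * C0 + C1 + 2 * Cm) * ee ^ 2 := by
    have t4 : C1 * (ee ^ 2 * rr) ≤ C1 * ee ^ 2 :=
      mul_le_mul_of_nonneg_left (mul_le_of_le_one_right (sq_nonneg _) q1) p1
    refine (abs_sub _ _).trans ?_
    refine (add_le_add (abs_add_le _ _) a1).trans ?_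
    rw [abs_mul, abs_mul, abs_two]
    linarith
  have f1 : |(2 * G + 2 * M' - (G - G')) * b ^ 2| ≤ (2 * C0 + C1 + 2 * Cm) * ee ^ 2 * b ^ 2 := by
    rw [abs_mul, abs_of_nonneg (sq_nonneg b)]
    exact mul_le_mul_of_nonneg_right w1 (sq_nonneg b)
  have f2 : |2 * (G - G') * (b * c)| ≤ C1 * (ee ^ 2 * b ^ 2 + ee ^ 2 * rr ^ 2 * c ^ 2) := by
    rw [abs_mul, abs_mul 2, abs_two]
    have t1 : 2 * |G - G'| * |b * c| ≤ 2 * (C1 * (ee ^ 2 * rr)) * |b * c| :=
      mul_le_mul_of_nonneg_right (by linarith) (abs_nonneg _)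
    have t2 : 2 * (rr * |b * c|) ≤ b ^ 2 + rr ^ 2 * c ^ 2 := by
      rw [abs_mul]
      nlinarith [sq_nonneg (|b| - rr * |c|), sq_abs b, sq_abs c]
    have t3 := mul_le_mul_of_nonneg_left t2 (mul_nonneg p1 (sq_nonneg ee))
    linarith
  have f3 : |(G + G' - 2 * M') * c ^ 2| ≤ C2 * T * c ^ 2 := by
    rw [abs_mul, abs_of_nonneg (sq_nonneg c)]
    exact mul_le_mul_of_nonneg_right a2 (sq_nonneg c)
  have hbb : b ^ 2 ≤ (b + c + (b - c)) ^ 2 := by nlinarith [sq_nonneg b]
  have hcc : c ^ 2 ≤ (b + c) ^ 2 + (b - c) ^ 2 := by nlinarith [sq_nonneg b, sq_nonneg c]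
  have g1 := mul_le_mul_of_nonneg_left hbb (sq_nonneg ee)
  have g2 := mul_le_mul_of_nonneg_left hcc hT0
  have g3 : ee ^ 2 * rr ^ 2 * c ^ 2 ≤ T * ((b + c) ^ 2 + (b - c) ^ 2) :=
    (mul_le_mul_of_nonneg_right hT (sq_nonneg c)).trans g2
  have m1 := mul_le_mul_of_nonneg_left g1 (by positivity : 0 ≤ 2 * C0 + 2 * C1 + 2 * Cm)
  have m2 := mul_le_mul_of_nonneg_left g2 p2
  have m3 := mul_le_mul_of_nonneg_left g3 p1
  have z1 : 0 ≤ ee ^ 2 * (b + c + (b - c)) ^ 2 := by positivity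
  have z2 : 0 ≤ T * ((b + c) ^ 2 + (b - c) ^ 2) := by positivity
  have n2 := mul_nonneg p0 z2
  have n3 := mul_nonneg pm z2
  have n4 := mul_nonneg p1 z2
  have n5 := mul_nonneg p2 z1
  rw [e1]
  refine (abs_add_le _ _).trans ((add_le_add (abs_add_le _ _) le_rfl).trans ?_)
  refine (add_le_add (add_le_add f1 f2) f3).trans ?_
  linarith

/-- **The zero order terms.** -/
theorem Nb.zero (h : Nb U r e N s s' D D' DD DD' H K M w w') : ∃ C, 0 ≤ C ∧ ∀ a, ∀ z ∈ U a,
    ∀ x y : ℝ, |gF s D DD H w a z * x ^ 2 + 2 * (mF s s' M a z * (x * y)) +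
      gF s' D' DD' K w' a z * y ^ 2| ≤ C * (e a z ^ 2 * (x + y) ^ 2 +
        eT r e N a z * (x ^ 2 + y ^ 2)) := by
  obtain ⟨C0, p0, k0⟩ := h.g0
  obtain ⟨Cm, pm, km⟩ := h.m0
  obtain ⟨C1, p1, k1⟩ := h.z1
  obtain ⟨C2, p2, k2⟩ := h.z2
  refine ⟨2 * C0 + 2 * C1 + 2 * Cm + C2, by positivity, fun a z hz x y => ?_⟩
  refine zero_arith p0 pm p1 p2 (k0 a z hz) (km a z hz) (k1 a z hz) (k2 a z hz)
    (h.sz.r0 a z hz) (h.sz.r1 a z hz) ?_
  have := mul_nonneg (h.sz.e0 a z hz) (h.sz.N0 a z hz)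
  unfold eT; linarith

end Vale.Agent.P088.R2.H814.An
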